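import Vale.Agent.P088.R2.H404.DH

/-!
# P088, stage 3, DIR': weighted solvability, final statements
-/

open MeasureTheory Set Filter Topology
open scoped ContDiff Matrix RealInnerProductSpace

noncomputable section

namespace Vale.Agent.P088.R2.H404

open Vale.Agent.P088.LR Vale.Agent.P088.HY

variable {n m : ℕ} {O : Set (V n)}

/-- bounded smooth lower order coefficients on `O` -/
structure CoB (O : Set (V n)) (M : ℝ) (B : Fin m → Fin m → Fin n → V n → ℝ)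
    (C : Fin m → Fin m → V n → ℝ) : Prop where
  bs : ∀ a b l, ContDiffOn ℝ ∞ (B a b l) O
  cs : ∀ a b, ContDiffOn ℝ ∞ (C a b) O
  b0 : ∀ a b l, ∀ x ∈ O, |B a b l x| ≤ M
  b1 : ∀ a b l, ∀ x ∈ O, |LR.pd l (B a b l) x| ≤ M
  c0 : ∀ a b, ∀ x ∈ O, |C a b x| ≤ M

theorem CW.mono {ε M M' σ c₀ : ℝ} (hM : M ≤ M') {s : MF n} {G : V n → ℝ}
    (h : CW O ε M σ c₀ s G) : CW O ε M' σ c₀ s G where
  sm := h.sm
  sy := h.sy
  s0 := h.s0
  s1 := h.s1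
  s2 := h.s2
  gs := h.gs
  g1 := fun x hx i => (h.g1 x hx i).trans hM
  g2 := fun x hx i j => (h.g2 x hx i j).trans hM
  g3 := fun x hx i j k => (h.g3 x hx i j k).trans hM
  gr := h.gr
  gc := h.gc

theorem exists_sml (n : ℕ) {M σ c₀ : ℝ} (hM : 0 < M) (hσ : 0 < σ) (hc : 0 < c₀) :
    ∃ ε : ℝ, 0 < ε ∧ Sml n ε M σ c₀ ∧ n * ε ≤ 1 / 2 := by
  set N : ℝ := (n : ℝ) ^ 3 with hN
  have hN0 : 0 ≤ N := by positivity
  set A : ℝ := 1 + (4 * N + 4 * N * M ^ 2 / c₀ + 64 * N * M / σ + 8 * N * M ^ 3 / (σ * c₀)) with hA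
  have t1 : 0 ≤ 4 * N := by positivity
  have t2 : 0 ≤ 4 * N * M ^ 2 / c₀ := by positivity
  have t3 : 0 ≤ 64 * N * M / σ := by positivity
  have t4 : 0 ≤ 8 * N * M ^ 3 / (σ * c₀) := by positivity
  have hA1 : 1 ≤ A := by rw [hA]; linarith
  have hA0 : 0 < A := by linarith
  have hε0 : 0 < 1 / A := by positivity
  have hε1 : 1 / A ≤ 1 := by rw [div_le_one hA0]; exact hA1
  have hsq : (1 / A) ^ 2 ≤ 1 / A := by rw [pow_two]; nlinarith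
  have hNA : N * (1 / A) ≤ 1 / 4 := by
    rw [mul_one_div, div_le_iff₀ hA0]; linarith
  have hnN : (n : ℝ) ≤ N := by
    rcases Nat.eq_zero_or_pos n with h | h
    · subst h; simp [hN]
    · have : (1 : ℝ) ≤ n := by exact_mod_cast h
      rw [hN]; nlinarith [sq_nonneg ((n : ℝ) - 1), mul_nonneg (sub_nonneg.2 this) (sub_nonneg.2 this)]
  refine ⟨1 / A, hε0, ⟨hε0.le, hM, hσ, hc, hε1, ?_, ?_, ?_, ?_, ?_⟩, ?_⟩
  · have := mul_le_mul_of_nonneg_right hnN hε0.le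
    linarith
  · have := mul_le_mul_of_nonneg_left hsq hN0
    linarith
  · have h1 : N * (1 / A) * M ^ 2 ≤ c₀ / 4 := by
      have h2 : 4 * N * M ^ 2 / c₀ ≤ A := by linarith
      rw [div_le_iff₀ hc] at h2
      rw [mul_one_div, div_mul_eq_mul_div, div_le_iff₀ hA0]
      linarith
    have h3 := mul_le_mul_of_nonneg_right (mul_le_mul_of_nonneg_left hsq hN0) (sq_nonneg M)
    linarith
  · have h2 : 64 * N * M / σ ≤ A := by linarith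
    rw [div_le_iff₀ hσ] at h2
    have h3 : 4 * (N * M * (1 / A)) = (4 * N * M) / A := by ring
    rw [h3, div_le_iff₀ hA0]
    linarith
  · have h2 : 8 * N * M ^ 3 / (σ * c₀) ≤ A := by linarith
    rw [div_le_iff₀ (by positivity)] at h2
    have h3 : 2 * N * M ^ 3 * (1 / A) = (2 * N * M ^ 3) / A := by ring
    rw [h3, div_le_iff₀ hA0]
    linarith
  · have := mul_le_mul_of_nonneg_right hnN hε0.le
    linarith

theorem exists_rho (n m : ℕ) {M σ c₀ : ℝ} (hσ : 0 < σ) (hc : 0 < c₀) :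
    ∃ ρ₀ : ℝ, 1 ≤ ρ₀ ∧ ∀ ρ, ρ₀ ≤ ρ → RhoS n m M σ c₀ ρ := by
  set a : ℝ := 32 * (n : ℝ) ^ 2 * ((n : ℝ) * (n * (5 * M))) ^ 2 / σ with ha
  set b : ℝ := 2 * (m * (2 * (m * n * M ^ 2))) with hb
  set c : ℝ := 2 * (m * (2 * (m * (M + n * M ^ 2) ^ 2))) with hcc
  have ha0 : 0 ≤ a := by positivity
  have hb0 : 0 ≤ b := by positivity
  have hc0 : 0 ≤ c := by positivity
  refine ⟨1 + (a / (σ * c₀ / 4) + b / (σ / 8) + c / (σ * c₀ / 8)), ?_, fun ρ hρ => ?_⟩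
  · have : 0 ≤ a / (σ * c₀ / 4) + b / (σ / 8) + c / (σ * c₀ / 8) := by positivity
    linarith
  · have e1 : 0 ≤ a / (σ * c₀ / 4) := by positivity
    have e2 : 0 ≤ b / (σ / 8) := by positivity
    have e3 : 0 ≤ c / (σ * c₀ / 8) := by positivity
    have h1 : 1 ≤ ρ := by linarith
    refine ⟨h1, ?_, ?_, ?_⟩
    · have h2 : a / (σ * c₀ / 4) ≤ ρ := by linarith
      rw [div_le_iff₀ (by positivity)] at h2
      have h3 : ρ * (σ * c₀ / 4) ≤ ρ ^ 2 * (σ * c₀ / 4) := by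
        have : ρ ≤ ρ ^ 2 := by nlinarith
        gcongr
      linarith
    · have h2 : b / (σ / 8) ≤ ρ := by linarith
      rwa [div_le_iff₀ (by positivity)] at h2
    · have h2 : c / (σ * c₀ / 8) ≤ ρ := by linarith
      rwa [div_le_iff₀ (by positivity)] at h2

/-- **DIR', systems.** Weighted solvability of
`∑ ∂_i (s_ij ∂_j w_a) + ∑_b ∑_l B_abl ∂_l w_b + ∑_b C_ab w_b = F_a` on an arbitrary open set. -/
theorem dirwS (hyp : RowHYP) (n m : ℕ) {M σ c₀ : ℝ} (hM : 0 < M) (hσ : 0 < σ) (hc : 0 < c₀) :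
    ∃ ε ρ₀ : ℝ, 0 < ε ∧ 1 ≤ ρ₀ ∧ ∀ O : Set (V n), IsOpen O → ∀ (s : MF n) (G : V n → ℝ),
      CW O ε M σ c₀ s G → ∀ (B : Fin m → Fin m → Fin n → V n → ℝ) (C : Fin m → Fin m → V n → ℝ),
      CoB O M B C → ∀ ρ, ρ₀ ≤ ρ → ∀ F : Fin m → V n → ℝ, (∀ a, ContDiffOn ℝ ∞ (F a) O) →
      (∀ a, IntegrableOn (fun x => F a x ^ 2 * Real.exp (-(2 * ρ * G x))) O) →
      ∃ w : Fin m → V n → ℝ, (∀ a, ContDiffOn ℝ ∞ (w a) O) ∧
        (∀ a, ∀ x ∈ O, Ls s B C w a x = F a x) ∧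
        (∀ a, IntegrableOn (fun x => w a x ^ 2 * Real.exp (-(2 * ρ * G x))) O) ∧
        ∑ a, ∫ x in O, w a x ^ 2 * Real.exp (-(2 * ρ * G x)) ≤
          16 / (σ * c₀ * ρ ^ 3) * ∑ a, ∫ x in O, F a x ^ 2 * Real.exp (-(2 * ρ * G x)) := by
  have hn0 : (0 : ℝ) ≤ n := Nat.cast_nonneg n
  have hM' : 0 < (n + 1) * M := by positivity
  obtain ⟨ε, hε, hsm, hne⟩ := exists_sml n hM' hσ hc
  obtain ⟨ρ₀, hρ₀, hρ⟩ := exists_rho n m (M := (n + 1) * M) hσ hc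
  refine ⟨ε, ρ₀, hε, hρ₀, fun O hO s G h B C hBC ρ hρ1 F hF hFi => ?_⟩
  have hMM : M ≤ (n + 1) * M := by nlinarith
  have h' := h.mono hMM
  have hρ0 : 0 < ρ := by linarith
  have hR := hρ ρ hρ1
  have hell : ∀ x ∈ O, ∀ ξ : Fin n → ℝ, ξ ≠ 0 → ∑ i, ∑ j, s x i j * ξ i * ξ j ≠ 0 :=
    fun x hx ξ hξ => (quad_pos' hε.le hne (h.s0 x hx) hξ).ne'
  refine solS hyp hO h.sm h.sy hell hBC.bs hBC.cs h.gs (by positivity) (fun φ hφ => ?_) hF hFi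
  refine carlemanS hO hsm hR h' (Bt_cdo hBC.bs) (Ct_cdo hO hBC.bs hBC.cs) ?_ ?_ hφ
  · intro a b l x hx
    unfold Bt
    rw [abs_neg]
    exact (hBC.b0 b a l x hx).trans hMM
  · intro a b x hx
    unfold Ct
    have h1 : |∑ l, LR.pd l (B b a l) x| ≤ n * M := abs_sum_le' fun l => hBC.b1 b a l x hx
    have h2 := hBC.c0 b a x hx
    have h3 := abs_sub (C b a x) (∑ l, LR.pd l (B b a l) x)
    linarith

/-- **DIR', scalar, with a potential.** -/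
theorem dirw (hyp : RowHYP) (n : ℕ) {M σ c₀ : ℝ} (hM : 0 < M) (hσ : 0 < σ) (hc : 0 < c₀) :
    ∃ ε ρ₀ : ℝ, 0 < ε ∧ 1 ≤ ρ₀ ∧ ∀ O : Set (V n), IsOpen O → ∀ (s : MF n) (G q : V n → ℝ),
      CW O ε M σ c₀ s G → ContDiffOn ℝ ∞ q O → (∀ x ∈ O, |q x| ≤ M) →
      ∀ ρ, ρ₀ ≤ ρ → ∀ F : V n → ℝ, ContDiffOn ℝ ∞ F O →
      IntegrableOn (fun x => F x ^ 2 * Real.exp (-(2 * ρ * G x))) O →
      ∃ w : V n → ℝ, ContDiffOn ℝ ∞ w O ∧ (∀ x ∈ O, Ld s w x + q x * w x = F x) ∧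
        IntegrableOn (fun x => w x ^ 2 * Real.exp (-(2 * ρ * G x))) O ∧
        ∫ x in O, w x ^ 2 * Real.exp (-(2 * ρ * G x)) ≤
          16 / (σ * c₀ * ρ ^ 3) * ∫ x in O, F x ^ 2 * Real.exp (-(2 * ρ * G x)) := by
  obtain ⟨ε, ρ₀, hε, hρ₀, H⟩ := dirwS hyp n 1 hM hσ hc
  refine ⟨ε, ρ₀, hε, hρ₀, fun O hO s G q h hq hqM ρ hρ F hF hFi => ?_⟩
  obtain ⟨w, hw1, hw2, hw3, hw4⟩ := H O hO s G h (fun _ _ _ _ => 0) (fun _ _ => q)
    ⟨fun _ _ _ => contDiffOn_const, fun _ _ => hq, fun _ _ _ _ _ => by simpa using hM.le,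
      fun _ _ l x _ => by
        have : LR.pd l (fun _ : V n => (0 : ℝ)) x = 0 := by unfold LR.pd; simp
        rw [this]; simpa using hM.le, fun _ _ => hqM⟩ ρ hρ (fun _ => F) (fun _ => hF) (fun _ => hFi)
  refine ⟨w 0, hw1 0, fun x hx => ?_, hw3 0, ?_⟩
  · have := hw2 0 x hx
    unfold Ls at this
    simpa using this
  · simpa using hw4

theorem Ld_eq_Lv (hO : IsOpen O) {s : MF n} (hs : SmO O s)
    (hdv : ∀ x ∈ O, ∀ j, ∑ i, LR.pd i (fun y => s y i j) x = 0) {f : V n → ℝ}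
    (hf : ContDiffOn ℝ ∞ f O) {x : V n} (hx : x ∈ O) : Ld s f x = Lv s f x := by
  rw [Ld_eq hO hs hf hx]
  simp only [Finset.sum_add_distrib]
  have h2 : ∑ k, ∑ l, LR.pd k (fun y => s y k l) x * LR.pd l f x = 0 := by
    rw [Finset.sum_comm]
    refine Finset.sum_eq_zero fun j _ => ?_
    rw [← Finset.sum_mul, hdv x hx j, zero_mul]
  rw [h2, zero_add]
  rfl

/-- **DIR', scalar, divergence free tensor.** -/
theorem dirwLv (hyp : RowHYP) (n : ℕ) {M σ c₀ : ℝ} (hM : 0 < M) (hσ : 0 < σ) (hc : 0 < c₀) :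
    ∃ ε ρ₀ : ℝ, 0 < ε ∧ 1 ≤ ρ₀ ∧ ∀ O : Set (V n), IsOpen O → ∀ (s : MF n) (G : V n → ℝ),
      CW O ε M σ c₀ s G → (∀ x ∈ O, ∀ j, ∑ i, LR.pd i (fun y => s y i j) x = 0) →
      ∀ ρ, ρ₀ ≤ ρ → ∀ F : V n → ℝ, ContDiffOn ℝ ∞ F O →
      IntegrableOn (fun x => F x ^ 2 * Real.exp (-(2 * ρ * G x))) O →
      ∃ w : V n → ℝ, ContDiffOn ℝ ∞ w O ∧ (∀ x ∈ O, Lv s w x = F x) ∧
        IntegrableOn (fun x => w x ^ 2 * Real.exp (-(2 * ρ * G x))) O ∧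
        ∫ x in O, w x ^ 2 * Real.exp (-(2 * ρ * G x)) ≤
          16 / (σ * c₀ * ρ ^ 3) * ∫ x in O, F x ^ 2 * Real.exp (-(2 * ρ * G x)) := by
  obtain ⟨ε, ρ₀, hε, hρ₀, H⟩ := dirw hyp n hM hσ hc
  refine ⟨ε, ρ₀, hε, hρ₀, fun O hO s G h hdv ρ hρ F hF hFi => ?_⟩
  obtain ⟨w, hw1, hw2, hw3, hw4⟩ := H O hO s G (fun _ => 0) h contDiffOn_const
    (fun x _ => by simpa using hM.le) ρ hρ F hF hFi
  refine ⟨w, hw1, fun x hx => ?_, hw3, hw4⟩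
  rw [← Ld_eq_Lv hO h.sm hdv hw1 hx, ← hw2 x hx]
  simp

end Vale.Agent.P088.R2.H404
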