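import Vale.Agent.P088.R2.H558.Spec

/-!
# P088, stage 3: calculus with test functions on an open set of `V n`
-/

open MeasureTheory Set Filter Topology
open scoped ContDiff Matrix

noncomputable section

namespace Vale.Agent.P088.R2.H404

open Vale.Agent.P088.LR Vale.Agent.P088.HY

variable {n : ℕ}

/-- Test functions on `O`. -/
structure TO (O : Set (V n)) (φ : V n → ℝ) : Prop where
  sm : ContDiff ℝ ∞ φ
  cs : HasCompactSupport φ
  ts : tsupport φ ⊆ O

variable {O : Set (V n)}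

theorem TO.zero {φ : V n → ℝ} (h : TO O φ) {x : V n} (hx : x ∉ O) : φ x = 0 :=
  image_eq_zero_of_notMem_tsupport fun h' => hx (h.ts h')

theorem TO.integrable {φ : V n → ℝ} (h : TO O φ) : Integrable φ :=
  h.sm.continuous.integrable_of_hasCompactSupport h.cs

theorem TO.mul (hO : IsOpen O) {f φ : V n → ℝ} (hf : ContDiffOn ℝ ∞ f O) (h : TO O φ) :
    TO O fun x => f x * φ x := by
  have hts : tsupport (fun x => f x * φ x) ⊆ tsupport φ := tsupport_mul_subset_right
  refine ⟨contDiff_iff_contDiffAt.2 fun x => ?_, h.cs.mul_left, hts.trans h.ts⟩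
  by_cases hx : x ∈ tsupport φ
  · exact ((hf x (h.ts hx)).contDiffAt (hO.mem_nhds (h.ts hx))).mul h.sm.contDiffAt
  · have h0 : (fun x => f x * φ x) =ᶠ[𝓝 x] fun _ => 0 := by
      filter_upwards [notMem_tsupport_iff_eventuallyEq.1 hx] with y hy
      simp [hy]
    exact contDiffAt_const.congr_of_eventuallyEq h0

theorem TO.mul' (hO : IsOpen O) {f φ : V n → ℝ} (h : TO O φ) (hf : ContDiffOn ℝ ∞ f O) :
    TO O fun x => φ x * f x := by
  have := TO.mul hO hf h
  simpa [mul_comm] using this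

theorem TO.add {f φ : V n → ℝ} (hf : TO O f) (h : TO O φ) : TO O fun x => f x + φ x :=
  ⟨hf.sm.add h.sm, hf.cs.add h.cs, (tsupport_add f φ).trans (union_subset hf.ts h.ts)⟩

theorem TO.const_mul {φ : V n → ℝ} (c : ℝ) (h : TO O φ) : TO O fun x => c * φ x := by
  refine ⟨contDiff_const.mul h.sm, h.cs.mul_left, tsupport_mul_subset_right.trans h.ts⟩

theorem TO.neg {φ : V n → ℝ} (h : TO O φ) : TO O fun x => - φ x := by
  simpa using h.const_mul (-1)

theorem TO.sub {f φ : V n → ℝ} (hf : TO O f) (h : TO O φ) : TO O fun x => f x - φ x := by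
  simpa [sub_eq_add_neg] using hf.add h.neg

theorem TO.zero_fun : TO O (fun _ : V n => (0 : ℝ)) :=
  ⟨contDiff_const, HasCompactSupport.zero, by simp [tsupport]⟩

theorem TO.sum {ι : Type*} (s : Finset ι) {f : ι → V n → ℝ} (h : ∀ i ∈ s, TO O (f i)) :
    TO O fun x => ∑ i ∈ s, f i x := by
  classical
  induction s using Finset.induction_on with
  | empty => simpa using TO.zero_fun
  | insert a s ha ih =>
    simp only [Finset.sum_insert ha]
    exact (h a (Finset.mem_insert_self a s)).add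
      (ih fun i hi => h i (Finset.mem_insert_of_mem hi))

theorem TO.pd {φ : V n → ℝ} (h : TO O φ) (i : Fin n) : TO O (pd i φ) := by
  refine ⟨?_, ?_, ?_⟩
  · exact (h.sm.fderiv_right (m := ∞) (by simp)).clm_apply contDiff_const
  · exact h.cs.fderiv_apply (𝕜 := ℝ) (Pi.single i 1)
  · exact (tsupport_fderiv_apply_subset ℝ (Pi.single i 1)).trans h.ts

theorem TO.con {φ : V n → ℝ} (h : TO O φ) : ContDiffOn ℝ ∞ φ O := h.sm.contDiffOn

theorem pd_cdo (hO : IsOpen O) {f : V n → ℝ} (hf : ContDiffOn ℝ ∞ f O)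
    (i : Fin n) : ContDiffOn ℝ ∞ (LR.pd i f) O :=
  (hf.fderiv_of_isOpen hO (m := ∞) (by simp)).clm_apply contDiffOn_const

theorem cdo_dif (hO : IsOpen O) {f : V n → ℝ} (hf : ContDiffOn ℝ ∞ f O) {x : V n} (hx : x ∈ O) :
    DifferentiableAt ℝ f x :=
  ((hf x hx).contDiffAt (hO.mem_nhds hx)).differentiableAt (by simp)

theorem pd_mul' (hO : IsOpen O) {f g : V n → ℝ} (hf : ContDiffOn ℝ ∞ f O)
    (hg : ContDiffOn ℝ ∞ g O) {x : V n} (hx : x ∈ O) (i : Fin n) :
    LR.pd i (fun y => f y * g y) x = LR.pd i f x * g x + f x * LR.pd i g x := by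
  have h := (cdo_dif hO hf hx).hasFDerivAt.mul (cdo_dif hO hg hx).hasFDerivAt
  have h' : HasFDerivAt (fun y => f y * g y) _ x := h
  unfold LR.pd
  rw [h'.fderiv]
  simp only [_root_.add_apply, _root_.smul_apply, smul_eq_mul]
  ring

theorem pd_add' (hO : IsOpen O) {f g : V n → ℝ} (hf : ContDiffOn ℝ ∞ f O)
    (hg : ContDiffOn ℝ ∞ g O) {x : V n} (hx : x ∈ O) (i : Fin n) :
    LR.pd i (fun y => f y + g y) x = LR.pd i f x + LR.pd i g x := by
  have h' : HasFDerivAt (fun y => f y + g y) _ x :=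
    (cdo_dif hO hf hx).hasFDerivAt.add (cdo_dif hO hg hx).hasFDerivAt
  unfold LR.pd
  rw [h'.fderiv]
  simp only [_root_.add_apply]

theorem pd_cmul' (hO : IsOpen O) {g : V n → ℝ} (c : ℝ)
    (hg : ContDiffOn ℝ ∞ g O) {x : V n} (hx : x ∈ O) (i : Fin n) :
    LR.pd i (fun y => c * g y) x = c * LR.pd i g x := by
  have h' : HasFDerivAt (fun y => c * g y) _ x :=
    (cdo_dif hO hg hx).hasFDerivAt.const_mul c
  unfold LR.pd
  rw [h'.fderiv]
  simp only [_root_.smul_apply, smul_eq_mul]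

theorem pd_sum' (hO : IsOpen O) {ι : Type*} (s : Finset ι) {f : ι → V n → ℝ}
    (hf : ∀ k ∈ s, ContDiffOn ℝ ∞ (f k) O) {x : V n} (hx : x ∈ O) (i : Fin n) :
    LR.pd i (fun y => ∑ k ∈ s, f k y) x = ∑ k ∈ s, LR.pd i (f k) x := by
  have h' : HasFDerivAt (fun y => ∑ k ∈ s, f k y) _ x :=
    HasFDerivAt.fun_sum fun k hk => (cdo_dif hO (hf k hk) hx).hasFDerivAt
  unfold LR.pd
  rw [h'.fderiv, _root_.sum_apply]

theorem pd_comm' (hO : IsOpen O) {f : V n → ℝ} (hf : ContDiffOn ℝ ∞ f O) {x : V n} (hx : x ∈ O)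
    (i j : Fin n) : LR.pd i (LR.pd j f) x = LR.pd j (LR.pd i f) x := by
  have hc : ContDiffAt ℝ ∞ f x := (hf x hx).contDiffAt (hO.mem_nhds hx)
  have h1 : IsSymmSndFDerivAt ℝ f x := hc.isSymmSndFDerivAt (by
    simp only [minSmoothness_of_isRCLikeNormedField]; exact WithTop.coe_le_coe.2 le_top)
  have hd : DifferentiableAt ℝ (fderiv ℝ f) x :=
    (hc.fderiv_right (m := ∞) (by simp)).differentiableAt (by simp)
  have key : ∀ a b : V n, fderiv ℝ (fun y => fderiv ℝ f y a) x b = fderiv ℝ (fderiv ℝ f) x b a := by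
    intro a b
    have h2 : HasFDerivAt (fun y => fderiv ℝ f y a) _ x := hd.hasFDerivAt.clm_apply
      (hasFDerivAt_const a x)
    rw [h2.fderiv]
    simp
  unfold LR.pd
  rw [key, key]
  exact h1.eq _ _

theorem int_pd {φ : V n → ℝ} (h : TO O φ) (i : Fin n) : ∫ x, LR.pd i φ x = 0 := by
  have h1 : ∫ x, (fun _ => (1 : ℝ)) x * LR.pd i φ x = - ∫ x, LR.pd i (fun _ => (1 : ℝ)) x * φ x := by
    unfold LR.pd
    refine integral_mul_fderiv_eq_neg_fderiv_mul_of_integrable ?_ ?_ ?_ ?_ ?_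
    · simp
    · have := (h.pd i).integrable
      unfold LR.pd at this
      simpa using this
    · simpa using h.integrable
    · exact fun x _ => differentiableAt_const _
    · exact fun x _ => h.sm.contDiffAt.differentiableAt (by simp)
  have h2 : ∀ x : V n, LR.pd i (fun _ : V n => (1 : ℝ)) x = 0 := by
    intro x; unfold LR.pd; simp
  simpa [h2] using h1

/-- integration by parts -/
theorem ibpO (hO : IsOpen O) {f φ : V n → ℝ} (hf : ContDiffOn ℝ ∞ f O) (h : TO O φ) (i : Fin n) :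
    ∫ x, f x * LR.pd i φ x = - ∫ x, LR.pd i f x * φ x := by
  unfold LR.pd
  refine integral_mul_fderiv_eq_neg_fderiv_mul_of_integrable ?_ ?_ ?_ ?_ ?_
  · exact (TO.mul hO (pd_cdo hO hf i) h).integrable
  · exact (TO.mul hO hf (h.pd i)).integrable
  · exact (TO.mul hO hf h).integrable
  · exact fun x hx => cdo_dif hO hf (h.ts hx)
  · exact fun x _ => h.sm.contDiffAt.differentiableAt (by simp)

/-- the flux `∑_j s_ij ∂_j f` -/
def fl (s : MF n) (f : V n → ℝ) (i : Fin n) (x : V n) : ℝ := ∑ j, s x i j * LR.pd j f x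

/-- the operator `∑ ∂_i (s_ij ∂_j f)` -/
def Ld (s : MF n) (f : V n → ℝ) (x : V n) : ℝ := ∑ i, LR.pd i (fl s f i) x

/-- smooth on `O` -/
def SmO (O : Set (V n)) (s : MF n) : Prop := ∀ i j, ContDiffOn ℝ ∞ (fun x => s x i j) O

theorem fl_cdo (hO : IsOpen O) {s : MF n} (hs : SmO O s) {f : V n → ℝ} (hf : ContDiffOn ℝ ∞ f O)
    (i : Fin n) : ContDiffOn ℝ ∞ (fl s f i) O := by
  unfold fl
  exact ContDiffOn.sum fun j _ => (hs i j).mul (pd_cdo hO hf j)

theorem fl_TO (hO : IsOpen O) {s : MF n} (hs : SmO O s) {φ : V n → ℝ} (h : TO O φ) (i : Fin n) :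
    TO O (fl s φ i) := by
  unfold fl
  exact TO.sum _ fun j _ => TO.mul hO (hs i j) (h.pd j)

theorem Ld_cdo (hO : IsOpen O) {s : MF n} (hs : SmO O s) {f : V n → ℝ} (hf : ContDiffOn ℝ ∞ f O) :
    ContDiffOn ℝ ∞ (Ld s f) O := by
  unfold Ld
  exact ContDiffOn.sum fun i _ => pd_cdo hO (fl_cdo hO hs hf i) i

theorem Ld_TO (hO : IsOpen O) {s : MF n} (hs : SmO O s) {φ : V n → ℝ} (h : TO O φ) :
    TO O (Ld s φ) := by
  unfold Ld
  exact TO.sum _ fun i _ => (fl_TO hO hs h i).pd i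

end Vale.Agent.P088.R2.H404
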