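import Vale.Agent.P088.R2.H404.DA

/-!
# P088, stage 3: Carleman estimate for one divergence form operator, strictly convex weight
-/

open MeasureTheory Set Filter Topology
open scoped ContDiff Matrix

noncomputable section

namespace Vale.Agent.P088.R2.H404

open Vale.Agent.P088.LR Vale.Agent.P088.HY

variable {n : ℕ}

/-- the algebra at one point -/
theorem alg1 (S : Fin n → Fin n → ℝ) (hS : ∀ i j, S i j = S j i) (dS : Fin n → Fin n → Fin n → ℝ)
    (a : Fin n → ℝ) (H : Fin n → Fin n → ℝ) (hH : ∀ i j, H i j = H j i) (X : Fin n → ℝ)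
    (dX : Fin n → Fin n → ℝ) (p : Fin n → ℝ) (hp : ∀ i, p i = ∑ j, S i j * a j)
    (dp : Fin n → Fin n → ℝ) (hdp : ∀ i k, dp i k = ∑ j, (dS i k j * a j + S k j * H i j))
    (E : ℝ) :
    ∑ i, ((dp i i * (∑ k, X k * a k) + p i * ∑ k, (dX i k * a k + X k * H i k))
        - 1 / 2 * (dX i i * E + X i * ∑ k, (dp i k * a k + p k * H i k))) =
      (∑ i, dp i i) * (∑ k, X k * a k) + ∑ i, ∑ k, p i * dX i k * a k
        - 1 / 2 * (∑ i, dX i i) * E - 1 / 2 * ∑ i, ∑ k, ∑ l, X i * dS i k l * a k * a l := by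
  have e1 : ∀ i, ∑ k, (dp i k * a k + p k * H i k) =
      ∑ k, ∑ l, dS i k l * a k * a l + 2 * ∑ k, p k * H i k := by
    intro i
    have h1 : ∑ k, dp i k * a k = ∑ k, ∑ l, dS i k l * a k * a l + ∑ k, ∑ l, S k l * H i l * a k := by
      rw [← Finset.sum_add_distrib]
      refine Finset.sum_congr rfl fun k _ => ?_
      rw [hdp, Finset.sum_mul, ← Finset.sum_add_distrib]
      refine Finset.sum_congr rfl fun l _ => ?_
      ring
    have h2 : ∑ k, ∑ l, S k l * H i l * a k = ∑ k, p k * H i k := by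
      rw [Finset.sum_comm]
      refine Finset.sum_congr rfl fun l _ => ?_
      rw [hp, Finset.sum_mul]
      refine Finset.sum_congr rfl fun k _ => ?_
      rw [hS k l]; ring
    rw [Finset.sum_add_distrib, h1, h2]; ring
  have e2 : ∑ i, ∑ k, p i * (X k * H i k) = ∑ i, ∑ k, X i * (p k * H i k) := by
    rw [Finset.sum_comm]
    refine Finset.sum_congr rfl fun k _ => Finset.sum_congr rfl fun i _ => ?_
    rw [hH i k]; ring
  have e3 : ∀ i, p i * ∑ k, (dX i k * a k + X k * H i k) =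
      ∑ k, p i * dX i k * a k + ∑ k, p i * (X k * H i k) := by
    intro i
    rw [Finset.mul_sum, ← Finset.sum_add_distrib]
    exact Finset.sum_congr rfl fun k _ => by ring
  have e4 : ∀ i, X i * (∑ k, ∑ l, dS i k l * a k * a l + 2 * ∑ k, p k * H i k) =
      ∑ k, ∑ l, X i * dS i k l * a k * a l + 2 * ∑ k, X i * (p k * H i k) := by
    intro i
    rw [mul_add, Finset.mul_sum, Finset.mul_sum, Finset.mul_sum, Finset.mul_sum]
    congr 1
    · refine Finset.sum_congr rfl fun k _ => ?_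
      rw [Finset.mul_sum]
      exact Finset.sum_congr rfl fun l _ => by ring
    · refine Finset.sum_congr rfl fun k _ => ?_
      ring
  have key : ∀ i, (dp i i * (∑ k, X k * a k) + p i * ∑ k, (dX i k * a k + X k * H i k))
        - 1 / 2 * (dX i i * E + X i * ∑ k, (dp i k * a k + p k * H i k)) =
      dp i i * (∑ k, X k * a k) + (∑ k, p i * dX i k * a k) + (∑ k, p i * (X k * H i k))
        - 1 / 2 * (dX i i * E) - 1 / 2 * (∑ k, ∑ l, X i * dS i k l * a k * a l)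
        - ∑ k, X i * (p k * H i k) := by
    intro i
    rw [e1, e3, e4]; ring
  have gen : ∀ (f1 A B f2 C D : Fin n → ℝ) (c e : ℝ),
      ∑ i, (f1 i * c + A i + B i - 1 / 2 * (f2 i * e) - 1 / 2 * C i - D i) =
        (∑ i, f1 i) * c + ∑ i, A i + ∑ i, B i - 1 / 2 * ((∑ i, f2 i) * e) - 1 / 2 * ∑ i, C i
          - ∑ i, D i := by
    intro f1 A B f2 C D c e
    simp only [Finset.sum_sub_distrib, Finset.sum_add_distrib, Finset.sum_mul, Finset.mul_sum]
  rw [Finset.sum_congr rfl fun i _ => key i, gen, e2]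
  ring

variable {O : Set (V n)}

/-- `s(∇G, ∇G)` -/
def FG (s : MF n) (G : V n → ℝ) (x : V n) : ℝ := ∑ k, fl s G k x * LR.pd k G x

/-- `X v` -/
def Xf (s : MF n) (G v : V n → ℝ) (x : V n) : ℝ := ∑ k, fl s G k x * LR.pd k v x

theorem FG_cdo (hO : IsOpen O) {s : MF n} (hs : SmO O s) {G : V n → ℝ} (hG : ContDiffOn ℝ ∞ G O) :
    ContDiffOn ℝ ∞ (FG s G) O :=
  ContDiffOn.sum fun k _ => (fl_cdo hO hs hG k).mul (pd_cdo hO hG k)

theorem Xf_TO (hO : IsOpen O) {s : MF n} (hs : SmO O s) {G : V n → ℝ} (hG : ContDiffOn ℝ ∞ G O)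
    {v : V n → ℝ} (hv : TO O v) : TO O (Xf s G v) :=
  TO.sum _ fun k _ => TO.mul hO (fl_cdo hO hs hG k) (hv.pd k)

/-- the quadratic form of the commutator -/
def QQ (s : MF n) (G : V n → ℝ) (ρ : ℝ) (v : V n → ℝ) (x : V n) : ℝ :=
  4 * ρ * ∑ i, ∑ k, fl s v i x * LR.pd i (fl s G k) x * LR.pd k v x
    - 2 * ρ * ∑ i, ∑ k, ∑ l, fl s G i x * LR.pd i (fun y => s y k l) x * LR.pd k v x * LR.pd l v x
    + 2 * ρ * v x * ∑ i, fl s v i x * LR.pd i (Ld s G) x
    + 2 * ρ ^ 3 * (∑ i, fl s G i x * LR.pd i (FG s G) x) * v x ^ 2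

theorem pd_fl (hO : IsOpen O) {s : MF n} (hs : SmO O s) {f : V n → ℝ} (hf : ContDiffOn ℝ ∞ f O)
    {x : V n} (hx : x ∈ O) (i k : Fin n) :
    LR.pd i (fl s f k) x =
      ∑ j, (LR.pd i (fun y => s y k j) x * LR.pd j f x + s x k j * LR.pd i (LR.pd j f) x) := by
  have h1 : fl s f k = fun y => ∑ j, s y k j * LR.pd j f y := rfl
  rw [h1, pd_sum' hO _ (fun j _ => (hs k j).mul (pd_cdo hO hf j)) hx]
  exact Finset.sum_congr rfl fun j _ => pd_mul' hO (hs k j) (pd_cdo hO hf j) hx i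

/-- the pointwise identity -/
theorem ident (hO : IsOpen O) {s : MF n} (hs : SmO O s) (hsy : ∀ x ∈ O, ∀ i j, s x i j = s x j i)
    {G : V n → ℝ} (hG : ContDiffOn ℝ ∞ G O) {v : V n → ℝ} (hv : TO O v) (ρ : ℝ)
    {x : V n} (hx : x ∈ O) :
    2 * (Ld s v x + ρ ^ 2 * FG s G x * v x) * (-(2 * ρ * Xf s G v x + ρ * Ld s G x * v x)) =
      -4 * ρ * ∑ i, LR.pd i (fun y => fl s v i y * Xf s G v y
          - 1 / 2 * (fl s G i y * Xf s v v y)) x
      - 2 * ρ * ∑ i, LR.pd i (fun y => fl s v i y * (Ld s G y * v y)) x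
      - 2 * ρ ^ 3 * ∑ i, LR.pd i (fun y => (FG s G y * fl s G i y) * (v y * v y)) x
      + QQ s G ρ v x := by
  have hvc := hv.con
  have hXv : ContDiffOn ℝ ∞ (Xf s G v) O := (Xf_TO hO hs hG hv).con
  have hE : ContDiffOn ℝ ∞ (Xf s v v) O := (Xf_TO hO hs hvc hv).con
  have hLG := Ld_cdo hO hs hG
  have hFG := FG_cdo hO hs hG
  have pdX : ∀ (f : V n → ℝ), ContDiffOn ℝ ∞ f O → ∀ i, LR.pd i (Xf s f v) x =
      ∑ k, (LR.pd i (fl s f k) x * LR.pd k v x + fl s f k x * LR.pd i (LR.pd k v) x) := by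
    intro f hf i
    have h1 : Xf s f v = fun y => ∑ k, fl s f k y * LR.pd k v y := rfl
    rw [h1, pd_sum' hO _ (fun k _ => (fl_cdo hO hs hf k).mul (pd_cdo hO hvc k)) hx]
    exact Finset.sum_congr rfl fun k _ => pd_mul' hO (fl_cdo hO hs hf k) (pd_cdo hO hvc k) hx i
  -- J1
  have hJ1 : ∀ i, LR.pd i (fun y => fl s v i y * Xf s G v y - 1 / 2 * (fl s G i y * Xf s v v y)) x =
      (LR.pd i (fl s v i) x * (∑ k, fl s G k x * LR.pd k v x)
        + fl s v i x * ∑ k, (LR.pd i (fl s G k) x * LR.pd k v x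
          + fl s G k x * LR.pd i (LR.pd k v) x))
      - 1 / 2 * (LR.pd i (fl s G i) x * Xf s v v x
        + fl s G i x * ∑ k, (LR.pd i (fl s v k) x * LR.pd k v x
          + fl s v k x * LR.pd i (LR.pd k v) x)) := by
    intro i
    have e : (fun y => fl s v i y * Xf s G v y - 1 / 2 * (fl s G i y * Xf s v v y)) =
        fun y => fl s v i y * Xf s G v y + (-(1 / 2)) * (fl s G i y * Xf s v v y) := by
      funext y; ring
    have c1 : ContDiffOn ℝ ∞ (fun y => fl s v i y * Xf s G v y) O := (fl_cdo hO hs hvc i).mul hXv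
    have c2 : ContDiffOn ℝ ∞ (fun y => fl s G i y * Xf s v v y) O := (fl_cdo hO hs hG i).mul hE
    have c3 : ContDiffOn ℝ ∞ (fun y => (-(1 / 2)) * (fl s G i y * Xf s v v y)) O :=
      contDiffOn_const.mul c2
    rw [e, pd_add' hO c1 c3 hx, pd_cmul' hO _ c2 hx, pd_mul' hO (fl_cdo hO hs hvc i) hXv hx,
      pd_mul' hO (fl_cdo hO hs hG i) hE hx, pdX G hG i, pdX v hvc i]
    have h2 : Xf s G v x = ∑ k, fl s G k x * LR.pd k v x := rfl
    rw [h2]; ring
  have hA := alg1 (fun i j => s x i j) (fun i j => hsy x hx i j)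
    (fun i k l => LR.pd i (fun y => s y k l) x) (fun k => LR.pd k v x)
    (fun i k => LR.pd i (LR.pd k v) x) (fun i k => pd_comm' hO hvc hx i k)
    (fun k => fl s G k x) (fun i k => LR.pd i (fl s G k) x) (fun i => fl s v i x) (fun i => rfl)
    (fun i k => LR.pd i (fl s v k) x) (fun i k => pd_fl hO hs hvc hx i k) (Xf s v v x)
  have hS1 : ∑ i, LR.pd i (fun y => fl s v i y * Xf s G v y
      - 1 / 2 * (fl s G i y * Xf s v v y)) x =
      Ld s v x * Xf s G v x + ∑ i, ∑ k, fl s v i x * LR.pd i (fl s G k) x * LR.pd k v x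
        - 1 / 2 * Ld s G x * Xf s v v x
        - 1 / 2 * ∑ i, ∑ k, ∑ l, fl s G i x * LR.pd i (fun y => s y k l) x * LR.pd k v x
            * LR.pd l v x := by
    rw [Finset.sum_congr rfl fun i _ => hJ1 i, hA]
    rfl
  -- J2
  have hS2 : ∑ i, LR.pd i (fun y => fl s v i y * (Ld s G y * v y)) x =
      Ld s v x * (Ld s G x * v x) + v x * ∑ i, fl s v i x * LR.pd i (Ld s G) x
        + Ld s G x * Xf s v v x := by
    have h1 : ∀ i, LR.pd i (fun y => fl s v i y * (Ld s G y * v y)) x =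
        LR.pd i (fl s v i) x * (Ld s G x * v x) + v x * (fl s v i x * LR.pd i (Ld s G) x)
          + Ld s G x * (fl s v i x * LR.pd i v x) := by
      intro i
      rw [pd_mul' hO (fl_cdo hO hs hvc i) (hLG.mul hvc) hx, pd_mul' hO hLG hvc hx]
      ring
    rw [Finset.sum_congr rfl fun i _ => h1 i, Finset.sum_add_distrib, Finset.sum_add_distrib,
      ← Finset.sum_mul, ← Finset.mul_sum, ← Finset.mul_sum]
    rfl
  -- J3
  have hS3 : ∑ i, LR.pd i (fun y => (FG s G y * fl s G i y) * (v y * v y)) x =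
      (∑ i, fl s G i x * LR.pd i (FG s G) x) * v x ^ 2 + FG s G x * Ld s G x * v x ^ 2
        + 2 * FG s G x * v x * Xf s G v x := by
    have h1 : ∀ i, LR.pd i (fun y => (FG s G y * fl s G i y) * (v y * v y)) x =
        (fl s G i x * LR.pd i (FG s G) x) * v x ^ 2
          + FG s G x * v x ^ 2 * LR.pd i (fl s G i) x
          + 2 * FG s G x * v x * (fl s G i x * LR.pd i v x) := by
      intro i
      rw [pd_mul' hO (hFG.mul (fl_cdo hO hs hG i)) (hvc.mul hvc) hx,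
        pd_mul' hO hFG (fl_cdo hO hs hG i) hx, pd_mul' hO hvc hvc hx]
      ring
    rw [Finset.sum_congr rfl fun i _ => h1 i, Finset.sum_add_distrib, Finset.sum_add_distrib,
      ← Finset.sum_mul, ← Finset.mul_sum, ← Finset.mul_sum]
    have h2 : ∑ i, LR.pd i (fl s G i) x = Ld s G x := rfl
    have h3 : ∑ i, fl s G i x * LR.pd i v x = Xf s G v x := rfl
    rw [h2, h3]; ring
  rw [hS1, hS2, hS3]
  unfold QQ
  ring

/-- the conjugated operator -/
def Pc (s : MF n) (G : V n → ℝ) (ρ : ℝ) (v : V n → ℝ) (x : V n) : ℝ :=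
  (Ld s v x + ρ ^ 2 * FG s G x * v x) - (2 * ρ * Xf s G v x + ρ * Ld s G x * v x)

theorem Pc_TO (hO : IsOpen O) {s : MF n} (hs : SmO O s) {G : V n → ℝ} (hG : ContDiffOn ℝ ∞ G O)
    (ρ : ℝ) {v : V n → ℝ} (hv : TO O v) : TO O (Pc s G ρ v) := by
  unfold Pc
  refine TO.sub (TO.add (Ld_TO hO hs hv) ?_) (TO.add ?_ ?_)
  · exact TO.mul hO (contDiffOn_const.mul (FG_cdo hO hs hG)) hv
  · exact (Xf_TO hO hs hG hv).const_mul (2 * ρ)
  · exact TO.mul hO (contDiffOn_const.mul (Ld_cdo hO hs hG)) hv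

theorem TO.congr_all {f g : V n → ℝ} (hf : TO O f) (hg : TO O g) (h : ∀ x ∈ O, f x = g x) (x : V n) :
    f x = g x := by
  by_cases hx : x ∈ O
  · exact h x hx
  · rw [hf.zero hx, hg.zero hx]

theorem QQ_TO (hO : IsOpen O) {s : MF n} (hs : SmO O s) {G : V n → ℝ} (hG : ContDiffOn ℝ ∞ G O)
    (ρ : ℝ) {v : V n → ℝ} (hv : TO O v) : TO O (QQ s G ρ v) := by
  unfold QQ
  refine TO.add (TO.add (TO.sub ?_ ?_) ?_) ?_
  · refine TO.const_mul (4 * ρ) (TO.sum _ fun i _ => TO.sum _ fun k _ => ?_)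
    exact TO.mul hO ((fl_cdo hO hs hv.con i).mul (pd_cdo hO (fl_cdo hO hs hG k) i)) (hv.pd k)
  · refine TO.const_mul (2 * ρ) (TO.sum _ fun i _ => TO.sum _ fun k _ => TO.sum _ fun l _ => ?_)
    exact TO.mul hO (((fl_cdo hO hs hG i).mul (pd_cdo hO (hs k l) i)).mul (hv.pd k).con) (hv.pd l)
  · refine TO.mul hO (contDiffOn_const.mul hv.con) (TO.sum _ fun i _ => ?_)
    exact TO.mul' hO (fl_TO hO hs hv i) (pd_cdo hO (Ld_cdo hO hs hG) i)
  · have h2 : TO O fun x => v x ^ 2 := by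
      have := TO.mul hO hv.con hv
      simpa [pow_two] using this
    refine TO.mul hO (contDiffOn_const.mul (ContDiffOn.sum fun i _ => ?_)) h2
    exact (fl_cdo hO hs hG i).mul (pd_cdo hO (FG_cdo hO hs hG) i)

/-- the integrated inequality -/
theorem int_QQ_le (hO : IsOpen O) {s : MF n} (hs : SmO O s)
    (hsy : ∀ x ∈ O, ∀ i j, s x i j = s x j i)
    {G : V n → ℝ} (hG : ContDiffOn ℝ ∞ G O) {v : V n → ℝ} (hv : TO O v) (ρ : ℝ) :
    ∫ x, QQ s G ρ v x ≤ ∫ x, Pc s G ρ v x ^ 2 := by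
  have hvc := hv.con
  set A : V n → ℝ := fun x => Ld s v x + ρ ^ 2 * FG s G x * v x with hA
  set B : V n → ℝ := fun x => 2 * ρ * Xf s G v x + ρ * Ld s G x * v x with hB
  have tA : TO O A := TO.add (Ld_TO hO hs hv) (TO.mul hO (contDiffOn_const.mul (FG_cdo hO hs hG)) hv)
  have tB : TO O B := TO.add ((Xf_TO hO hs hG hv).const_mul (2 * ρ))
    (TO.mul hO (contDiffOn_const.mul (Ld_cdo hO hs hG)) hv)
  have tJ1 : ∀ i, TO O (fun y => fl s v i y * Xf s G v y
      - 1 / 2 * (fl s G i y * Xf s v v y)) := fun i =>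
    TO.sub (TO.mul hO (fl_cdo hO hs hvc i) (Xf_TO hO hs hG hv))
      (TO.const_mul (1 / 2) (TO.mul hO (fl_cdo hO hs hG i) (Xf_TO hO hs hvc hv)))
  have tJ2 : ∀ i, TO O (fun y => fl s v i y * (Ld s G y * v y)) := fun i =>
    TO.mul hO (fl_cdo hO hs hvc i) (TO.mul hO (Ld_cdo hO hs hG) hv)
  have tJ3 : ∀ i, TO O (fun y => (FG s G y * fl s G i y) * (v y * v y)) := fun i =>
    TO.mul hO ((FG_cdo hO hs hG).mul (fl_cdo hO hs hG i)) (TO.mul hO hvc hv)
  have tQ := QQ_TO hO hs hG ρ hv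
  have tS : ∀ {f : Fin n → V n → ℝ}, (∀ i, TO O (f i)) → TO O (fun x => ∑ i, LR.pd i (f i) x) :=
    fun h => TO.sum _ fun i _ => (h i).pd i
  have zS : ∀ {f : Fin n → V n → ℝ}, (∀ i, TO O (f i)) → ∫ x, ∑ i, LR.pd i (f i) x = 0 := by
    intro f h
    rw [integral_finsetSum _ fun i _ => ((h i).pd i).integrable]
    exact Finset.sum_eq_zero fun i _ => int_pd (h i) i
  have tR : TO O (fun x => -4 * ρ * ∑ i, LR.pd i (fun y => fl s v i y * Xf s G v y
          - 1 / 2 * (fl s G i y * Xf s v v y)) x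
      - 2 * ρ * ∑ i, LR.pd i (fun y => fl s v i y * (Ld s G y * v y)) x
      - 2 * ρ ^ 3 * ∑ i, LR.pd i (fun y => (FG s G y * fl s G i y) * (v y * v y)) x) :=
    TO.sub (TO.sub (TO.const_mul _ (tS tJ1)) (TO.const_mul _ (tS tJ2))) (TO.const_mul _ (tS tJ3))
  have tAB : TO O (fun x => 2 * A x * (-B x)) := by
    have := (TO.mul hO (contDiffOn_const.mul tA.con : ContDiffOn ℝ ∞ (fun x => (2 : ℝ) * A x) O)
      tB.neg)
    exact this
  have hid : ∀ x, 2 * A x * (-B x) = (-4 * ρ * ∑ i, LR.pd i (fun y => fl s v i y * Xf s G v y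
          - 1 / 2 * (fl s G i y * Xf s v v y)) x
      - 2 * ρ * ∑ i, LR.pd i (fun y => fl s v i y * (Ld s G y * v y)) x
      - 2 * ρ ^ 3 * ∑ i, LR.pd i (fun y => (FG s G y * fl s G i y) * (v y * v y)) x)
      + QQ s G ρ v x := TO.congr_all tAB (tR.add tQ) fun x hx => ident hO hs hsy hG hv ρ hx
  have hint : ∫ x, 2 * A x * (-B x) = ∫ x, QQ s G ρ v x := by
    simp only [hid]
    rw [integral_add tR.integrable tQ.integrable, integral_sub, integral_sub,
      integral_const_mul, integral_const_mul, integral_const_mul, zS tJ1, zS tJ2, zS tJ3]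
    · ring
    · exact ((tS tJ1).const_mul _).integrable
    · exact ((tS tJ2).const_mul _).integrable
    · exact (((tS tJ1).const_mul _).sub ((tS tJ2).const_mul _)).integrable
    · exact ((tS tJ3).const_mul _).integrable
  rw [← hint]
  have tP := Pc_TO hO hs hG ρ hv
  have tP2 : TO O (fun x => Pc s G ρ v x ^ 2) := by
    have := TO.mul hO tP.con tP
    simpa [pow_two] using this
  refine integral_mono tAB.integrable tP2.integrable fun x => ?_
  have e : Pc s G ρ v x = A x - B x := rfl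
  simp only [e]
  nlinarith [sq_nonneg (A x), sq_nonneg (B x), sq_nonneg (A x + B x), sq_nonneg (A x - B x)]

end Vale.Agent.P088.R2.H404
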