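import Vale.Agent.P088.R2.H404.DB

/-!
# P088, stage 3: lower bound of the commutator form, Carleman estimate
-/

open MeasureTheory Set Filter Topology
open scoped ContDiff Matrix

noncomputable section

namespace Vale.Agent.P088.R2.H404

open Vale.Agent.P088.LR Vale.Agent.P088.HY

variable {n : ℕ}

theorem abs_sum_le' {f : Fin n → ℝ} {B : ℝ} (h : ∀ i, |f i| ≤ B) : |∑ i, f i| ≤ n * B := by
  calc |∑ i, f i| ≤ ∑ i, |f i| := Finset.abs_sum_le_sum_abs _ _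
    _ ≤ ∑ _i : Fin n, B := Finset.sum_le_sum fun i _ => h i
    _ = n * B := by simp

theorem abs_sum2_le {f : Fin n → Fin n → ℝ} {B : ℝ} (h : ∀ i j, |f i j| ≤ B) :
    |∑ i, ∑ j, f i j| ≤ n * (n * B) := abs_sum_le' fun i => abs_sum_le' fun j => h i j

theorem abs_sum3_le {f : Fin n → Fin n → Fin n → ℝ} {B : ℝ} (h : ∀ i j k, |f i j k| ≤ B) :
    |∑ i, ∑ j, ∑ k, f i j k| ≤ n * (n * (n * B)) := abs_sum_le' fun i => abs_sum2_le fun j k => h i j k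

/-- The hypotheses on the coefficients and on the weight. -/
structure CW (O : Set (V n)) (ε M σ c₀ : ℝ) (s : MF n) (G : V n → ℝ) : Prop where
  sm : SmO O s
  sy : ∀ x ∈ O, ∀ i j, s x i j = s x j i
  s0 : ∀ x ∈ O, ∀ i j, |s x i j - (1 : Matrix (Fin n) (Fin n) ℝ) i j| ≤ ε
  s1 : ∀ x ∈ O, ∀ k i j, |LR.pd k (fun y => s y i j) x| ≤ ε
  s2 : ∀ x ∈ O, ∀ l k i j, |LR.pd l (LR.pd k (fun y => s y i j)) x| ≤ ε
  gs : ContDiffOn ℝ ∞ G O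
  g1 : ∀ x ∈ O, ∀ i, |LR.pd i G x| ≤ M
  g2 : ∀ x ∈ O, ∀ i j, |LR.pd i (LR.pd j G) x| ≤ M
  g3 : ∀ x ∈ O, ∀ i j k, |LR.pd i (LR.pd j (LR.pd k G)) x| ≤ M
  gr : ∀ x ∈ O, c₀ ≤ ∑ i, LR.pd i G x ^ 2
  gc : ∀ x ∈ O, ∀ ξ : Fin n → ℝ, σ * ∑ i, ξ i ^ 2 ≤ ∑ i, ∑ j, LR.pd i (LR.pd j G) x * ξ i * ξ j

variable {O : Set (V n)}

theorem pd_congr_on (hO : IsOpen O) {f g : V n → ℝ} (h : ∀ y ∈ O, f y = g y) {x : V n} (hx : x ∈ O)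
    (i : Fin n) : LR.pd i f x = LR.pd i g x := by
  have he : f =ᶠ[𝓝 x] g := Filter.eventuallyEq_of_mem (hO.mem_nhds hx) h
  unfold LR.pd
  rw [he.fderiv_eq]

/-- the flux is close to the vector -/
theorem flux_close {S : Fin n → Fin n → ℝ} {ε B : ℝ} (hε : 0 ≤ ε)
    (hS : ∀ i j, |S i j - (1 : Matrix (Fin n) (Fin n) ℝ) i j| ≤ ε) {a : Fin n → ℝ}
    (ha : ∀ j, |a j| ≤ B) (i : Fin n) : |∑ j, S i j * a j - a i| ≤ n * (ε * B) := by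
  have e : ∑ j, S i j * a j - a i = ∑ j, (S i j - (1 : Matrix (Fin n) (Fin n) ℝ) i j) * a j := by
    simp only [sub_mul, Finset.sum_sub_distrib]
    congr 1
    simp [Matrix.one_apply]
  rw [e]
  refine abs_sum_le' fun j => ?_
  rw [abs_mul]
  exact mul_le_mul (hS i j) (ha j) (abs_nonneg _) hε

theorem S_le {S : Fin n → Fin n → ℝ} {ε : ℝ} (hε : ε ≤ 1)
    (hS : ∀ i j, |S i j - (1 : Matrix (Fin n) (Fin n) ℝ) i j| ≤ ε) (i j : Fin n) : |S i j| ≤ 2 := by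
  have h1 := hS i j
  have h2 : |(1 : Matrix (Fin n) (Fin n) ℝ) i j| ≤ 1 := by
    rw [Matrix.one_apply]; split_ifs <;> simp
  have h3 : |S i j| ≤ |S i j - (1 : Matrix (Fin n) (Fin n) ℝ) i j|
      + |(1 : Matrix (Fin n) (Fin n) ℝ) i j| := by
    have := abs_add_le (S i j - (1 : Matrix (Fin n) (Fin n) ℝ) i j)
      ((1 : Matrix (Fin n) (Fin n) ℝ) i j)
    simpa using this
  linarith

theorem sq_close {p a : Fin n → ℝ} {B : ℝ} (h : ∀ i, |p i - a i| ≤ B) :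
    1 / 2 * ∑ i, a i ^ 2 - n * B ^ 2 ≤ ∑ i, p i ^ 2 := by
  have h1 : ∀ i, 1 / 2 * a i ^ 2 - B ^ 2 ≤ p i ^ 2 := by
    intro i
    have h2 := h i
    have hB : 0 ≤ B := (abs_nonneg _).trans h2
    have h3 : (p i - a i) ^ 2 ≤ B ^ 2 := by
      rw [← sq_abs (p i - a i)]; exact pow_le_pow_left₀ (abs_nonneg _) h2 2
    nlinarith [sq_nonneg (2 * (p i - a i) + a i), sq_nonneg (p i), sq_nonneg (a i)]
  calc 1 / 2 * ∑ i, a i ^ 2 - n * B ^ 2 = ∑ i, (1 / 2 * a i ^ 2 - B ^ 2) := by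
        rw [Finset.sum_sub_distrib, ← Finset.mul_sum]; simp
    _ ≤ _ := Finset.sum_le_sum fun i _ => h1 i

/-- bounds for the flux -/
theorem flux_bd {S : Fin n → Fin n → ℝ} {ε B : ℝ} (hε : 0 ≤ ε) (hB : 0 ≤ B) (h1 : n * ε ≤ 1)
    (hS : ∀ i j, |S i j - (1 : Matrix (Fin n) (Fin n) ℝ) i j| ≤ ε) {a p : Fin n → ℝ}
    (ha : ∀ j, |a j| ≤ B) (hp : ∀ i, p i = ∑ j, S i j * a j) :
    (∀ i, |p i| ≤ 2 * B) ∧ 1 / 2 * ∑ i, a i ^ 2 - n ^ 3 * ε ^ 2 * B ^ 2 ≤ ∑ i, p i ^ 2 := by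
  have hpa : ∀ i, |p i - a i| ≤ n * (ε * B) := fun i => by
    rw [hp]; exact flux_close hε hS ha i
  refine ⟨fun i => ?_, ?_⟩
  · have e1 := hpa i
    have e2 := ha i
    have e3 : |p i| ≤ |p i - a i| + |a i| := by
      have := abs_add_le (p i - a i) (a i); simpa using this
    nlinarith
  · have := sq_close hpa
    have e : (n : ℝ) * (n * (ε * B)) ^ 2 = n ^ 3 * ε ^ 2 * B ^ 2 := by ring
    rw [e] at this
    exact this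

theorem algT1 {ε M σ α A2 : ℝ} (hε0 : 0 ≤ ε) (hM : 0 < M) (hσ : 0 < σ)
    (h4 : 4 * (n ^ 3 * M * ε) ≤ σ / 16)
    (S : Fin n → Fin n → ℝ) (hS : ∀ i j, S i j = S j i)
    (dS : Fin n → Fin n → Fin n → ℝ) (hdS : ∀ i k l, |dS i k l| ≤ ε)
    (G1 : Fin n → ℝ) (hG1 : ∀ i, |G1 i| ≤ M)
    (G2 : Fin n → Fin n → ℝ)
    (hG2 : ∀ ξ : Fin n → ℝ, σ * ∑ i, ξ i ^ 2 ≤ ∑ i, ∑ j, G2 i j * ξ i * ξ j)
    (dX : Fin n → Fin n → ℝ) (hdX : ∀ i k, dX i k = ∑ l, (dS i k l * G1 l + S k l * G2 i l))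
    (a : Fin n → ℝ) (p : Fin n → ℝ) (hp : ∀ i, p i = ∑ j, S i j * a j)
    (hα0 : 0 ≤ α) (hαsq : α ^ 2 = A2) (ha : ∀ i, |a i| ≤ α) (hp2 : ∀ i, |p i| ≤ 2 * α)
    (hpsq : 1 / 4 * A2 ≤ ∑ i, p i ^ 2) :
    σ / 8 * A2 ≤ ∑ i, ∑ k, p i * dX i k * a k := by
  have e1 : ∑ i, ∑ k, p i * dX i k * a k =
      ∑ i, ∑ k, ∑ l, p i * dS i k l * G1 l * a k + ∑ i, ∑ l, G2 i l * p i * p l := by
    rw [← Finset.sum_add_distrib]
    refine Finset.sum_congr rfl fun i _ => ?_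
    have e2 : ∑ l, G2 i l * p i * p l = ∑ k, ∑ l, p i * (S k l * G2 i l) * a k := by
      rw [Finset.sum_comm]
      refine Finset.sum_congr rfl fun l _ => ?_
      rw [hp l, Finset.mul_sum]
      refine Finset.sum_congr rfl fun k _ => ?_
      rw [hS l k]; ring
    rw [e2, ← Finset.sum_add_distrib]
    refine Finset.sum_congr rfl fun k _ => ?_
    rw [hdX, Finset.mul_sum, Finset.sum_mul, ← Finset.sum_add_distrib]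
    exact Finset.sum_congr rfl fun l _ => by ring
  have e3 : |∑ i, ∑ k, ∑ l, p i * dS i k l * G1 l * a k| ≤ n * (n * (n * (2 * α * ε * M * α))) := by
    refine abs_sum3_le fun i k l => ?_
    rw [abs_mul, abs_mul, abs_mul]
    have := hp2 i
    have := hdS i k l
    have := hG1 l
    have := ha k
    gcongr
  have e4 : (n : ℝ) * (n * (n * (2 * α * ε * M * α))) = 2 * (n ^ 3 * M * ε) * A2 := by
    rw [← hαsq]; ring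
  rw [e4] at e3
  have e5 := hG2 p
  have e6 := (abs_le.1 e3).1
  rw [e1]
  have e7 : σ * (1 / 4 * A2) ≤ σ * ∑ i, p i ^ 2 := mul_le_mul_of_nonneg_left hpsq hσ.le
  have hA : 0 ≤ A2 := by rw [← hαsq]; positivity
  nlinarith

theorem algT4 {ε M σ c₀ : ℝ} (hε0 : 0 ≤ ε) (hM : 0 < M) (hσ : 0 < σ)
    (h5 : 2 * n ^ 3 * M ^ 3 * ε ≤ σ * c₀ / 4)
    (S : Fin n → Fin n → ℝ) (hS : ∀ i j, S i j = S j i)
    (dS : Fin n → Fin n → Fin n → ℝ) (hdS : ∀ i k l, |dS i k l| ≤ ε)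
    (G1 : Fin n → ℝ) (hG1 : ∀ i, |G1 i| ≤ M)
    (G2 : Fin n → Fin n → ℝ)
    (hG2 : ∀ ξ : Fin n → ℝ, σ * ∑ i, ξ i ^ 2 ≤ ∑ i, ∑ j, G2 i j * ξ i * ξ j)
    (X : Fin n → ℝ) (hX : ∀ k, X k = ∑ l, S k l * G1 l)
    (dX : Fin n → Fin n → ℝ) (hdX : ∀ i k, dX i k = ∑ l, (dS i k l * G1 l + S k l * G2 i l))
    (dF : Fin n → ℝ) (hdF : ∀ i, dF i = ∑ k, (dX i k * G1 k + X k * G2 i k))
    (hX2 : ∀ i, |X i| ≤ 2 * M) (hXsq : c₀ / 4 ≤ ∑ k, X k ^ 2) :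
    σ * c₀ / 4 ≤ ∑ i, X i * dF i := by
  have e1 : ∑ i, X i * dF i =
      ∑ i, ∑ k, ∑ l, X i * dS i k l * G1 l * G1 k + 2 * ∑ i, ∑ l, G2 i l * X i * X l := by
    rw [two_mul, ← add_assoc, ← Finset.sum_add_distrib, ← Finset.sum_add_distrib]
    refine Finset.sum_congr rfl fun i _ => ?_
    have e2 : ∑ l, G2 i l * X i * X l = ∑ k, ∑ l, X i * (S k l * G2 i l) * G1 k := by
      rw [Finset.sum_comm]
      refine Finset.sum_congr rfl fun l _ => ?_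
      rw [hX l, Finset.mul_sum]
      refine Finset.sum_congr rfl fun k _ => ?_
      rw [hS l k]; ring
    have e3 : ∑ k, ∑ l, X i * dS i k l * G1 l * G1 k + ∑ l, G2 i l * X i * X l =
        ∑ k, X i * (dX i k * G1 k) := by
      rw [e2, ← Finset.sum_add_distrib]
      refine Finset.sum_congr rfl fun k _ => ?_
      rw [hdX, ← Finset.sum_add_distrib, Finset.sum_mul, Finset.mul_sum]
      exact Finset.sum_congr rfl fun l _ => by ring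
    rw [e3, ← Finset.sum_add_distrib, hdF, Finset.mul_sum]
    exact Finset.sum_congr rfl fun k _ => by ring
  have e3 : |∑ i, ∑ k, ∑ l, X i * dS i k l * G1 l * G1 k| ≤ n * (n * (n * (2 * M * ε * M * M))) := by
    refine abs_sum3_le fun i k l => ?_
    rw [abs_mul, abs_mul, abs_mul]
    have := hX2 i
    have := hdS i k l
    have := hG1 l
    have := hG1 k
    gcongr
  have e4 : (n : ℝ) * (n * (n * (2 * M * ε * M * M))) = 2 * n ^ 3 * M ^ 3 * ε := by ring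
  rw [e4] at e3
  have e5 := hG2 X
  have e6 := (abs_le.1 e3).1
  have e7 : σ * (c₀ / 4) ≤ σ * ∑ i, X i ^ 2 := mul_le_mul_of_nonneg_left hXsq hσ.le
  rw [e1]
  nlinarith

/-- the scalar part -/
theorem algFin {σ c₀ A2 α N K m t1 t2 t3 t4 v ρ : ℝ} (hσ : 0 < σ) (hc : 0 < c₀)
    (hA20 : 0 ≤ A2) (hα0 : 0 ≤ α) (hαsq : α ^ 2 = A2) (h4 : 4 * m ≤ σ / 16)
    (T1 : σ / 8 * A2 ≤ t1) (T2 : t2 ≤ 2 * m * A2) (T3 : |t3| ≤ N * (2 * α * K))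
    (T4 : σ * c₀ / 4 ≤ t4) (hNK : 0 ≤ N * K)
    (hρ : 1 ≤ ρ) (hρ2 : 32 * N ^ 2 * K ^ 2 / σ ≤ ρ ^ 2 * (σ * c₀ / 4)) :
    ρ * (σ / 8) * A2 + ρ ^ 3 * (σ * c₀ / 4) * v ^ 2 ≤
      4 * ρ * t1 - 2 * ρ * t2 + 2 * ρ * v * t3 + 2 * ρ ^ 3 * t4 * v ^ 2 := by
  have F1 : 4 * ρ * (σ / 8 * A2) ≤ 4 * ρ * t1 := mul_le_mul_of_nonneg_left T1 (by linarith)
  have F2 : 2 * ρ * t2 ≤ 2 * ρ * (2 * m * A2) := mul_le_mul_of_nonneg_left T2 (by linarith)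
  have F3 : 2 * ρ * (2 * m * A2) ≤ ρ * (σ / 16) * A2 := by
    have : 4 * m * (ρ * A2) ≤ σ / 16 * (ρ * A2) :=
      mul_le_mul_of_nonneg_right h4 (mul_nonneg (by linarith) hA20)
    linarith
  have F4 : -(ρ * (σ / 8) * A2 + ρ * (32 * N ^ 2 * K ^ 2 / σ) * v ^ 2) ≤ 2 * ρ * v * t3 := by
    have g1 : |v * t3| ≤ |v| * (N * (2 * α * K)) := by
      rw [abs_mul]; exact mul_le_mul_of_nonneg_left T3 (abs_nonneg _)
    have g2 := (abs_le.1 g1).1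
    have g3 : 2 * (|v| * (N * (2 * α * K))) ≤ σ / 8 * A2 + 32 * N ^ 2 * K ^ 2 / σ * v ^ 2 := by
      have hs : 0 < σ / 8 := by positivity
      have g4 : 0 ≤ σ / 8 * (α - 16 * (N * K) * |v| / σ) ^ 2 := by positivity
      have g5 : σ / 8 * (α - 16 * (N * K) * |v| / σ) ^ 2 =
          σ / 8 * α ^ 2 - 4 * (N * K) * |v| * α + 32 * N ^ 2 * K ^ 2 / σ * |v| ^ 2 := by
        field_simp; ring
      rw [g5, sq_abs, hαsq] at g4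
      linarith
    have g6 : -(σ / 8 * A2 + 32 * N ^ 2 * K ^ 2 / σ * v ^ 2) ≤ 2 * (v * t3) := by
      linarith
    have g7 := mul_le_mul_of_nonneg_left g6 (by linarith : 0 ≤ ρ)
    linarith
  have hρ0 : 0 < ρ := by linarith
  have F5 : 2 * ρ ^ 3 * (σ * c₀ / 4) * v ^ 2 ≤ 2 * ρ ^ 3 * t4 * v ^ 2 := by
    gcongr
  have F6 : ρ * (32 * N ^ 2 * K ^ 2 / σ) * v ^ 2 ≤ ρ ^ 3 * (σ * c₀ / 4) * v ^ 2 := by
    have : ρ ^ 3 * (σ * c₀ / 4) = ρ * (ρ ^ 2 * (σ * c₀ / 4)) := by ring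
    rw [this]
    gcongr
  have F7 : 0 ≤ ρ * σ * A2 := by positivity
  linarith

/-- the algebraic lower bound at one point -/
theorem alg2 {ε M σ c₀ : ℝ} (hε0 : 0 ≤ ε) (hM : 0 < M) (hσ : 0 < σ) (hc : 0 < c₀)
    (h1 : n * ε ≤ 1) (h2 : n ^ 3 * ε ^ 2 ≤ 1 / 4) (h3 : n ^ 3 * ε ^ 2 * M ^ 2 ≤ c₀ / 4)
    (h4 : 4 * (n ^ 3 * M * ε) ≤ σ / 16) (h5 : 2 * n ^ 3 * M ^ 3 * ε ≤ σ * c₀ / 4)
    (S : Fin n → Fin n → ℝ) (hS : ∀ i j, S i j = S j i)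
    (hS0 : ∀ i j, |S i j - (1 : Matrix (Fin n) (Fin n) ℝ) i j| ≤ ε)
    (dS : Fin n → Fin n → Fin n → ℝ) (hdS : ∀ i k l, |dS i k l| ≤ ε)
    (G1 : Fin n → ℝ) (hG1 : ∀ i, |G1 i| ≤ M) (hG1c : c₀ ≤ ∑ i, G1 i ^ 2)
    (G2 : Fin n → Fin n → ℝ)
    (hG2 : ∀ ξ : Fin n → ℝ, σ * ∑ i, ξ i ^ 2 ≤ ∑ i, ∑ j, G2 i j * ξ i * ξ j)
    (X : Fin n → ℝ) (hX : ∀ k, X k = ∑ l, S k l * G1 l)
    (dX : Fin n → Fin n → ℝ) (hdX : ∀ i k, dX i k = ∑ l, (dS i k l * G1 l + S k l * G2 i l))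
    (dF : Fin n → ℝ) (hdF : ∀ i, dF i = ∑ k, (dX i k * G1 k + X k * G2 i k))
    (dg : Fin n → ℝ) {K : ℝ} (hdg : ∀ i, |dg i| ≤ K)
    (a : Fin n → ℝ) (p : Fin n → ℝ) (hp : ∀ i, p i = ∑ j, S i j * a j) (v : ℝ) {ρ : ℝ}
    (hρ : 1 ≤ ρ) (hρ2 : 32 * (n : ℝ) ^ 2 * K ^ 2 / σ ≤ ρ ^ 2 * (σ * c₀ / 4)) :
    ρ * (σ / 8) * ∑ i, a i ^ 2 + ρ ^ 3 * (σ * c₀ / 4) * v ^ 2 ≤
      4 * ρ * ∑ i, ∑ k, p i * dX i k * a k - 2 * ρ * ∑ i, ∑ k, ∑ l, X i * dS i k l * a k * a l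
        + 2 * ρ * v * ∑ i, p i * dg i + 2 * ρ ^ 3 * (∑ i, X i * dF i) * v ^ 2 := by
  have hn0 : (0 : ℝ) ≤ n := Nat.cast_nonneg n
  have hA20 : 0 ≤ ∑ i, a i ^ 2 := Finset.sum_nonneg fun i _ => sq_nonneg _
  have hα0 : 0 ≤ √(∑ i, a i ^ 2) := Real.sqrt_nonneg _
  have hαsq : √(∑ i, a i ^ 2) ^ 2 = ∑ i, a i ^ 2 := Real.sq_sqrt hA20
  have ha : ∀ i, |a i| ≤ √(∑ i, a i ^ 2) := by
    intro i
    apply Real.abs_le_sqrt
    exact Finset.single_le_sum (f := fun i => a i ^ 2) (fun i _ => sq_nonneg _) (Finset.mem_univ i)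
  obtain ⟨hp2, hpsq⟩ := flux_bd hε0 hα0 h1 hS0 ha hp
  obtain ⟨hX2, hXsq⟩ := flux_bd hε0 hM.le h1 hS0 hG1 hX
  have hpsq' : 1 / 4 * ∑ i, a i ^ 2 ≤ ∑ i, p i ^ 2 := by
    rw [hαsq] at hpsq
    nlinarith
  have hXsq' : c₀ / 4 ≤ ∑ k, X k ^ 2 := by linarith
  have T1 := algT1 hε0 hM hσ h4 S hS dS hdS G1 hG1 G2 hG2 dX hdX a p hp hα0 hαsq ha hp2 hpsq'
  have T4 := algT4 hε0 hM hσ h5 S hS dS hdS G1 hG1 G2 hG2 X hX dX hdX dF hdF hX2 hXsq'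
  have T2 : ∑ i, ∑ k, ∑ l, X i * dS i k l * a k * a l ≤ 2 * (n ^ 3 * M * ε) * ∑ i, a i ^ 2 := by
    have e3 : |∑ i, ∑ k, ∑ l, X i * dS i k l * a k * a l| ≤
        n * (n * (n * (2 * M * ε * √(∑ i, a i ^ 2) * √(∑ i, a i ^ 2)))) := by
      refine abs_sum3_le fun i k l => ?_
      rw [abs_mul, abs_mul, abs_mul]
      have := hX2 i
      have := hdS i k l
      have := ha k
      have := ha l
      gcongr
    have e4 : (n : ℝ) * (n * (n * (2 * M * ε * √(∑ i, a i ^ 2) * √(∑ i, a i ^ 2)))) =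
        2 * (n ^ 3 * M * ε) * √(∑ i, a i ^ 2) ^ 2 := by ring
    rw [e4, hαsq] at e3
    exact (abs_le.1 e3).2
  have T3 : |∑ i, p i * dg i| ≤ n * (2 * √(∑ i, a i ^ 2) * K) := by
    refine abs_sum_le' fun i => ?_
    rw [abs_mul]
    have := hp2 i
    have := hdg i
    gcongr
  have hK : 0 ≤ (n : ℝ) * K := by
    rcases Nat.eq_zero_or_pos n with h | h
    · subst h; simp
    · have : 0 ≤ K := (abs_nonneg _).trans (hdg ⟨0, h⟩)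
      positivity
  exact algFin hσ hc hA20 hα0 hαsq h4 T1 T2 T3 T4 hK hρ hρ2

end Vale.Agent.P088.R2.H404
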