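import Vale.Agent.P088.R2.H404.DC

/-!
# P088, stage 3: Carleman estimate for one divergence form operator
-/

open MeasureTheory Set Filter Topology
open scoped ContDiff Matrix

noncomputable section

namespace Vale.Agent.P088.R2.H404

open Vale.Agent.P088.LR Vale.Agent.P088.HY

variable {n : ℕ} {O : Set (V n)}

theorem pd_FG (hO : IsOpen O) {s : MF n} (hs : SmO O s) {G : V n → ℝ} (hG : ContDiffOn ℝ ∞ G O)
    {x : V n} (hx : x ∈ O) (i : Fin n) :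
    LR.pd i (FG s G) x =
      ∑ k, (LR.pd i (fl s G k) x * LR.pd k G x + fl s G k x * LR.pd i (LR.pd k G) x) := by
  have h1 : FG s G = fun y => ∑ k, fl s G k y * LR.pd k G y := rfl
  rw [h1, pd_sum' hO _ (fun k _ => (fl_cdo hO hs hG k).mul (pd_cdo hO hG k)) hx]
  exact Finset.sum_congr rfl fun k _ => pd_mul' hO (fl_cdo hO hs hG k) (pd_cdo hO hG k) hx i

theorem Ld_eq (hO : IsOpen O) {s : MF n} (hs : SmO O s) {f : V n → ℝ} (hf : ContDiffOn ℝ ∞ f O)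
    {x : V n} (hx : x ∈ O) :
    Ld s f x = ∑ k, ∑ l, (LR.pd k (fun y => s y k l) x * LR.pd l f x
      + s x k l * LR.pd k (LR.pd l f) x) :=
  Finset.sum_congr rfl fun k _ => pd_fl hO hs hf hx k k

theorem pd_Ld (hO : IsOpen O) {s : MF n} (hs : SmO O s) {G : V n → ℝ} (hG : ContDiffOn ℝ ∞ G O)
    {x : V n} (hx : x ∈ O) (i : Fin n) :
    LR.pd i (Ld s G) x = ∑ k, ∑ l,
      ((LR.pd i (LR.pd k (fun y => s y k l)) x * LR.pd l G x
        + LR.pd k (fun y => s y k l) x * LR.pd i (LR.pd l G) x)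
      + (LR.pd i (fun y => s y k l) x * LR.pd k (LR.pd l G) x
        + s x k l * LR.pd i (LR.pd k (LR.pd l G)) x)) := by
  rw [pd_congr_on hO (g := fun y => ∑ k, ∑ l, (LR.pd k (fun y => s y k l) y * LR.pd l G y
      + s y k l * LR.pd k (LR.pd l G) y)) (fun y hy => Ld_eq hO hs hG hy) hx i]
  have c1 : ∀ k l, ContDiffOn ℝ ∞ (fun y => LR.pd k (fun y => s y k l) y * LR.pd l G y) O :=
    fun k l => (pd_cdo hO (hs k l) k).mul (pd_cdo hO hG l)
  have c2 : ∀ k l, ContDiffOn ℝ ∞ (fun y => s y k l * LR.pd k (LR.pd l G) y) O :=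
    fun k l => (hs k l).mul (pd_cdo hO (pd_cdo hO hG l) k)
  rw [pd_sum' hO _ (fun k _ => ContDiffOn.sum fun l _ => (c1 k l).add (c2 k l)) hx]
  refine Finset.sum_congr rfl fun k _ => ?_
  rw [pd_sum' hO _ (fun l _ => (c1 k l).add (c2 k l)) hx]
  refine Finset.sum_congr rfl fun l _ => ?_
  rw [pd_add' hO (c1 k l) (c2 k l) hx, pd_mul' hO (pd_cdo hO (hs k l) k) (pd_cdo hO hG l) hx,
    pd_mul' hO (hs k l) (pd_cdo hO (pd_cdo hO hG l) k) hx]

theorem pd_Ld_le (hO : IsOpen O) {ε M σ c₀ : ℝ} (hε0 : 0 ≤ ε) (hε1 : ε ≤ 1) (hM : 0 < M)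
    {s : MF n} {G : V n → ℝ}
    (h : CW O ε M σ c₀ s G) {x : V n} (hx : x ∈ O) (i : Fin n) :
    |LR.pd i (Ld s G) x| ≤ n * (n * (5 * M)) := by
  rw [pd_Ld hO h.sm h.gs hx]
  refine abs_sum2_le fun k l => ?_
  have a1 := h.s2 x hx i k k l
  have a2 := h.g1 x hx l
  have a3 := h.s1 x hx k k l
  have a4 := h.g2 x hx i l
  have a5 := h.s1 x hx i k l
  have a6 := h.g2 x hx k l
  have a7 := S_le hε1 (h.s0 x hx) k l
  have a8 := h.g3 x hx i k l
  have b1 : |LR.pd i (LR.pd k (fun y => s y k l)) x * LR.pd l G x| ≤ ε * M := by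
    rw [abs_mul]; gcongr
  have b2 : |LR.pd k (fun y => s y k l) x * LR.pd i (LR.pd l G) x| ≤ ε * M := by
    rw [abs_mul]; gcongr
  have b3 : |LR.pd i (fun y => s y k l) x * LR.pd k (LR.pd l G) x| ≤ ε * M := by
    rw [abs_mul]; gcongr
  have b4 : |s x k l * LR.pd i (LR.pd k (LR.pd l G)) x| ≤ 2 * M := by
    rw [abs_mul]; gcongr
  have b5 : ε * M ≤ M := by nlinarith
  refine (abs_add_le _ _).trans ?_
  have c1 := abs_add_le (LR.pd i (LR.pd k (fun y => s y k l)) x * LR.pd l G x)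
    (LR.pd k (fun y => s y k l) x * LR.pd i (LR.pd l G) x)
  have c2 := abs_add_le (LR.pd i (fun y => s y k l) x * LR.pd k (LR.pd l G) x)
    (s x k l * LR.pd i (LR.pd k (LR.pd l G)) x)
  linarith

/-- smallness of `ε` -/
structure Sml (n : ℕ) (ε M σ c₀ : ℝ) : Prop where
  e0 : 0 ≤ ε
  M0 : 0 < M
  σ0 : 0 < σ
  c0 : 0 < c₀
  e1 : ε ≤ 1
  h1 : n * ε ≤ 1
  h2 : n ^ 3 * ε ^ 2 ≤ 1 / 4
  h3 : n ^ 3 * ε ^ 2 * M ^ 2 ≤ c₀ / 4
  h4 : 4 * (n ^ 3 * M * ε) ≤ σ / 16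
  h5 : 2 * n ^ 3 * M ^ 3 * ε ≤ σ * c₀ / 4

/-- `ρ` large -/
structure Rho (n : ℕ) (M σ c₀ ρ : ℝ) : Prop where
  r1 : 1 ≤ ρ
  r2 : 32 * (n : ℝ) ^ 2 * ((n : ℝ) * (n * (5 * M))) ^ 2 / σ ≤ ρ ^ 2 * (σ * c₀ / 4)
  r3 : 2 * M ^ 2 ≤ ρ ^ 3 * (σ * c₀ / 8)

theorem QQ_ge (hO : IsOpen O) {ε M σ c₀ ρ : ℝ} (hsm : Sml n ε M σ c₀) (hρ : Rho n M σ c₀ ρ)
    {s : MF n} {G : V n → ℝ} (h : CW O ε M σ c₀ s G) {v : V n → ℝ} {x : V n}
    (hx : x ∈ O) :
    ρ * (σ / 8) * ∑ i, LR.pd i v x ^ 2 + ρ ^ 3 * (σ * c₀ / 4) * v x ^ 2 ≤ QQ s G ρ v x :=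
  alg2 hsm.e0 hsm.M0 hsm.σ0 hsm.c0 hsm.h1 hsm.h2 hsm.h3 hsm.h4 hsm.h5 (fun i j => s x i j)
    (h.sy x hx) (h.s0 x hx) (fun i k l => LR.pd i (fun y => s y k l) x)
    (fun i k l => h.s1 x hx i k l) (fun i => LR.pd i G x) (h.g1 x hx) (h.gr x hx)
    (fun i j => LR.pd i (LR.pd j G) x) (h.gc x hx) (fun k => fl s G k x) (fun _ => rfl)
    (fun i k => LR.pd i (fl s G k) x) (fun i k => pd_fl hO h.sm h.gs hx i k)
    (fun i => LR.pd i (FG s G) x) (fun i => pd_FG hO h.sm h.gs hx i)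
    (fun i => LR.pd i (Ld s G) x) (fun i => pd_Ld_le hO hsm.e0 hsm.e1 hsm.M0 h hx i)
    (fun i => LR.pd i v x) (fun i => fl s v i x) (fun _ => rfl) (v x) hρ.r1 hρ.r2

theorem exp_cdo {G : V n → ℝ} (hG : ContDiffOn ℝ ∞ G O) (ρ : ℝ) :
    ContDiffOn ℝ ∞ (fun x => Real.exp (ρ * G x)) O :=
  (contDiffOn_const.mul hG).exp

theorem pd_exp' (hO : IsOpen O) {G : V n → ℝ} (hG : ContDiffOn ℝ ∞ G O) (ρ : ℝ)
    {x : V n} (hx : x ∈ O) (i : Fin n) :
    LR.pd i (fun y => Real.exp (ρ * G y)) x = ρ * LR.pd i G x * Real.exp (ρ * G x) := by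
  have h' : HasFDerivAt (fun y => Real.exp (ρ * G y)) _ x :=
    ((cdo_dif hO hG hx).hasFDerivAt.const_mul ρ).exp
  unfold LR.pd
  rw [h'.fderiv]
  simp only [_root_.smul_apply, smul_eq_mul]
  ring

/-- conjugation with the weight -/
theorem conj_eq (hO : IsOpen O) {s : MF n} (hs : SmO O s) (hsy : ∀ x ∈ O, ∀ i j, s x i j = s x j i)
    {G : V n → ℝ} (hG : ContDiffOn ℝ ∞ G O) {v : V n → ℝ} (hv : ContDiffOn ℝ ∞ v O) (ρ : ℝ)
    {x : V n} (hx : x ∈ O) :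
    Ld s (fun y => Real.exp (-ρ * G y) * v y) x = Real.exp (-ρ * G x) * Pc s G ρ v x := by
  have hE := exp_cdo hG (-ρ)
  have h1 : ∀ y ∈ O, ∀ j, LR.pd j (fun y => Real.exp (-ρ * G y) * v y) y =
      Real.exp (-ρ * G y) * (LR.pd j v y + (-ρ) * (LR.pd j G y * v y)) := by
    intro y hy j
    rw [pd_mul' hO hE hv hy, pd_exp' hO hG _ hy]
    ring
  have h2 : ∀ y ∈ O, ∀ i, fl s (fun y => Real.exp (-ρ * G y) * v y) i y =
      Real.exp (-ρ * G y) * (fl s v i y + (-ρ) * (fl s G i y * v y)) := by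
    intro y hy i
    unfold fl
    simp only [h1 y hy]
    rw [Finset.sum_mul, Finset.mul_sum, ← Finset.sum_add_distrib, Finset.mul_sum]
    refine Finset.sum_congr rfl fun j _ => ?_
    ring
  have hX := fl_cdo hO hs hG
  have hp := fl_cdo hO hs hv
  have h3 : ∀ i, LR.pd i (fl s (fun y => Real.exp (-ρ * G y) * v y) i) x =
      Real.exp (-ρ * G x) * (LR.pd i (fl s v i) x
        - ρ * (LR.pd i (fl s G i) x * v x) - ρ * (fl s G i x * LR.pd i v x)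
        - ρ * (LR.pd i G x * fl s v i x) + ρ ^ 2 * (fl s G i x * LR.pd i G x) * v x) := by
    intro i
    rw [pd_congr_on hO (fun y hy => h2 y hy i) hx i]
    have c1 : ContDiffOn ℝ ∞ (fun y => fl s G i y * v y) O := (hX i).mul hv
    have c2 : ContDiffOn ℝ ∞ (fun y => (-ρ) * (fl s G i y * v y)) O := contDiffOn_const.mul c1
    rw [pd_mul' hO hE ((hp i).add c2) hx, pd_exp' hO hG _ hx, pd_add' hO (hp i) c2 hx,
      pd_cmul' hO _ c1 hx, pd_mul' hO (hX i) hv hx]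
    ring
  have h4 : ∑ i, LR.pd i G x * fl s v i x = Xf s G v x := by
    unfold fl Xf
    simp only [fl, Finset.mul_sum, Finset.sum_mul]
    rw [Finset.sum_comm]
    refine Finset.sum_congr rfl fun j _ => Finset.sum_congr rfl fun i _ => ?_
    rw [hsy x hx i j]; ring
  have h5 : Ld s (fun y => Real.exp (-ρ * G y) * v y) x =
      ∑ i, LR.pd i (fl s (fun y => Real.exp (-ρ * G y) * v y) i) x := rfl
  rw [h5, Finset.sum_congr rfl fun i _ => h3 i, ← Finset.mul_sum]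
  congr 1
  rw [Finset.sum_add_distrib, Finset.sum_sub_distrib, Finset.sum_sub_distrib,
    Finset.sum_sub_distrib, ← Finset.mul_sum, ← Finset.mul_sum, ← Finset.mul_sum, h4,
    ← Finset.sum_mul, ← Finset.sum_mul, ← Finset.mul_sum]
  have h6 : ∑ i, LR.pd i (fl s v i) x = Ld s v x := rfl
  have h7 : ∑ i, LR.pd i (fl s G i) x = Ld s G x := rfl
  have h8 : ∑ i, fl s G i x * LR.pd i v x = Xf s G v x := rfl
  have h9 : ∑ i, fl s G i x * LR.pd i G x = FG s G x := rfl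
  rw [h6, h7, h8, h9]
  unfold Pc
  ring

/-- the operator with a potential -/
def Lq (s : MF n) (q : V n → ℝ) (f : V n → ℝ) (x : V n) : ℝ := Ld s f x + q x * f x

theorem Lq_TO (hO : IsOpen O) {s : MF n} (hs : SmO O s) {q : V n → ℝ} (hq : ContDiffOn ℝ ∞ q O)
    {φ : V n → ℝ} (h : TO O φ) : TO O (Lq s q φ) := (Ld_TO hO hs h).add (TO.mul hO hq h)

theorem Lq_cdo (hO : IsOpen O) {s : MF n} (hs : SmO O s) {q : V n → ℝ} (hq : ContDiffOn ℝ ∞ q O)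
    {φ : V n → ℝ} (h : ContDiffOn ℝ ∞ φ O) : ContDiffOn ℝ ∞ (Lq s q φ) O :=
  (Ld_cdo hO hs h).add (hq.mul h)

theorem TO.sq {φ : V n → ℝ} (hO : IsOpen O) (h : TO O φ) : TO O (fun x => φ x ^ 2) := by
  have := TO.mul hO h.con h
  simpa [pow_two] using this

/-- **Carleman estimate.** -/
theorem carleman (hO : IsOpen O) {ε M σ c₀ ρ : ℝ} (hsm : Sml n ε M σ c₀) (hρ : Rho n M σ c₀ ρ)
    {s : MF n} {G q : V n → ℝ} (h : CW O ε M σ c₀ s G) (hq : ContDiffOn ℝ ∞ q O)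
    (hqM : ∀ x ∈ O, |q x| ≤ M) {φ : V n → ℝ} (hφ : TO O φ) :
    ∫ x, (Real.exp (ρ * G x) * φ x) ^ 2 ≤
      16 / (σ * c₀ * ρ ^ 3) * ∫ x, (Real.exp (ρ * G x) * Lq s q φ x) ^ 2 := by
  set v : V n → ℝ := fun x => Real.exp (ρ * G x) * φ x with hv
  have tv : TO O v := TO.mul hO (exp_cdo h.gs ρ) hφ
  have hφv : ∀ x, φ x = Real.exp (-ρ * G x) * v x := by
    intro x
    rw [hv, ← mul_assoc, ← Real.exp_add]
    simp
  have tP := Pc_TO hO h.sm h.gs ρ tv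
  have tL : TO O fun x => Real.exp (ρ * G x) * Lq s q φ x :=
    TO.mul hO (exp_cdo h.gs ρ) (Lq_TO hO h.sm hq hφ)
  have e1 : ∀ x ∈ O, Real.exp (ρ * G x) * Lq s q φ x = Pc s G ρ v x + q x * v x := by
    intro x hx
    unfold Lq
    have h1 : φ = fun y => Real.exp (-ρ * G y) * v y := funext hφv
    have h2 := conj_eq hO h.sm h.sy h.gs tv.con ρ hx
    rw [← h1] at h2
    rw [h2, mul_add, ← mul_assoc, ← Real.exp_add]
    have : ρ * G x + -ρ * G x = 0 := by ring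
    rw [this, Real.exp_zero, one_mul]
    simp only [hv]; ring
  have i1 : ∫ x, QQ s G ρ v x ≤ ∫ x, Pc s G ρ v x ^ 2 := int_QQ_le hO h.sm h.sy h.gs tv ρ
  have i2 : ∫ x, ρ ^ 3 * (σ * c₀ / 4) * v x ^ 2 ≤ ∫ x, QQ s G ρ v x := by
    refine integral_mono ((tv.sq hO).integrable.const_mul _) (QQ_TO hO h.sm h.gs ρ tv).integrable
      fun x => ?_
    by_cases hx : x ∈ O
    · have := QQ_ge hO hsm hρ h (v := v) hx
      have h0 : 0 ≤ ρ * (σ / 8) * ∑ i, LR.pd i v x ^ 2 := by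
        have := hsm.σ0
        have := hρ.r1
        have : 0 ≤ ∑ i, LR.pd i v x ^ 2 := Finset.sum_nonneg fun i _ => sq_nonneg _
        positivity
      simp only
      linarith
    · rw [(QQ_TO hO h.sm h.gs ρ tv).zero hx]
      simp [tv.zero hx]
  have i3 : ∫ x, Pc s G ρ v x ^ 2 ≤
      ∫ x, (2 * (Real.exp (ρ * G x) * Lq s q φ x) ^ 2 + 2 * M ^ 2 * v x ^ 2) := by
    refine integral_mono (tP.sq hO).integrable
      (((tL.sq hO).integrable.const_mul _).add ((tv.sq hO).integrable.const_mul _)) fun x => ?_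
    by_cases hx : x ∈ O
    · simp only
      rw [e1 x hx]
      have h1 : (q x * v x) ^ 2 ≤ M ^ 2 * v x ^ 2 := by
        rw [mul_pow]
        have h2 : q x ^ 2 ≤ M ^ 2 := by
          rw [← sq_abs (q x)]; exact pow_le_pow_left₀ (abs_nonneg _) (hqM x hx) 2
        gcongr
      nlinarith [sq_nonneg (Pc s G ρ v x + 2 * (q x * v x))]
    · simp only
      rw [tP.zero hx, tv.zero hx]
      have := sq_nonneg (Real.exp (ρ * G x) * Lq s q φ x)
      nlinarith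
  rw [integral_add ((tL.sq hO).integrable.const_mul _) ((tv.sq hO).integrable.const_mul _),
    integral_const_mul, integral_const_mul] at i3
  rw [integral_const_mul] at i2
  have hσ := hsm.σ0
  have hc := hsm.c0
  have hρ1 := hρ.r1
  have h3 := hρ.r3
  set I := ∫ x, v x ^ 2 with hI
  have hI0 : 0 ≤ I := integral_nonneg fun x => sq_nonneg _
  set J := ∫ x, (Real.exp (ρ * G x) * Lq s q φ x) ^ 2 with hJ
  have h4 : ρ ^ 3 * (σ * c₀ / 8) * I ≤ 2 * J := by nlinarith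
  have hpos : 0 < σ * c₀ * ρ ^ 3 := by positivity
  rw [div_mul_eq_mul_div, le_div_iff₀ hpos]
  nlinarith

end Vale.Agent.P088.R2.H404
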