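import Vale.Agent.P088.R2.H404.DD

/-!
# P088, stage 3: Carleman estimate for systems with diagonal principal part
-/

open MeasureTheory Set Filter Topology
open scoped ContDiff Matrix

noncomputable section

namespace Vale.Agent.P088.R2.H404

open Vale.Agent.P088.LR Vale.Agent.P088.HY

variable {n m : ℕ} {O : Set (V n)}

/-- `(L f)_a = ∑ ∂_i (s_ij ∂_j f_a) + ∑_b ∑_l B_abl ∂_l f_b + ∑_b C_ab f_b` -/
def Ls (s : MF n) (B : Fin m → Fin m → Fin n → V n → ℝ) (C : Fin m → Fin m → V n → ℝ)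
    (f : Fin m → V n → ℝ) (a : Fin m) (x : V n) : ℝ :=
  Ld s (f a) x + ∑ b, (∑ l, B a b l x * LR.pd l (f b) x + C a b x * f b x)

theorem Ls_TO (hO : IsOpen O) {s : MF n} (hs : SmO O s) {B : Fin m → Fin m → Fin n → V n → ℝ}
    {C : Fin m → Fin m → V n → ℝ} (hB : ∀ a b l, ContDiffOn ℝ ∞ (B a b l) O)
    (hC : ∀ a b, ContDiffOn ℝ ∞ (C a b) O) {φ : Fin m → V n → ℝ} (h : ∀ a, TO O (φ a))
    (a : Fin m) : TO O (Ls s B C φ a) := by
  unfold Ls
  exact (Ld_TO hO hs (h a)).add (TO.sum _ fun b _ =>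
    (TO.sum _ fun l _ => TO.mul hO (hB a b l) ((h b).pd l)).add (TO.mul hO (hC a b) (h b)))

theorem Ls_cdo (hO : IsOpen O) {s : MF n} (hs : SmO O s) {B : Fin m → Fin m → Fin n → V n → ℝ}
    {C : Fin m → Fin m → V n → ℝ} (hB : ∀ a b l, ContDiffOn ℝ ∞ (B a b l) O)
    (hC : ∀ a b, ContDiffOn ℝ ∞ (C a b) O) {f : Fin m → V n → ℝ}
    (h : ∀ a, ContDiffOn ℝ ∞ (f a) O) (a : Fin m) : ContDiffOn ℝ ∞ (Ls s B C f a) O := by
  unfold Ls
  exact (Ld_cdo hO hs (h a)).add (ContDiffOn.sum fun b _ =>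
    (ContDiffOn.sum fun l _ => (hB a b l).mul (pd_cdo hO (h b) l)).add ((hC a b).mul (h b)))

/-- the perturbation after conjugation -/
theorem pert_le {M ρ : ℝ} (hM : 0 ≤ M) (hρ : 1 ≤ ρ) (B : Fin m → Fin n → ℝ)
    (hB : ∀ b l, |B b l| ≤ M) (C : Fin m → ℝ) (hC : ∀ b, |C b| ≤ M) (G1 : Fin n → ℝ)
    (hG : ∀ l, |G1 l| ≤ M) (dv : Fin m → Fin n → ℝ) (v : Fin m → ℝ) :
    (∑ b, (∑ l, B b l * (dv b l - ρ * (G1 l * v b)) + C b * v b)) ^ 2 ≤
      2 * (m * n * M ^ 2) * ∑ b, ∑ l, dv b l ^ 2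
        + 2 * (m * (ρ * (M + n * M ^ 2)) ^ 2) * ∑ b, v b ^ 2 := by
  have e : ∑ b, (∑ l, B b l * (dv b l - ρ * (G1 l * v b)) + C b * v b) =
      ∑ b, ∑ l, B b l * dv b l + ∑ b, (C b - ρ * ∑ l, B b l * G1 l) * v b := by
    rw [← Finset.sum_add_distrib]
    refine Finset.sum_congr rfl fun b _ => ?_
    have : ∑ l, B b l * (dv b l - ρ * (G1 l * v b)) =
        ∑ l, B b l * dv b l - ρ * (∑ l, B b l * G1 l) * v b := by
      rw [Finset.mul_sum, Finset.sum_mul, ← Finset.sum_sub_distrib]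
      exact Finset.sum_congr rfl fun l _ => by ring
    rw [this]; ring
  have h1 : (∑ b, ∑ l, B b l * dv b l) ^ 2 ≤ (m * n * M ^ 2) * ∑ b, ∑ l, dv b l ^ 2 := by
    calc (∑ b, ∑ l, B b l * dv b l) ^ 2 ≤ m * ∑ b, (∑ l, B b l * dv b l) ^ 2 := by
          have := sq_sum_le_card_mul_sum_sq (s := (Finset.univ : Finset (Fin m)))
            (f := fun b => ∑ l, B b l * dv b l)
          simpa using this
      _ ≤ m * ∑ b, (n * ∑ l, (B b l * dv b l) ^ 2) := by
          refine mul_le_mul_of_nonneg_left (Finset.sum_le_sum fun b _ => ?_) (Nat.cast_nonneg m)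
          have := sq_sum_le_card_mul_sum_sq (s := (Finset.univ : Finset (Fin n)))
            (f := fun l => B b l * dv b l)
          simpa using this
      _ ≤ m * ∑ b, (n * ∑ l, (M ^ 2 * dv b l ^ 2)) := by
          refine mul_le_mul_of_nonneg_left (Finset.sum_le_sum fun b _ => ?_) (Nat.cast_nonneg m)
          refine mul_le_mul_of_nonneg_left (Finset.sum_le_sum fun l _ => ?_) (Nat.cast_nonneg n)
          rw [mul_pow]
          have : B b l ^ 2 ≤ M ^ 2 := by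
            rw [← sq_abs (B b l)]; exact pow_le_pow_left₀ (abs_nonneg _) (hB b l) 2
          gcongr
      _ = _ := by
          simp only [← Finset.mul_sum]; ring
  have h2 : (∑ b, (C b - ρ * ∑ l, B b l * G1 l) * v b) ^ 2 ≤
      (m * (ρ * (M + n * M ^ 2)) ^ 2) * ∑ b, v b ^ 2 := by
    calc (∑ b, (C b - ρ * ∑ l, B b l * G1 l) * v b) ^ 2 ≤
        m * ∑ b, ((C b - ρ * ∑ l, B b l * G1 l) * v b) ^ 2 := by
          have := sq_sum_le_card_mul_sum_sq (s := (Finset.univ : Finset (Fin m)))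
            (f := fun b => (C b - ρ * ∑ l, B b l * G1 l) * v b)
          simpa using this
      _ ≤ m * ∑ b, ((ρ * (M + n * M ^ 2)) ^ 2 * v b ^ 2) := by
          refine mul_le_mul_of_nonneg_left (Finset.sum_le_sum fun b _ => ?_) (Nat.cast_nonneg m)
          rw [mul_pow]
          have h3 : |C b - ρ * ∑ l, B b l * G1 l| ≤ ρ * (M + n * M ^ 2) := by
            have a1 : |∑ l, B b l * G1 l| ≤ n * (M * M) := by
              refine abs_sum_le' fun l => ?_
              rw [abs_mul]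
              have := hB b l
              have := hG l
              gcongr
            have a2 : |C b - ρ * ∑ l, B b l * G1 l| ≤ |C b| + |ρ * ∑ l, B b l * G1 l| :=
              abs_sub _ _
            rw [abs_mul, abs_of_pos (by linarith : 0 < ρ)] at a2
            have a3 := hC b
            have a4 : ρ * |∑ l, B b l * G1 l| ≤ ρ * (n * (M * M)) :=
              mul_le_mul_of_nonneg_left a1 (by linarith)
            nlinarith
          have h4 : (C b - ρ * ∑ l, B b l * G1 l) ^ 2 ≤ (ρ * (M + n * M ^ 2)) ^ 2 := by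
            rw [← sq_abs (C b - _)]; exact pow_le_pow_left₀ (abs_nonneg _) h3 2
          gcongr
      _ = _ := by
          simp only [← Finset.mul_sum]; ring
  rw [e]
  nlinarith [sq_nonneg (∑ b, ∑ l, B b l * dv b l - ∑ b, (C b - ρ * ∑ l, B b l * G1 l) * v b)]

/-- `ρ` large, for systems -/
structure RhoS (n m : ℕ) (M σ c₀ ρ : ℝ) : Prop where
  r1 : 1 ≤ ρ
  r2 : 32 * (n : ℝ) ^ 2 * ((n : ℝ) * (n * (5 * M))) ^ 2 / σ ≤ ρ ^ 2 * (σ * c₀ / 4)
  r3 : 2 * (m * (2 * (m * n * M ^ 2))) ≤ ρ * (σ / 8)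
  r4 : 2 * (m * (2 * (m * (M + n * M ^ 2) ^ 2))) ≤ ρ * (σ * c₀ / 8)

theorem QQ_ge' (hO : IsOpen O) {ε M σ c₀ ρ : ℝ} (hsm : Sml n ε M σ c₀) (hρ : RhoS n m M σ c₀ ρ)
    {s : MF n} {G : V n → ℝ} (h : CW O ε M σ c₀ s G) {v : V n → ℝ} {x : V n}
    (hx : x ∈ O) :
    ρ * (σ / 8) * ∑ i, LR.pd i v x ^ 2 + ρ ^ 3 * (σ * c₀ / 4) * v x ^ 2 ≤ QQ s G ρ v x :=
  alg2 hsm.e0 hsm.M0 hsm.σ0 hsm.c0 hsm.h1 hsm.h2 hsm.h3 hsm.h4 hsm.h5 (fun i j => s x i j)
    (h.sy x hx) (h.s0 x hx) (fun i k l => LR.pd i (fun y => s y k l) x)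
    (fun i k l => h.s1 x hx i k l) (fun i => LR.pd i G x) (h.g1 x hx) (h.gr x hx)
    (fun i j => LR.pd i (LR.pd j G) x) (h.gc x hx) (fun k => fl s G k x) (fun _ => rfl)
    (fun i k => LR.pd i (fl s G k) x) (fun i k => pd_fl hO h.sm h.gs hx i k)
    (fun i => LR.pd i (FG s G) x) (fun i => pd_FG hO h.sm h.gs hx i)
    (fun i => LR.pd i (Ld s G) x) (fun i => pd_Ld_le hO hsm.e0 hsm.e1 hsm.M0 h hx i)
    (fun i => LR.pd i v x) (fun i => fl s v i x) (fun _ => rfl) (v x) hρ.r1 hρ.r2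

/-- **Carleman estimate, systems.** -/
theorem carlemanS (hO : IsOpen O) {ε M σ c₀ ρ : ℝ} (hsm : Sml n ε M σ c₀)
    (hρ : RhoS n m M σ c₀ ρ)
    {s : MF n} {G : V n → ℝ} (h : CW O ε M σ c₀ s G) {B : Fin m → Fin m → Fin n → V n → ℝ}
    {C : Fin m → Fin m → V n → ℝ} (hB : ∀ a b l, ContDiffOn ℝ ∞ (B a b l) O)
    (hC : ∀ a b, ContDiffOn ℝ ∞ (C a b) O) (hBM : ∀ a b l, ∀ x ∈ O, |B a b l x| ≤ M)
    (hCM : ∀ a b, ∀ x ∈ O, |C a b x| ≤ M) {φ : Fin m → V n → ℝ} (hφ : ∀ a, TO O (φ a)) :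
    ∑ a, ∫ x, (Real.exp (ρ * G x) * φ a x) ^ 2 ≤
      16 / (σ * c₀ * ρ ^ 3) * ∑ a, ∫ x, (Real.exp (ρ * G x) * Ls s B C φ a x) ^ 2 := by
  set v : Fin m → V n → ℝ := fun a x => Real.exp (ρ * G x) * φ a x with hv
  have tv : ∀ a, TO O (v a) := fun a => TO.mul hO (exp_cdo h.gs ρ) (hφ a)
  have hφv : ∀ a x, φ a x = Real.exp (-ρ * G x) * v a x := by
    intro a x
    rw [hv, ← mul_assoc, ← Real.exp_add]
    simp
  have tP := fun a => Pc_TO hO h.sm h.gs ρ (tv a)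
  have tL : ∀ a, TO O fun x => Real.exp (ρ * G x) * Ls s B C φ a x := fun a =>
    TO.mul hO (exp_cdo h.gs ρ) (Ls_TO hO h.sm hB hC hφ a)
  -- the perturbation
  set R : Fin m → V n → ℝ := fun a x =>
    ∑ b, (∑ l, B a b l x * (LR.pd l (v b) x - ρ * (LR.pd l G x * v b x)) + C a b x * v b x) with hR
  have e1 : ∀ a, ∀ x ∈ O, Real.exp (ρ * G x) * Ls s B C φ a x = Pc s G ρ (v a) x + R a x := by
    intro a x hx
    unfold Ls
    have h1 : φ a = fun y => Real.exp (-ρ * G y) * v a y := funext (hφv a)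
    have h2 := conj_eq hO h.sm h.sy h.gs (tv a).con ρ hx
    rw [← h1] at h2
    have h0 : Real.exp (ρ * G x) * Real.exp (-ρ * G x) = 1 := by
      rw [← Real.exp_add]; simp
    have h3 : ∀ b l, Real.exp (ρ * G x) * LR.pd l (φ b) x =
        LR.pd l (v b) x - ρ * (LR.pd l G x * v b x) := by
      intro b l
      have h4 : φ b = fun y => Real.exp (-ρ * G y) * v b y := funext (hφv b)
      have h5 : LR.pd l (φ b) x = Real.exp (-ρ * G x) *
          (LR.pd l (v b) x - ρ * (LR.pd l G x * v b x)) := by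
        rw [h4, pd_mul' hO (exp_cdo h.gs (-ρ)) (tv b).con hx, pd_exp' hO h.gs _ hx]
        ring
      rw [h5, ← mul_assoc, h0, one_mul]
    rw [h2, mul_add, ← mul_assoc, h0, one_mul, Finset.mul_sum]
    congr 1
    simp only [hR]
    refine Finset.sum_congr rfl fun b _ => ?_
    rw [mul_add, Finset.mul_sum]
    congr 1
    · refine Finset.sum_congr rfl fun l _ => ?_
      rw [← h3 b l]; ring
    · simp only [hv]; ring
  have tR : ∀ a, TO O fun x => Real.exp (ρ * G x) * Ls s B C φ a x - Pc s G ρ (v a) x := fun a =>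
    (tL a).sub (tP a)
  have hRb : ∀ a, ∀ x ∈ O, R a x ^ 2 ≤ 2 * (m * n * M ^ 2) * ∑ b, ∑ l, LR.pd l (v b) x ^ 2
        + 2 * (m * (ρ * (M + n * M ^ 2)) ^ 2) * ∑ b, v b x ^ 2 := by
    intro a x hx
    exact pert_le hsm.M0.le hρ.r1 (fun b l => B a b l x) (fun b l => hBM a b l x hx)
      (fun b => C a b x) (fun b => hCM a b x hx) (fun l => LR.pd l G x) (h.g1 x hx)
      (fun b l => LR.pd l (v b) x) (fun b => v b x)
  -- sums
  have tD : TO O fun x => ∑ b, ∑ l, LR.pd l (v b) x ^ 2 :=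
    TO.sum _ fun b _ => TO.sum _ fun l _ => TO.sq hO ((tv b).pd l)
  have tV : TO O fun x => ∑ b, v b x ^ 2 := TO.sum _ fun b _ => TO.sq hO (tv b)
  have tP2 : TO O fun x => ∑ a, Pc s G ρ (v a) x ^ 2 := TO.sum _ fun a _ => TO.sq hO (tP a)
  have tL2 : TO O fun x => ∑ a, (Real.exp (ρ * G x) * Ls s B C φ a x) ^ 2 :=
    TO.sum _ fun a _ => TO.sq hO (tL a)
  have i12 : ρ * (σ / 8) * (∫ x, ∑ b, ∑ l, LR.pd l (v b) x ^ 2)
      + ρ ^ 3 * (σ * c₀ / 4) * (∫ x, ∑ b, v b x ^ 2) ≤ ∫ x, ∑ a, Pc s G ρ (v a) x ^ 2 := by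
    rw [integral_finsetSum _ fun a _ => ((tP a).sq hO).integrable]
    have h1 : ∑ a, ∫ x, QQ s G ρ (v a) x ≤ ∑ a, ∫ x, Pc s G ρ (v a) x ^ 2 :=
      Finset.sum_le_sum fun a _ => int_QQ_le hO h.sm h.sy h.gs (tv a) ρ
    refine le_trans ?_ h1
    rw [← integral_const_mul, ← integral_const_mul, ← integral_add (tD.integrable.const_mul _)
      (tV.integrable.const_mul _), ← integral_finsetSum _ fun a _ =>
        (QQ_TO hO h.sm h.gs ρ (tv a)).integrable]
    refine integral_mono ((tD.integrable.const_mul _).add (tV.integrable.const_mul _))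
      (TO.sum _ fun a _ => QQ_TO hO h.sm h.gs ρ (tv a)).integrable fun x => ?_
    by_cases hx : x ∈ O
    · simp only
      rw [Finset.mul_sum, Finset.mul_sum, ← Finset.sum_add_distrib]
      exact Finset.sum_le_sum fun a _ => QQ_ge' hO hsm hρ h hx
    · have z1 : ∀ a, v a x = 0 := fun a => (tv a).zero hx
      have z2 : ∀ a l, LR.pd l (v a) x = 0 := fun a l => ((tv a).pd l).zero hx
      have z3 : ∀ a, QQ s G ρ (v a) x = 0 := fun a => (QQ_TO hO h.sm h.gs ρ (tv a)).zero hx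
      simp [z1, z2, z3]
  have i3 : ∫ x, ∑ a, Pc s G ρ (v a) x ^ 2 ≤
      ∫ x, (2 * ∑ a, (Real.exp (ρ * G x) * Ls s B C φ a x) ^ 2
        + (ρ * (σ / 8) * ∑ b, ∑ l, LR.pd l (v b) x ^ 2
          + ρ ^ 3 * (σ * c₀ / 8) * ∑ b, v b x ^ 2)) := by
    refine integral_mono tP2.integrable ((tL2.integrable.const_mul _).add
      ((tD.integrable.const_mul _).add (tV.integrable.const_mul _))) fun x => ?_
    by_cases hx : x ∈ O
    · simp only
      have k1 : ∀ a, Pc s G ρ (v a) x ^ 2 ≤ 2 * (Real.exp (ρ * G x) * Ls s B C φ a x) ^ 2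
          + 2 * (2 * (m * n * M ^ 2) * ∑ b, ∑ l, LR.pd l (v b) x ^ 2
        + 2 * (m * (ρ * (M + n * M ^ 2)) ^ 2) * ∑ b, v b x ^ 2) := by
        intro a
        have := hRb a x hx
        rw [e1 a x hx]
        nlinarith [sq_nonneg (Pc s G ρ (v a) x + 2 * R a x)]
      have k2 := Finset.sum_le_sum fun a (_ : a ∈ (Finset.univ : Finset (Fin m))) => k1 a
      rw [Finset.sum_add_distrib, ← Finset.mul_sum] at k2
      refine k2.trans ?_
      rw [Finset.sum_const, Finset.card_univ, Fintype.card_fin, nsmul_eq_mul]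
      set D2 := ∑ b, ∑ l, LR.pd l (v b) x ^ 2 with hD2
      set V2 := ∑ b, v b x ^ 2 with hV2
      have hD0 : 0 ≤ D2 := Finset.sum_nonneg fun b _ => Finset.sum_nonneg fun l _ => sq_nonneg _
      have hV0 : 0 ≤ V2 := Finset.sum_nonneg fun b _ => sq_nonneg _
      have k3 := mul_le_mul_of_nonneg_right hρ.r3 hD0
      have k4 := mul_le_mul_of_nonneg_right hρ.r4 (mul_nonneg (sq_nonneg ρ) hV0)
      nlinarith
    · have z1 : ∀ a, v a x = 0 := fun a => (tv a).zero hx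
      have z2 : ∀ a l, LR.pd l (v a) x = 0 := fun a l => ((tv a).pd l).zero hx
      have z3 : ∀ a, Pc s G ρ (v a) x = 0 := fun a => (tP a).zero hx
      simp only [z1, z2, z3]
      have : 0 ≤ ∑ a, (Real.exp (ρ * G x) * Ls s B C φ a x) ^ 2 :=
        Finset.sum_nonneg fun a _ => sq_nonneg _
      simp
      linarith
  have a23 : Integrable (fun x => ρ * (σ / 8) * ∑ b, ∑ l, LR.pd l (v b) x ^ 2
      + ρ ^ 3 * (σ * c₀ / 8) * ∑ b, v b x ^ 2) :=
    (tD.integrable.const_mul _).add (tV.integrable.const_mul _)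
  rw [integral_add (tL2.integrable.const_mul _) a23, integral_add (tD.integrable.const_mul _)
    (tV.integrable.const_mul _), integral_const_mul, integral_const_mul, integral_const_mul] at i3
  have hσ := hsm.σ0
  have hc := hsm.c0
  have hρ1 := hρ.r1
  rw [← integral_finsetSum _ fun a _ => ((tv a).sq hO).integrable,
    ← integral_finsetSum _ fun a _ => ((tL a).sq hO).integrable]
  set I := ∫ x, ∑ b, v b x ^ 2 with hI
  set J := ∫ x, ∑ a, (Real.exp (ρ * G x) * Ls s B C φ a x) ^ 2 with hJ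
  have h4 : ρ ^ 3 * (σ * c₀ / 8) * I ≤ 2 * J := by linarith
  have hpos : 0 < σ * c₀ * ρ ^ 3 := by positivity
  rw [div_mul_eq_mul_div, le_div_iff₀ hpos]
  nlinarith

end Vale.Agent.P088.R2.H404
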