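import Vale.Agent.P088.R2.H404.DE

/-!
# P088, stage 3: duality and weak solutions for systems with diagonal principal part
-/

open MeasureTheory Set Filter Topology
open scoped ContDiff Matrix RealInnerProductSpace

noncomputable section

namespace Vale.Agent.P088.R2.H404

open Vale.Agent.P088.LR Vale.Agent.P088.HY

variable {n m : ℕ} {O : Set (V n)}

/-- Green's formula -/
theorem green1 (hO : IsOpen O) {s : MF n} (hs : SmO O s)
    (hsy : ∀ x ∈ O, ∀ i j, s x i j = s x j i) {w : V n → ℝ} (hw : ContDiffOn ℝ ∞ w O)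
    {φ : V n → ℝ} (h : TO O φ) : ∫ x, w x * Ld s φ x = ∫ x, Ld s w x * φ x := by
  have e1 : ∫ x, w x * Ld s φ x = ∑ i, ∫ x, w x * LR.pd i (fl s φ i) x := by
    rw [← integral_finsetSum _ fun i _ => (TO.mul hO hw ((fl_TO hO hs h i).pd i)).integrable]
    refine integral_congr_ae (Eventually.of_forall fun x => ?_)
    simp only [Ld, Finset.mul_sum]
  have e2 : ∀ i, ∫ x, w x * LR.pd i (fl s φ i) x = - ∫ x, LR.pd i w x * fl s φ i x := fun i =>
    ibpO hO hw (fl_TO hO hs h i) i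
  have e3 : ∑ i, ∫ x, LR.pd i w x * fl s φ i x = ∑ i, ∫ x, fl s w i x * LR.pd i φ x := by
    rw [← integral_finsetSum _ fun i _ => (TO.mul hO (pd_cdo hO hw i) (fl_TO hO hs h i)).integrable,
      ← integral_finsetSum _ fun i _ => (TO.mul hO (fl_cdo hO hs hw i) (h.pd i)).integrable]
    refine integral_congr_ae (Eventually.of_forall fun x => ?_)
    simp only
    by_cases hx : x ∈ O
    · simp only [fl, Finset.mul_sum, Finset.sum_mul]
      rw [Finset.sum_comm]
      refine Finset.sum_congr rfl fun j _ => Finset.sum_congr rfl fun i _ => ?_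
      rw [hsy x hx i j]; ring
    · refine (Finset.sum_eq_zero fun i _ => ?_).trans (Finset.sum_eq_zero fun i _ => ?_).symm
      · rw [(fl_TO hO hs h i).zero hx, mul_zero]
      · rw [(h.pd i).zero hx, mul_zero]
  have e4 : ∀ i, ∫ x, fl s w i x * LR.pd i φ x = - ∫ x, LR.pd i (fl s w i) x * φ x := fun i =>
    ibpO hO (fl_cdo hO hs hw i) h i
  have e5 : ∫ x, Ld s w x * φ x = ∑ i, ∫ x, LR.pd i (fl s w i) x * φ x := by
    rw [← integral_finsetSum _ fun i _ =>
      (TO.mul hO (pd_cdo hO (fl_cdo hO hs hw i) i) h).integrable]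
    refine integral_congr_ae (Eventually.of_forall fun x => ?_)
    simp only [Ld, Finset.sum_mul]
  rw [e1, e5, Finset.sum_congr rfl fun i _ => e2 i, Finset.sum_neg_distrib, e3,
    Finset.sum_congr rfl fun i _ => e4 i, Finset.sum_neg_distrib, neg_neg]

/-- adjoint coefficients -/
def Bt (B : Fin m → Fin m → Fin n → V n → ℝ) (a b : Fin m) (l : Fin n) (x : V n) : ℝ := -B b a l x

/-- adjoint coefficients -/
def Ct (B : Fin m → Fin m → Fin n → V n → ℝ) (C : Fin m → Fin m → V n → ℝ) (a b : Fin m)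
    (x : V n) : ℝ := C b a x - ∑ l, LR.pd l (B b a l) x

theorem Bt_cdo {B : Fin m → Fin m → Fin n → V n → ℝ} (hB : ∀ a b l, ContDiffOn ℝ ∞ (B a b l) O)
    (a b : Fin m) (l : Fin n) : ContDiffOn ℝ ∞ (Bt B a b l) O := (hB b a l).neg

theorem Ct_cdo (hO : IsOpen O) {B : Fin m → Fin m → Fin n → V n → ℝ}
    {C : Fin m → Fin m → V n → ℝ} (hB : ∀ a b l, ContDiffOn ℝ ∞ (B a b l) O)
    (hC : ∀ a b, ContDiffOn ℝ ∞ (C a b) O) (a b : Fin m) : ContDiffOn ℝ ∞ (Ct B C a b) O :=
  (hC b a).sub (ContDiffOn.sum fun l _ => pd_cdo hO (hB b a l) l)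

/-- duality for the system -/
theorem dual (hO : IsOpen O) {s : MF n} (hs : SmO O s)
    (hsy : ∀ x ∈ O, ∀ i j, s x i j = s x j i) {B : Fin m → Fin m → Fin n → V n → ℝ}
    {C : Fin m → Fin m → V n → ℝ} (hB : ∀ a b l, ContDiffOn ℝ ∞ (B a b l) O)
    (hC : ∀ a b, ContDiffOn ℝ ∞ (C a b) O) {w : Fin m → V n → ℝ}
    (hw : ∀ a, ContDiffOn ℝ ∞ (w a) O) {φ : Fin m → V n → ℝ} (h : ∀ a, TO O (φ a)) :
    ∑ a, ∫ x, w a x * Ls s (Bt B) (Ct B C) φ a x = ∑ a, ∫ x, Ls s B C w a x * φ a x := by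
  have tB : ∀ a b l, TO O (fun x => w a x * (Bt B a b l x * LR.pd l (φ b) x)) := fun a b l =>
    TO.mul hO (hw a) (TO.mul hO (Bt_cdo hB a b l) ((h b).pd l))
  have tC : ∀ a b, TO O (fun x => w a x * (C b a x * φ b x)) := fun a b =>
    TO.mul hO (hw a) (TO.mul hO (hC b a) (h b))
  have tD : ∀ a b l, TO O (fun x => w a x * (LR.pd l (B b a l) x * φ b x)) := fun a b l =>
    TO.mul hO (hw a) (TO.mul hO (pd_cdo hO (hB b a l) l) (h b))
  have tE : ∀ a b l, TO O (fun x => B a b l x * LR.pd l (w b) x * φ a x) := fun a b l =>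
    TO.mul hO ((hB a b l).mul (pd_cdo hO (hw b) l)) (h a)
  have tL : ∀ a, TO O (fun x => w a x * Ld s (φ a) x) := fun a => TO.mul hO (hw a) (Ld_TO hO hs (h a))
  have tM : ∀ a, TO O (fun x => Ld s (w a) x * φ a x) := fun a => TO.mul hO (Ld_cdo hO hs (hw a)) (h a)
  have tF : ∀ a b, TO O (fun x => C a b x * w b x * φ a x) := fun a b =>
    TO.mul hO ((hC a b).mul (hw b)) (h a)
  -- left side
  have l1 : ∀ a, ∫ x, w a x * Ls s (Bt B) (Ct B C) φ a x =
      (∫ x, w a x * Ld s (φ a) x) + ∑ b, ((∑ l, ((∫ x, w a x * (Bt B a b l x * LR.pd l (φ b) x))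
        - ∫ x, w a x * (LR.pd l (B b a l) x * φ b x))) + ∫ x, w a x * (C b a x * φ b x)) := by
    intro a
    have k1 : ∀ x, w a x * Ls s (Bt B) (Ct B C) φ a x = w a x * Ld s (φ a) x +
        ∑ b, ((∑ l, (w a x * (Bt B a b l x * LR.pd l (φ b) x)
          - w a x * (LR.pd l (B b a l) x * φ b x))) + w a x * (C b a x * φ b x)) := by
      intro x
      unfold Ls Ct
      rw [mul_add, Finset.mul_sum]
      congr 1
      refine Finset.sum_congr rfl fun b _ => ?_
      rw [Finset.sum_sub_distrib, ← Finset.mul_sum, ← Finset.mul_sum, ← Finset.sum_mul]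
      ring
    simp only [k1]
    have tS : ∀ b, TO O (fun x => ((∑ l, (w a x * (Bt B a b l x * LR.pd l (φ b) x)
          - w a x * (LR.pd l (B b a l) x * φ b x))) + w a x * (C b a x * φ b x))) := fun b =>
      (TO.sum _ fun l _ => (tB a b l).sub (tD a b l)).add (tC a b)
    rw [integral_add (tL a).integrable (TO.sum _ fun b _ => tS b).integrable,
      integral_finsetSum _ fun b _ => (tS b).integrable]
    congr 1
    refine Finset.sum_congr rfl fun b _ => ?_
    rw [integral_add (TO.sum _ fun l _ => (tB a b l).sub (tD a b l)).integrable (tC a b).integrable,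
      integral_finsetSum _ fun l _ => ((tB a b l).sub (tD a b l)).integrable]
    congr 1
    refine Finset.sum_congr rfl fun l _ => ?_
    rw [integral_sub (tB a b l).integrable (tD a b l).integrable]
  have l2 : ∀ a b l, (∫ x, w a x * (Bt B a b l x * LR.pd l (φ b) x))
        - ∫ x, w a x * (LR.pd l (B b a l) x * φ b x) =
      ∫ x, B b a l x * LR.pd l (w a) x * φ b x := by
    intro a b l
    have k1 : ∫ x, w a x * (Bt B a b l x * LR.pd l (φ b) x) =
        ∫ x, LR.pd l (fun x => w a x * B b a l x) x * φ b x := by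
      have := ibpO hO ((hw a).mul (hB b a l)) (h b) l
      have k2 : ∫ x, w a x * (Bt B a b l x * LR.pd l (φ b) x) =
          - ∫ x, (w a x * B b a l x) * LR.pd l (φ b) x := by
        rw [← integral_neg]
        refine integral_congr_ae (Eventually.of_forall fun x => ?_)
        simp only [Bt]; ring
      rw [k2, this, neg_neg]
    rw [k1, ← integral_sub]
    · refine integral_congr_ae (Eventually.of_forall fun x => ?_)
      simp only
      by_cases hx : x ∈ O
      · rw [pd_mul' hO (hw a) (hB b a l) hx]; ring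
      · rw [(h b).zero hx]; ring
    · exact (TO.mul hO (pd_cdo hO ((hw a).mul (hB b a l)) l) (h b)).integrable
    · exact (tD a b l).integrable
  have r1 : ∀ a, ∫ x, Ls s B C w a x * φ a x =
      (∫ x, Ld s (w a) x * φ a x) + ∑ b, ((∑ l, ∫ x, B a b l x * LR.pd l (w b) x * φ a x)
        + ∫ x, C a b x * w b x * φ a x) := by
    intro a
    have k1 : ∀ x, Ls s B C w a x * φ a x = Ld s (w a) x * φ a x +
        ∑ b, ((∑ l, B a b l x * LR.pd l (w b) x * φ a x) + C a b x * w b x * φ a x) := by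
      intro x
      unfold Ls
      rw [add_mul, Finset.sum_mul]
      congr 1
      refine Finset.sum_congr rfl fun b _ => ?_
      rw [add_mul, Finset.sum_mul]
    simp only [k1]
    have tS : ∀ b, TO O (fun x => ((∑ l, B a b l x * LR.pd l (w b) x * φ a x)
        + C a b x * w b x * φ a x)) := fun b => (TO.sum _ fun l _ => tE a b l).add (tF a b)
    rw [integral_add (tM a).integrable (TO.sum _ fun b _ => tS b).integrable,
      integral_finsetSum _ fun b _ => (tS b).integrable]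
    congr 1
    refine Finset.sum_congr rfl fun b _ => ?_
    rw [integral_add (TO.sum _ fun l _ => tE a b l).integrable (tF a b).integrable,
      integral_finsetSum _ fun l _ => (tE a b l).integrable]
  rw [Finset.sum_congr rfl fun a _ => l1 a, Finset.sum_congr rfl fun a _ => r1 a,
    Finset.sum_add_distrib, Finset.sum_add_distrib]
  congr 1
  · exact Finset.sum_congr rfl fun a _ => green1 hO hs hsy (hw a) (h a)
  · rw [Finset.sum_comm]
    refine Finset.sum_congr rfl fun b _ => Finset.sum_congr rfl fun a _ => ?_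
    congr 1
    · exact Finset.sum_congr rfl fun l _ => l2 a b l
    · refine integral_congr_ae (Eventually.of_forall fun x => ?_)
      simp only; ring

/-- Riesz -/
theorem riesz_p {A H : Type*} [AddCommGroup A] [Module ℝ A] [NormedAddCommGroup H]
    [InnerProductSpace ℝ H] [CompleteSpace H] (T S : A →ₗ[ℝ] H) (G : H) {B : ℝ} (hB : 0 ≤ B)
    (h : ∀ a, ‖S a‖ ^ 2 ≤ B * ‖T a‖ ^ 2) :
    ∃ w : H, ‖w‖ ^ 2 ≤ B * ‖G‖ ^ 2 ∧ ∀ a, ⟪G, S a⟫ = ⟪w, T a⟫ := by
  have hS : ∀ a, ‖S a‖ ≤ √B * ‖T a‖ := by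
    intro a
    have h1 := Real.sqrt_le_sqrt (h a)
    rwa [Real.sqrt_sq (norm_nonneg _), Real.sqrt_mul hB, Real.sqrt_sq (norm_nonneg _)] at h1
  set ℓ : A →ₗ[ℝ] ℝ := (innerₛₗ ℝ G).comp S with hℓ
  have hℓa : ∀ a, ℓ a = ⟪G, S a⟫ := fun a => rfl
  have hb : ∀ a, |ℓ a| ≤ (√B * ‖G‖) * ‖T a‖ := by
    intro a
    rw [hℓa]
    calc |⟪G, S a⟫| ≤ ‖G‖ * ‖S a‖ := abs_real_inner_le_norm _ _
      _ ≤ ‖G‖ * (√B * ‖T a‖) := mul_le_mul_of_nonneg_left (hS a) (norm_nonneg _)
      _ = _ := by ring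
  have hker : LinearMap.ker T ≤ LinearMap.ker ℓ := by
    intro a ha
    rw [LinearMap.mem_ker] at ha ⊢
    have := hb a
    rw [ha, norm_zero, mul_zero] at this
    exact abs_eq_zero.1 (le_antisymm this (abs_nonneg _))
  set g : LinearMap.range T →ₗ[ℝ] ℝ :=
    ((LinearMap.ker T).liftQ ℓ hker).comp T.quotKerEquivRange.symm.toLinearMap with hg
  have hgT : ∀ a, g ⟨T a, LinearMap.mem_range_self T a⟩ = ℓ a := by
    intro a
    simp only [hg, LinearMap.comp_apply, LinearEquiv.coe_coe]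
    have h1 : T.quotKerEquivRange.symm ⟨T a, LinearMap.mem_range_self T a⟩
        = (LinearMap.ker T).mkQ a := by
      rw [LinearEquiv.symm_apply_eq]
      rfl
    rw [h1]
    simp
  have hgb : ∀ y : LinearMap.range T, ‖g y‖ ≤ (√B * ‖G‖) * ‖y‖ := by
    rintro ⟨y, a, rfl⟩
    rw [hgT a]
    exact hb a
  set gc : LinearMap.range T →L[ℝ] ℝ := g.mkContinuous (√B * ‖G‖) hgb with hgc
  obtain ⟨f, hf1, hf2⟩ := exists_extension_norm_eq (LinearMap.range T) gc
  refine ⟨(InnerProductSpace.toDual ℝ H).symm f, ?_, fun a => ?_⟩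
  · rw [LinearIsometryEquiv.norm_map, hf2]
    have h1 : ‖gc‖ ≤ √B * ‖G‖ := g.mkContinuous_norm_le (by positivity) hgb
    have h0 : 0 ≤ ‖gc‖ := ContinuousLinearMap.opNorm_nonneg gc
    calc ‖gc‖ ^ 2 ≤ (√B * ‖G‖) ^ 2 := by gcongr
      _ = B * ‖G‖ ^ 2 := by rw [mul_pow, Real.sq_sqrt hB]
  · rw [InnerProductSpace.toDual_symm_apply]
    have h1 := hf1 ⟨T a, LinearMap.mem_range_self T a⟩
    rw [h1]
    change ℓ a = g ⟨T a, _⟩
    rw [hgT a]

end Vale.Agent.P088.R2.H404
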