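import Vale.Agent.P088.R2.H404.DF

/-!
# P088, stage 3: weak solutions with weight for systems with diagonal principal part
-/

open MeasureTheory Set Filter Topology
open scoped ContDiff Matrix RealInnerProductSpace

noncomputable section

namespace Vale.Agent.P088.R2.H404

open Vale.Agent.P088.LR Vale.Agent.P088.HY

variable {n m : ℕ} {O : Set (V n)}

/-- the restricted measure -/
abbrev mO (O : Set (V n)) : Measure (V n) := (volume : Measure (V n)).restrict O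

lemma L2sqO {f : V n → ℝ} (hf : MemLp f 2 (mO O)) : ‖hf.toLp f‖ ^ 2 = ∫ z in O, f z ^ 2 := by
  rw [← real_inner_self_eq_norm_sq, L2.inner_def]
  refine integral_congr_ae ?_
  filter_upwards [hf.coeFn_toLp] with z hz
  rw [hz, real_inner_self_eq_norm_sq, Real.norm_eq_abs, sq_abs]

lemma L2inO (h : Lp ℝ 2 (mO O)) {f : V n → ℝ} (hf : MemLp f 2 (mO O)) :
    ⟪h, hf.toLp f⟫ = ∫ z in O, h z * f z := by
  rw [L2.inner_def]
  refine integral_congr_ae ?_
  filter_upwards [hf.coeFn_toLp] with z hz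
  rw [hz]
  simp [mul_comm]

lemma L2nnO (h : Lp ℝ 2 (mO O)) : ‖h‖ ^ 2 = ∫ z in O, h z ^ 2 := by
  rw [← real_inner_self_eq_norm_sq, L2.inner_def]
  refine integral_congr_ae (Eventually.of_forall fun z => ?_)
  simp only
  rw [real_inner_self_eq_norm_sq, Real.norm_eq_abs, sq_abs]

lemma L2intO (h : Lp ℝ 2 (mO O)) : IntegrableOn (fun z => h z ^ 2) O :=
  (Lp.memLp h).integrable_sq

lemma TO.memLp {f : V n → ℝ} (hf : TO O f) : MemLp f 2 (mO O) :=
  (hf.sm.continuous.memLp_of_hasCompactSupport hf.cs).restrict _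

lemma TO.setInt {f : V n → ℝ} (hf : TO O f) : ∫ x in O, f x = ∫ x, f x :=
  setIntegral_eq_integral_of_forall_compl_eq_zero fun x hx => hf.zero hx

/-- systems of test functions -/
def TA (O : Set (V n)) (m : ℕ) : Submodule ℝ (Fin m → V n → ℝ) where
  carrier := {φ | ∀ a, TO O (φ a)}
  add_mem' ha hb := fun a => (ha a).add (hb a)
  zero_mem' := fun _ => TO.zero_fun
  smul_mem' c _ ha := fun a => (ha a).const_mul c

/-- the Hilbert space -/
abbrev HO (O : Set (V n)) (m : ℕ) := PiLp 2 (fun _ : Fin m => Lp ℝ 2 (mO O))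

/-- linear maps into the Hilbert space -/
def mkH (Q : TA O m → Fin m → V n → ℝ) (hQ : ∀ φ a, MemLp (Q φ a) 2 (mO O))
    (hadd : ∀ φ ψ a x, Q (φ + ψ) a x = Q φ a x + Q ψ a x)
    (hsmul : ∀ (c : ℝ) φ a x, Q (c • φ) a x = c * Q φ a x) : TA O m →ₗ[ℝ] HO O m where
  toFun φ := WithLp.toLp 2 fun a => (hQ φ a).toLp (Q φ a)
  map_add' φ ψ := by
    ext1 a
    change (hQ (φ + ψ) a).toLp (Q (φ + ψ) a) = (hQ φ a).toLp (Q φ a) + (hQ ψ a).toLp (Q ψ a)
    rw [← MemLp.toLp_add]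
    exact MemLp.toLp_congr _ _ (Eventually.of_forall fun x => hadd φ ψ a x)
  map_smul' c φ := by
    ext1 a
    change (hQ (c • φ) a).toLp (Q (c • φ) a) = c • (hQ φ a).toLp (Q φ a)
    rw [← MemLp.toLp_const_smul]
    exact MemLp.toLp_congr _ _ (Eventually.of_forall fun x => hsmul c φ a x)

lemma mkH_norm (Q : TA O m → Fin m → V n → ℝ) (hQ : ∀ φ a, MemLp (Q φ a) 2 (mO O))
    (hadd : ∀ φ ψ a x, Q (φ + ψ) a x = Q φ a x + Q ψ a x)
    (hsmul : ∀ (c : ℝ) φ a x, Q (c • φ) a x = c * Q φ a x) (φ : TA O m) :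
    ‖mkH Q hQ hadd hsmul φ‖ ^ 2 = ∑ a, ∫ x in O, Q φ a x ^ 2 := by
  rw [PiLp.norm_sq_eq_of_L2]
  exact Finset.sum_congr rfl fun a _ => L2sqO (hQ φ a)

lemma mkH_inner (W : HO O m) (Q : TA O m → Fin m → V n → ℝ)
    (hQ : ∀ φ a, MemLp (Q φ a) 2 (mO O))
    (hadd : ∀ φ ψ a x, Q (φ + ψ) a x = Q φ a x + Q ψ a x)
    (hsmul : ∀ (c : ℝ) φ a x, Q (c • φ) a x = c * Q φ a x) (φ : TA O m) :
    ⟪W, mkH Q hQ hadd hsmul φ⟫ = ∑ a, ∫ x in O, W a x * Q φ a x := by
  rw [PiLp.inner_apply]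
  exact Finset.sum_congr rfl fun a _ => L2inO (W a) (hQ φ a)

lemma pd_add_g {f g : V n → ℝ} (hf : ContDiff ℝ ∞ f) (hg : ContDiff ℝ ∞ g) (i : Fin n) (x : V n) :
    LR.pd i (fun y => f y + g y) x = LR.pd i f x + LR.pd i g x :=
  pd_add' isOpen_univ hf.contDiffOn hg.contDiffOn (mem_univ x) i

lemma pd_cmul_g {g : V n → ℝ} (c : ℝ) (hg : ContDiff ℝ ∞ g) (i : Fin n) (x : V n) :
    LR.pd i (fun y => c * g y) x = c * LR.pd i g x :=
  pd_cmul' isOpen_univ c hg.contDiffOn (mem_univ x) i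

lemma Ls_add (hO : IsOpen O) {s : MF n} (hs : SmO O s) (B : Fin m → Fin m → Fin n → V n → ℝ)
    (C : Fin m → Fin m → V n → ℝ) {φ ψ : Fin m → V n → ℝ} (h : ∀ a, TO O (φ a))
    (h' : ∀ a, TO O (ψ a)) (a : Fin m) (x : V n) :
    Ls s B C (φ + ψ) a x = Ls s B C φ a x + Ls s B C ψ a x := by
  have e0 : ∀ b, (φ + ψ) b = fun y => φ b y + ψ b y := fun b => rfl
  have e1 : ∀ b l, LR.pd l ((φ + ψ) b) = fun y => LR.pd l (φ b) y + LR.pd l (ψ b) y := by
    intro b l; funext y; rw [e0]; exact pd_add_g (h b).sm (h' b).sm l y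
  have e2 : ∀ i, fl s ((φ + ψ) a) i = fun y => fl s (φ a) i y + fl s (ψ a) i y := by
    intro i; funext y; unfold fl
    rw [← Finset.sum_add_distrib]
    exact Finset.sum_congr rfl fun j _ => by rw [e1]; ring
  have e3 : Ld s ((φ + ψ) a) x = Ld s (φ a) x + Ld s (ψ a) x := by
    unfold Ld
    rw [← Finset.sum_add_distrib]
    refine Finset.sum_congr rfl fun i _ => ?_
    rw [e2]
    exact pd_add_g (fl_TO hO hs (h a) i).sm (fl_TO hO hs (h' a) i).sm i x
  unfold Ls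
  rw [e3, add_add_add_comm, ← Finset.sum_add_distrib]
  congr 1
  refine Finset.sum_congr rfl fun b _ => ?_
  rw [add_add_add_comm, ← Finset.sum_add_distrib]
  congr 1
  · refine Finset.sum_congr rfl fun l _ => ?_
    rw [e1]; ring
  · rw [e0]; ring

lemma Ls_smul (hO : IsOpen O) {s : MF n} (hs : SmO O s) (B : Fin m → Fin m → Fin n → V n → ℝ)
    (C : Fin m → Fin m → V n → ℝ) {φ : Fin m → V n → ℝ} (h : ∀ a, TO O (φ a)) (c : ℝ)
    (a : Fin m) (x : V n) :
    Ls s B C (c • φ) a x = c * Ls s B C φ a x := by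
  have e0 : ∀ b, (c • φ) b = fun y => c * φ b y := fun b => rfl
  have e1 : ∀ b l, LR.pd l ((c • φ) b) = fun y => c * LR.pd l (φ b) y := by
    intro b l; funext y; rw [e0]; exact pd_cmul_g c (h b).sm l y
  have e2 : ∀ i, fl s ((c • φ) a) i = fun y => c * fl s (φ a) i y := by
    intro i; funext y; unfold fl
    rw [Finset.mul_sum]
    exact Finset.sum_congr rfl fun j _ => by rw [e1]; ring
  have e3 : Ld s ((c • φ) a) x = c * Ld s (φ a) x := by
    unfold Ld
    rw [Finset.mul_sum]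
    refine Finset.sum_congr rfl fun i _ => ?_
    rw [e2]
    exact pd_cmul_g c (fl_TO hO hs (h a) i).sm i x
  unfold Ls
  rw [e3, mul_add, Finset.mul_sum]
  congr 1
  refine Finset.sum_congr rfl fun b _ => ?_
  rw [mul_add, Finset.mul_sum]
  congr 1
  · refine Finset.sum_congr rfl fun l _ => ?_
    rw [e1]; ring
  · rw [e0]; ring

/-- weak solution -/
theorem weakS (hO : IsOpen O) {s : MF n} (hs : SmO O s)
    {B : Fin m → Fin m → Fin n → V n → ℝ} {C : Fin m → Fin m → V n → ℝ}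
    (hB : ∀ a b l, ContDiffOn ℝ ∞ (B a b l) O) (hC : ∀ a b, ContDiffOn ℝ ∞ (C a b) O)
    {G : V n → ℝ} (hG : ContDiffOn ℝ ∞ G O) {ρ K : ℝ} (hK : 0 ≤ K)
    (est : ∀ φ : Fin m → V n → ℝ, (∀ a, TO O (φ a)) →
      ∑ a, ∫ x, (Real.exp (ρ * G x) * φ a x) ^ 2 ≤
        K * ∑ a, ∫ x, (Real.exp (ρ * G x) * Ls s B C φ a x) ^ 2)
    {F : Fin m → V n → ℝ} (hF : ∀ a, ContDiffOn ℝ ∞ (F a) O)
    (hFi : ∀ a, IntegrableOn (fun x => F a x ^ 2 * Real.exp (-(2 * ρ * G x))) O) :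
    ∃ w : Fin m → V n → ℝ, (∀ a, AEStronglyMeasurable (w a) volume) ∧
      (∀ a, IntegrableOn (fun x => w a x ^ 2 * Real.exp (-(2 * ρ * G x))) O) ∧
      ∑ a, ∫ x in O, w a x ^ 2 * Real.exp (-(2 * ρ * G x)) ≤
        K * ∑ a, ∫ x in O, F a x ^ 2 * Real.exp (-(2 * ρ * G x)) ∧
      ∀ φ : Fin m → V n → ℝ, (∀ a, TO O (φ a)) →
        ∑ a, ∫ x, w a x * Ls s B C φ a x = ∑ a, ∫ x, F a x * φ a x := by
  have hE := exp_cdo hG ρ
  have hE' := exp_cdo hG (-ρ)
  have tT : ∀ (φ : TA O m) a, TO O fun x => Real.exp (ρ * G x) * Ls s B C φ.1 a x := fun φ a =>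
    TO.mul hO hE (Ls_TO hO hs hB hC φ.2 a)
  have tS : ∀ (φ : TA O m) a, TO O fun x => Real.exp (ρ * G x) * φ.1 a x := fun φ a =>
    TO.mul hO hE (φ.2 a)
  set T : TA O m →ₗ[ℝ] HO O m := mkH (fun φ a x => Real.exp (ρ * G x) * Ls s B C φ.1 a x)
    (fun φ a => (tT φ a).memLp)
    (fun φ ψ a x => by
      have := Ls_add hO hs B C φ.2 ψ.2 a x
      have e : (φ + ψ).1 = φ.1 + ψ.1 := rfl
      rw [e, this]; ring)
    (fun c φ a x => by
      have := Ls_smul hO hs B C φ.2 c a x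
      have e : (c • φ).1 = c • φ.1 := rfl
      rw [e, this]; ring) with hT
  set S : TA O m →ₗ[ℝ] HO O m := mkH (fun φ a x => Real.exp (ρ * G x) * φ.1 a x)
    (fun φ a => (tS φ a).memLp)
    (fun φ ψ a x => by
      have e : (φ + ψ).1 a x = φ.1 a x + ψ.1 a x := rfl
      rw [e]; ring)
    (fun c φ a x => by
      have e : (c • φ).1 a x = c * φ.1 a x := rfl
      rw [e]; ring) with hS
  have nT : ∀ φ, ‖T φ‖ ^ 2 = ∑ a, ∫ x, (Real.exp (ρ * G x) * Ls s B C φ.1 a x) ^ 2 := by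
    intro φ
    rw [hT, mkH_norm]
    exact Finset.sum_congr rfl fun a _ => ((tT φ a).sq hO).setInt
  have nS : ∀ φ, ‖S φ‖ ^ 2 = ∑ a, ∫ x, (Real.exp (ρ * G x) * φ.1 a x) ^ 2 := by
    intro φ
    rw [hS, mkH_norm]
    exact Finset.sum_congr rfl fun a _ => ((tS φ a).sq hO).setInt
  have hee : ∀ x, Real.exp (-ρ * G x) ^ 2 = Real.exp (-(2 * ρ * G x)) := by
    intro x
    rw [pow_two, ← Real.exp_add]; congr 1; ring
  have he0 : ∀ x, Real.exp (-ρ * G x) * Real.exp (ρ * G x) = 1 := by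
    intro x; rw [← Real.exp_add]; simp
  have mF : ∀ a, MemLp (fun x => Real.exp (-ρ * G x) * F a x) 2 (mO O) := by
    intro a
    have hm : AEStronglyMeasurable (fun x => Real.exp (-ρ * G x) * F a x) (mO O) :=
      (hE'.mul (hF a)).continuousOn.aestronglyMeasurable hO.measurableSet
    rw [memLp_two_iff_integrable_sq hm]
    refine (hFi a).congr (Eventually.of_forall fun x => ?_)
    simp only
    rw [mul_pow, hee]; ring
  set GG : HO O m := WithLp.toLp 2 fun a => (mF a).toLp _ with hGG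
  have nG : ‖GG‖ ^ 2 = ∑ a, ∫ x in O, F a x ^ 2 * Real.exp (-(2 * ρ * G x)) := by
    rw [PiLp.norm_sq_eq_of_L2]
    refine Finset.sum_congr rfl fun a _ => ?_
    have : ‖GG a‖ ^ 2 = ∫ z in O, (Real.exp (-ρ * G z) * F a z) ^ 2 := L2sqO (mF a)
    rw [this]
    refine integral_congr_ae (Eventually.of_forall fun x => ?_)
    simp only
    rw [mul_pow, hee]; ring
  obtain ⟨W, hW1, hW2⟩ := riesz_p T S GG hK (fun φ => by
    rw [nT, nS]; exact est φ.1 φ.2)
  have hEm : AEStronglyMeasurable (fun x => Real.exp (ρ * G x)) (mO O) :=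
    hE.continuousOn.aestronglyMeasurable hO.measurableSet
  have key : ∀ a, ∃ w : V n → ℝ, AEStronglyMeasurable w volume ∧
      (∀ x ∈ O, w x = Real.exp (ρ * G x) * W a x) := by
    intro a
    refine ⟨O.indicator fun x => Real.exp (ρ * G x) * W a x, ?_, fun x hx => ?_⟩
    · rw [aestronglyMeasurable_indicator_iff hO.measurableSet]
      exact hEm.mul (Lp.aestronglyMeasurable (W a))
    · rw [indicator_of_mem hx]
  choose w hw1 hw2 using key
  have sqw : ∀ a, ∀ x ∈ O, w a x ^ 2 * Real.exp (-(2 * ρ * G x)) = W a x ^ 2 := by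
    intro a x hx
    rw [hw2 a x hx, ← hee]
    have := he0 x
    calc (Real.exp (ρ * G x) * W a x) ^ 2 * Real.exp (-ρ * G x) ^ 2 =
        (Real.exp (-ρ * G x) * Real.exp (ρ * G x)) ^ 2 * W a x ^ 2 := by ring
      _ = _ := by rw [this]; ring
  refine ⟨w, hw1, fun a => (L2intO (W a)).congr_fun (fun x hx => (sqw a x hx).symm)
    hO.measurableSet, ?_, fun φ hφ => ?_⟩
  · rw [← nG]
    refine le_trans (le_of_eq ?_) hW1
    rw [PiLp.norm_sq_eq_of_L2]
    refine Finset.sum_congr rfl fun a _ => ?_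
    rw [L2nnO, setIntegral_congr_fun hO.measurableSet (sqw a)]
  · have h := hW2 ⟨φ, hφ⟩
    rw [hS, hT, mkH_inner, mkH_inner] at h
    have e1 : ∀ a, ∫ x in O, W a x * (Real.exp (ρ * G x) * Ls s B C φ a x) =
        ∫ x, w a x * Ls s B C φ a x := by
      intro a
      have h1 : ∫ x, w a x * Ls s B C φ a x = ∫ x in O, w a x * Ls s B C φ a x := by
        refine (setIntegral_eq_integral_of_forall_compl_eq_zero fun x hx => ?_).symm
        rw [(Ls_TO hO hs hB hC hφ a).zero hx, mul_zero]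
      rw [h1]
      refine setIntegral_congr_fun hO.measurableSet fun x hx => ?_
      simp only
      rw [hw2 a x hx]; ring
    have e2 : ∀ a, ∫ x in O, GG a x * (Real.exp (ρ * G x) * φ a x) = ∫ x, F a x * φ a x := by
      intro a
      rw [← (TO.mul hO (hF a) (hφ a)).setInt]
      refine integral_congr_ae ?_
      filter_upwards [(mF a).coeFn_toLp] with x hx
      have h2 : GG a x = Real.exp (-ρ * G x) * F a x := hx
      rw [h2]
      have := he0 x
      calc Real.exp (-ρ * G x) * F a x * (Real.exp (ρ * G x) * φ a x) =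
          (Real.exp (-ρ * G x) * Real.exp (ρ * G x)) * (F a x * φ a x) := by ring
        _ = _ := by rw [this, one_mul]
    rw [Finset.sum_congr rfl fun a _ => e2 a, Finset.sum_congr rfl fun a _ => e1 a] at h
    exact h.symm

end Vale.Agent.P088.R2.H404
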