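import Vale.Agent.P088.R2.H404.DG

/-!
# P088, stage 3: weighted solvability of `L w = F` for systems with diagonal principal part
-/

open MeasureTheory Set Filter Topology
open scoped ContDiff Matrix RealInnerProductSpace

noncomputable section

namespace Vale.Agent.P088.R2.H404

open Vale.Agent.P088.LR Vale.Agent.P088.HY

variable {n m : ℕ} {O : Set (V n)}

theorem db_eq (i : Fin n) (f : V n → ℝ) : db (⇑(Pi.basisFun ℝ (Fin n))) i f = LR.pd i f := by
  funext x
  simp [db, LR.pd]

/-- leading coefficients for `RowHYP` -/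
def cH (s : MF n) (p q : Fin m) (i j : Fin n) (x : V n) : ℝ := if p = q then s x i j else 0

/-- first order coefficients -/
def dH (s : MF n) (B : Fin m → Fin m → Fin n → V n → ℝ) (p q : Fin m) (l : Fin n) (x : V n) : ℝ :=
  (if p = q then ∑ i, LR.pd i (fun y => s y i l) x else 0) + B q p l x

theorem op2_Ls (hO : IsOpen O) {s : MF n} (hs : SmO O s)
    (B : Fin m → Fin m → Fin n → V n → ℝ) (C : Fin m → Fin m → V n → ℝ)
    (hB : ∀ a b l, ContDiffOn ℝ ∞ (B a b l) O) (hC : ∀ a b, ContDiffOn ℝ ∞ (C a b) O)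
    {φ : Fin m → V n → ℝ} (h : ∀ a, TO O (φ a)) (q : Fin m) (x : V n) :
    ∑ p, op2 (Pi.basisFun ℝ (Fin n)) (cH s p q) (dH s B p q) (C q p) (φ p) x = Ls s B C φ q x := by
  by_cases hx : x ∈ O
  · unfold op2
    simp only [db_eq]
    unfold cH dH Ls
    rw [Ld_eq hO hs (h q).con hx]
    have e1 : ∀ p, (∑ i, ∑ j, (if p = q then s x i j else 0) * LR.pd i (LR.pd j (φ p)) x
        + ∑ i, ((if p = q then ∑ k, LR.pd k (fun y => s y k i) x else 0) + B q p i x)
          * LR.pd i (φ p) x + C q p x * φ p x) =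
        (if p = q then ∑ i, ∑ j, s x i j * LR.pd i (LR.pd j (φ p)) x
          + ∑ i, (∑ k, LR.pd k (fun y => s y k i) x) * LR.pd i (φ p) x else 0)
          + (∑ l, B q p l x * LR.pd l (φ p) x + C q p x * φ p x) := by
      intro p
      split_ifs with hp
      · simp only [add_mul, Finset.sum_add_distrib]
        ring
      · simp
    rw [Finset.sum_congr rfl fun p _ => e1 p, Finset.sum_add_distrib, Finset.sum_ite_eq' Finset.univ q]
    simp only [Finset.mem_univ, if_true]
    congr 1
    have e2 : ∑ i, (∑ k, LR.pd k (fun y => s y k i) x) * LR.pd i (φ q) x =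
        ∑ k, ∑ l, LR.pd k (fun y => s y k l) x * LR.pd l (φ q) x := by
      rw [Finset.sum_comm]
      exact Finset.sum_congr rfl fun i _ => Finset.sum_mul _ _ _
    rw [e2, ← Finset.sum_add_distrib]
    refine Finset.sum_congr rfl fun k _ => ?_
    rw [← Finset.sum_add_distrib]
    exact Finset.sum_congr rfl fun l _ => by ring
  · rw [(Ls_TO hO hs hB hC h q).zero hx]
    refine Finset.sum_eq_zero fun p _ => ?_
    unfold op2
    simp only [db_eq]
    have z1 : ∀ l, LR.pd l (φ p) x = 0 := fun l => ((h p).pd l).zero hx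
    have z2 : ∀ i j, LR.pd i (LR.pd j (φ p)) x = 0 := fun i j => (((h p).pd j).pd i).zero hx
    simp [z1, z2, (h p).zero hx]

/-- ellipticity -/
theorem quad_pos' {S : Fin n → Fin n → ℝ} {ε : ℝ} (hε0 : 0 ≤ ε) (hε : n * ε ≤ 1 / 2)
    (hS : ∀ i j, |S i j - (1 : Matrix (Fin n) (Fin n) ℝ) i j| ≤ ε) {ξ : Fin n → ℝ} (hξ : ξ ≠ 0) :
    0 < ∑ i, ∑ j, S i j * ξ i * ξ j := by
  have hpos : 0 < ∑ i, ξ i ^ 2 := by
    obtain ⟨i, hi⟩ := Function.ne_iff.1 hξ
    exact Finset.sum_pos' (fun i _ => sq_nonneg _) ⟨i, Finset.mem_univ i, by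
      have : ξ i ≠ 0 := hi
      positivity⟩
  have e : ∑ i, ∑ j, S i j * ξ i * ξ j = ∑ i, ξ i ^ 2
      + ∑ i, ∑ j, (S i j - (1 : Matrix (Fin n) (Fin n) ℝ) i j) * ξ i * ξ j := by
    simp only [sub_mul, Finset.sum_sub_distrib]
    have : ∑ i, ∑ j, (1 : Matrix (Fin n) (Fin n) ℝ) i j * ξ i * ξ j = ∑ i, ξ i ^ 2 := by
      refine Finset.sum_congr rfl fun i _ => ?_
      simp [Matrix.one_apply, pow_two]
    rw [this]; ring
  have h1 : |∑ i, ∑ j, (S i j - (1 : Matrix (Fin n) (Fin n) ℝ) i j) * ξ i * ξ j| ≤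
      ε * (n * ∑ i, ξ i ^ 2) := by
    calc |∑ i, ∑ j, (S i j - (1 : Matrix (Fin n) (Fin n) ℝ) i j) * ξ i * ξ j| ≤
        ∑ i, ∑ j, ε * (|ξ i| * |ξ j|) := by
          refine (Finset.abs_sum_le_sum_abs _ _).trans (Finset.sum_le_sum fun i _ => ?_)
          refine (Finset.abs_sum_le_sum_abs _ _).trans (Finset.sum_le_sum fun j _ => ?_)
          rw [abs_mul, abs_mul, mul_assoc]
          exact mul_le_mul_of_nonneg_right (hS i j) (by positivity)
      _ = ε * (∑ i, |ξ i|) ^ 2 := by
          rw [pow_two, Finset.sum_mul_sum, Finset.mul_sum]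
          exact Finset.sum_congr rfl fun i _ => by rw [Finset.mul_sum]
      _ ≤ ε * (n * ∑ i, |ξ i| ^ 2) := by
          refine mul_le_mul_of_nonneg_left ?_ hε0
          have := sq_sum_le_card_mul_sum_sq (s := (Finset.univ : Finset (Fin n)))
            (f := fun i => |ξ i|)
          simpa using this
      _ = _ := by simp only [sq_abs]
  have h2 := (abs_le.1 h1).1
  rw [e]
  nlinarith

theorem cH_cdo {s : MF n} (hs : SmO O s) (p q : Fin m) (i j : Fin n) :
    ContDiffOn ℝ ∞ (cH s p q i j) O := by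
  by_cases h : p = q
  · have : cH s p q i j = fun x => s x i j := by funext x; simp [cH, h]
    rw [this]; exact hs i j
  · have : cH s p q i j = fun _ => 0 := by funext x; simp [cH, h]
    rw [this]; exact contDiffOn_const

theorem dH_cdo (hO : IsOpen O) {s : MF n} (hs : SmO O s) {B : Fin m → Fin m → Fin n → V n → ℝ}
    (hB : ∀ a b l, ContDiffOn ℝ ∞ (B a b l) O) (p q : Fin m) (l : Fin n) :
    ContDiffOn ℝ ∞ (dH s B p q l) O := by
  by_cases h : p = q
  · have : dH s B p q l = fun x => ∑ i, LR.pd i (fun y => s y i l) x + B q p l x := by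
      funext x; simp [dH, h]
    rw [this]
    exact (ContDiffOn.sum fun i _ => pd_cdo hO (hs i l) i).add (hB q p l)
  · have : dH s B p q l = fun x => B q p l x := by funext x; simp [dH, h]
    rw [this]; exact hB q p l

/-- **Regular solution from the a priori estimate for the adjoint.** -/
theorem solS (hyp : RowHYP) (hO : IsOpen O) {s : MF n} (hs : SmO O s)
    (hsy : ∀ x ∈ O, ∀ i j, s x i j = s x j i)
    (hell : ∀ x ∈ O, ∀ ξ : Fin n → ℝ, ξ ≠ 0 → ∑ i, ∑ j, s x i j * ξ i * ξ j ≠ 0)
    {B : Fin m → Fin m → Fin n → V n → ℝ} {C : Fin m → Fin m → V n → ℝ}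
    (hB : ∀ a b l, ContDiffOn ℝ ∞ (B a b l) O) (hC : ∀ a b, ContDiffOn ℝ ∞ (C a b) O)
    {G : V n → ℝ} (hG : ContDiffOn ℝ ∞ G O) {ρ K : ℝ} (hK : 0 ≤ K)
    (est : ∀ φ : Fin m → V n → ℝ, (∀ a, TO O (φ a)) →
      ∑ a, ∫ x, (Real.exp (ρ * G x) * φ a x) ^ 2 ≤
        K * ∑ a, ∫ x, (Real.exp (ρ * G x) * Ls s (Bt B) (Ct B C) φ a x) ^ 2)
    {F : Fin m → V n → ℝ} (hF : ∀ a, ContDiffOn ℝ ∞ (F a) O)
    (hFi : ∀ a, IntegrableOn (fun x => F a x ^ 2 * Real.exp (-(2 * ρ * G x))) O) :
    ∃ w : Fin m → V n → ℝ, (∀ a, ContDiffOn ℝ ∞ (w a) O) ∧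
      (∀ a, ∀ x ∈ O, Ls s B C w a x = F a x) ∧
      (∀ a, IntegrableOn (fun x => w a x ^ 2 * Real.exp (-(2 * ρ * G x))) O) ∧
      ∑ a, ∫ x in O, w a x ^ 2 * Real.exp (-(2 * ρ * G x)) ≤
        K * ∑ a, ∫ x in O, F a x ^ 2 * Real.exp (-(2 * ρ * G x)) := by
  have hBt := Bt_cdo hB
  have hCt := Ct_cdo hO hB hC
  obtain ⟨w, hwm, hwi, hwb, hww⟩ := weakS hO hs hBt hCt hG hK est hF hFi
  obtain ⟨w', hw's, hw'e⟩ := hyp (Fin n) (V n) volume (Pi.basisFun ℝ (Fin n)) m O hO
    (cH s) (dH s (Bt B)) (fun p q => Ct B C q p)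
    (fun p q i j => cH_cdo hs p q i j) (fun p q l => dH_cdo hO hs hBt p q l)
    (fun p q => hCt q p)
    (by
      intro z hz ξ hξ
      have h1 : (Matrix.of fun p q : Fin m => ∑ i, ∑ j, cH s p q i j z * ξ i * ξ j) =
          Matrix.diagonal fun _ => ∑ i, ∑ j, s z i j * ξ i * ξ j := by
        ext p q
        rw [Matrix.of_apply, Matrix.diagonal_apply]
        split_ifs with h
        · simp [cH, h]
        · simp [cH, h]
      rw [h1, Matrix.det_diagonal]
      exact Finset.prod_ne_zero_iff.2 fun _ _ => hell z hz ξ hξ)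
    w F hwm
    (by
      intro q k hk hkO
      have hc : ContinuousOn (fun x => Real.exp (2 * ρ * G x)) k :=
        ((continuousOn_const.mul (hG.continuousOn.mono hkO)).rexp)
      have h1 : IntegrableOn (fun x => w q x ^ 2 * Real.exp (-(2 * ρ * G x))) k :=
        (hwi q).mono_set hkO
      have h2 := h1.mul_continuousOn hc hk
      refine h2.congr (Eventually.of_forall fun x => ?_)
      simp only
      rw [mul_assoc, ← Real.exp_add]
      simp)
    hF
    (by
      intro φ hφ
      have h : ∀ a, TO O (φ a) := fun a => ⟨(hφ a).1, (hφ a).2.1, (hφ a).2.2⟩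
      have h1 := hww φ h
      have h2 : ∀ z, ∑ q, w q z * ∑ p, op2 (Pi.basisFun ℝ (Fin n)) (cH s p q) (dH s (Bt B) p q)
          (Ct B C q p) (φ p) z = ∑ q, w q z * Ls s (Bt B) (Ct B C) φ q z := by
        intro z
        refine Finset.sum_congr rfl fun q _ => ?_
        rw [op2_Ls hO hs (Bt B) (Ct B C) hBt hCt h]
      simp only [h2]
      have i1 : ∀ q, Integrable fun z => w q z * Ls s (Bt B) (Ct B C) φ q z := by
        intro q
        have tL := Ls_TO hO hs hBt hCt h q
        have hc : ContinuousOn (fun x => Real.exp (2 * ρ * G x)) (tsupport (Ls s (Bt B) (Ct B C) φ q)) :=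
          ((continuousOn_const.mul (hG.continuousOn.mono tL.ts)).rexp)
        have h3 : IntegrableOn (fun x => w q x ^ 2) (tsupport (Ls s (Bt B) (Ct B C) φ q)) := by
          have h1 : IntegrableOn (fun x => w q x ^ 2 * Real.exp (-(2 * ρ * G x)))
              (tsupport (Ls s (Bt B) (Ct B C) φ q)) := (hwi q).mono_set tL.ts
          have h2 := h1.mul_continuousOn hc tL.cs
          refine h2.congr (Eventually.of_forall fun x => ?_)
          simp only
          rw [mul_assoc, ← Real.exp_add]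
          simp
        have h4 : MemLp (w q) 2 (volume.restrict (tsupport (Ls s (Bt B) (Ct B C) φ q))) :=
          (memLp_two_iff_integrable_sq ((hwm q).restrict)).2 h3
        have h5 : MemLp (Ls s (Bt B) (Ct B C) φ q) 2
            (volume.restrict (tsupport (Ls s (Bt B) (Ct B C) φ q))) :=
          (tL.sm.continuous.memLp_of_hasCompactSupport tL.cs).restrict _
        have h6 : IntegrableOn (fun z => w q z * Ls s (Bt B) (Ct B C) φ q z)
            (tsupport (Ls s (Bt B) (Ct B C) φ q)) := MemLp.integrable_mul h4 h5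
        refine (integrableOn_iff_integrable_of_support_subset fun x hx => ?_).1 h6
        by_contra hx'
        exact hx (by simp only [image_eq_zero_of_notMem_tsupport hx', mul_zero])
      rw [integral_finsetSum _ fun q _ => i1 q,
        integral_finsetSum _ fun p _ => (TO.mul hO (hF p) (h p)).integrable]
      exact h1)
  have hwe : ∀ q, ∀ x, (x ∈ O → w' q x = w q x) → x ∈ O →
      w' q x ^ 2 * Real.exp (-(2 * ρ * G x)) = w q x ^ 2 * Real.exp (-(2 * ρ * G x)) := by
    intro q x h hx; rw [h hx]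
  have hae : ∀ q, (fun x => w' q x ^ 2 * Real.exp (-(2 * ρ * G x))) =ᵐ[mO O]
      fun x => w q x ^ 2 * Real.exp (-(2 * ρ * G x)) := by
    intro q
    rw [EventuallyEq, ae_restrict_iff' hO.measurableSet]
    filter_upwards [hw'e q] with x hx hxO
    exact hwe q x hx hxO
  refine ⟨w', hw's, ?_, fun q => (hwi q).congr (hae q).symm, ?_⟩
  · intro a x hx
    have h1 : ∀ᵐ x ∂(volume : Measure (V n)), x ∈ O → Ls s B C w' a x - F a x = 0 := by
      refine hO.ae_eq_zero_of_integral_contDiff_smul_eq_zero ?_ ?_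
      · exact ((Ls_cdo hO hs hB hC hw's a).sub (hF a)).continuousOn.locallyIntegrableOn
          hO.measurableSet
      · intro g hg hgc hgs
        have hT : TO O g := ⟨hg, hgc, hgs⟩
        set φ : Fin m → V n → ℝ := fun b => if b = a then g else fun _ => 0 with hφ
        have tφ : ∀ b, TO O (φ b) := by
          intro b
          simp only [hφ]
          split_ifs
          · exact hT
          · exact TO.zero_fun
        have a1 := dual hO hs hsy hB hC hw's tφ
        have a2 := hww φ tφ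
        have a3 : ∀ q, ∫ x, w' q x * Ls s (Bt B) (Ct B C) φ q x =
            ∫ x, w q x * Ls s (Bt B) (Ct B C) φ q x := by
          intro q
          refine integral_congr_ae ?_
          filter_upwards [hw'e q] with x hx
          by_cases hxO : x ∈ O
          · rw [hx hxO]
          · rw [(Ls_TO hO hs hBt hCt tφ q).zero hxO, mul_zero, mul_zero]
        rw [Finset.sum_congr rfl fun q _ => a3 q, a2] at a1
        have a4 : ∀ f : Fin m → V n → ℝ, ∑ b, ∫ x, f b x * φ b x = ∫ x, f a x * g x := by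
          intro f
          rw [Finset.sum_eq_single a]
          · simp [hφ]
          · intro b _ hb
            simp [hφ, hb]
          · simp
        rw [a4, a4] at a1
        have a5 : ∫ x, g x • (Ls s B C w' a x - F a x) =
            (∫ x, Ls s B C w' a x * g x) - ∫ x, F a x * g x := by
          rw [← integral_sub (TO.mul hO (Ls_cdo hO hs hB hC hw's a) hT).integrable
            (TO.mul hO (hF a) hT).integrable]
          refine integral_congr_ae (Eventually.of_forall fun x => ?_)
          simp only [smul_eq_mul]; ring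
        rw [a5, ← a1, sub_self]
    have h2 : Ls s B C w' a =ᵐ[volume.restrict O] F a := by
      rw [EventuallyEq, ae_restrict_iff' hO.measurableSet]
      filter_upwards [h1] with x hx hB
      linarith [hx hB]
    exact Measure.eqOn_open_of_ae_eq h2 hO (Ls_cdo hO hs hB hC hw's a).continuousOn
      (hF a).continuousOn hx
  · refine le_trans (le_of_eq ?_) hwb
    exact Finset.sum_congr rfl fun q _ => integral_congr_ae (hae q)

end Vale.Agent.P088.R2.H404
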