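import Mathlib

/-!
# P088, stage 3: selection of the stiffness parameter and of the concentration point

Given a compact set `K`, `u = |h| ≥ 0` and a weight exponent `G ≤ 0`, both continuous on `K`,
such that `u` is not identically zero near `{G = 0}` and vanishes to infinite order in `-G`,
there are arbitrarily large `ρ` and a maximiser `p` of `u * exp (ρ G)` for which `u exp (ρ G)`
is localised from BOTH sides at the level `G p`, with an exponential rate `ρ / N'` and a loss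
`(u p)^(-6/N'^2)` only; moreover `C log ρ ≤ log (1 / u p) ≤ η ρ`.
-/

namespace Vale.Agent.P088.R2.H404

open Real Set

/-- `p` maximises `log u + ρ G` on `{u > 0} ∩ K`. -/
def IsSel {X : Type*} (K : Set X) (u G : X → ℝ) (ρ : ℝ) (p : X) : Prop :=
  p ∈ K ∧ 0 < u p ∧ ∀ y ∈ K, 0 < u y → log (u y) + ρ * G y ≤ log (u p) + ρ * G p

theorem exists_isSel {X : Type*} [TopologicalSpace X] {K : Set X} (hK : IsCompact K)
    {u G : X → ℝ} (hu : ContinuousOn u K) (hG : ContinuousOn G K)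
    (hne : ∃ p ∈ K, 0 < u p) (ρ : ℝ) : ∃ p, IsSel K u G ρ p := by
  obtain ⟨p0, hp0, hup0⟩ := hne
  have hcont : ContinuousOn (fun p => u p * exp (ρ * G p)) K :=
    hu.mul (continuous_exp.comp_continuousOn (continuousOn_const.mul hG))
  obtain ⟨p, hpK, hp⟩ := hK.exists_isMaxOn ⟨p0, hp0⟩ hcont
  have hmax : ∀ y ∈ K, u y * exp (ρ * G y) ≤ u p * exp (ρ * G p) := fun y hy => hp hy
  have hpos : 0 < u p := by
    have h1 := hmax p0 hp0
    have h2 : 0 < u p0 * exp (ρ * G p0) := mul_pos hup0 (exp_pos _)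
    have h3 : 0 < u p * exp (ρ * G p) := lt_of_lt_of_le h2 h1
    exact pos_of_mul_pos_left h3 (exp_pos _).le
  refine ⟨p, hpK, hpos, fun y hy huy => ?_⟩
  have h1 := Real.log_le_log (mul_pos huy (exp_pos _)) (hmax y hy)
  rw [Real.log_mul huy.ne' (exp_pos _).ne', Real.log_mul hpos.ne' (exp_pos _).ne',
    Real.log_exp, Real.log_exp] at h1
  exact h1

/-- monotonicity relations between two selections -/
theorem sel_mono {X : Type*} {K : Set X} {u G : X → ℝ} {ρ₁ ρ₂ : ℝ} {p₁ p₂ : X}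
    (h12 : ρ₁ < ρ₂) (h₁ : IsSel K u G ρ₁ p₁) (h₂ : IsSel K u G ρ₂ p₂) :
    G p₁ ≤ G p₂ ∧ ρ₁ * (G p₂ - G p₁) ≤ log (u p₁) - log (u p₂) ∧
      log (u p₁) - log (u p₂) ≤ ρ₂ * (G p₂ - G p₁) := by
  have a := h₁.2.2 p₂ h₂.1 h₂.2.1
  have b := h₂.2.2 p₁ h₁.1 h₁.2.1
  refine ⟨?_, by linarith, by linarith⟩
  by_contra hlt
  push Not at hlt
  have : (ρ₂ - ρ₁) * (G p₂ - G p₁) < 0 := by
    apply mul_neg_of_pos_of_neg <;> linarith
  nlinarith

/-- two-sided localisation at the selected point, in logarithmic form -/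
theorem sel_localise {X : Type*} {K : Set X} {u G : X → ℝ} {ρ x : ℝ} {p pm pp : X}
    (hρ : 0 < ρ) (hx0 : 0 < x) (hx1 : x < 1)
    (h : IsSel K u G ρ p) (hm : IsSel K u G (ρ * (1 - x)) pm)
    (hp : IsSel K u G (ρ * (1 + x)) pp) {y : X} (hy : y ∈ K) (huy : 0 < u y) :
    log (u y) + ρ * (G y - G p) ≤ log (u p) + x * (log (u pm) - log (u pp))
      - ρ * x * |G y - G p| := by
  have hρx : 0 < ρ * x := mul_pos hρ hx0
  obtain ⟨a1, a2, a3⟩ := sel_mono (by nlinarith : ρ < ρ * (1 + x)) h hp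
  obtain ⟨b1, b2, b3⟩ := sel_mono (by nlinarith : ρ * (1 - x) < ρ) hm h
  have hDp : 0 ≤ log (u p) - log (u pp) := le_trans (mul_nonneg hρ.le (by linarith)) a2
  have hDm : 0 ≤ log (u pm) - log (u p) := by
    refine le_trans (mul_nonneg (mul_nonneg hρ.le (by linarith)) (by linarith)) b2
  rcases le_total (G p) (G y) with hc | hc
  · -- above
    have c := hp.2.2 y hy huy
    rw [abs_of_nonneg (by linarith)]
    have e1 : x * (ρ * (G pp - G p)) ≤ x * (log (u p) - log (u pp)) :=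
      mul_le_mul_of_nonneg_left a2 hx0.le
    have e2 : 0 ≤ x * (log (u pm) - log (u p)) := mul_nonneg hx0.le hDm
    nlinarith
  · have c := hm.2.2 y hy huy
    rw [abs_of_nonpos (by linarith)]
    have e1 : x * (log (u pm) - log (u p)) ≤ x * (ρ * (G p - G pm)) :=
      mul_le_mul_of_nonneg_left b3 hx0.le
    have e2 : 0 ≤ x * (log (u p) - log (u pp)) := mul_nonneg hx0.le hDp
    have e3 : (1 - x) * (log (u pm) - log (u p)) ≤ (1 - x) * (ρ * (G p - G pm)) :=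
      mul_le_mul_of_nonneg_left b3 (by linarith)
    nlinarith

/-- the potential `A(ρ) = - log max (u e^{ρ G})` is `≥ j log ρ - C_j`. -/
theorem flat_lower {g w c j ρ : ℝ} (hj : 0 < j) (hρ : 0 < ρ) (hg : 0 < g)
    (hw : w ≤ c + j * log g) : w - ρ * g ≤ c + j * log j - j - j * log ρ := by
  have h1 := Real.log_le_sub_one_of_pos (show 0 < ρ * g / j by positivity)
  rw [Real.log_div (by positivity) hj.ne', Real.log_mul hρ.ne' hg.ne'] at h1
  have h2 : j * (log ρ + log g - log j) ≤ j * (ρ * g / j - 1) :=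
    mul_le_mul_of_nonneg_left h1 hj.le
  have h3 : j * (ρ * g / j - 1) = ρ * g - j := by field_simp
  rw [h3] at h2
  linarith


/-- `limsup D / log ρ = ∞` -/
theorem exists_log_growth (D g : ℝ → ℝ)
    (hF2 : ∀ ρ₁ ρ₂, 0 < ρ₁ → 0 < ρ₂ → D ρ₁ + ρ₁ * g ρ₁ ≤ D ρ₂ + ρ₁ * g ρ₂)
    (hF3 : ∀ η > 0, ∃ ρ₁, ∀ ρ ≥ ρ₁, D ρ + ρ * g ρ ≤ η * ρ)
    (hF4 : ∀ j : ℕ, ∃ C : ℝ, ∀ ρ > 0, j * log ρ - C ≤ D ρ + ρ * g ρ)
    (C ρ₀ : ℝ) : ∃ ρ ≥ ρ₀, C * log ρ ≤ D ρ := by
  by_contra hcon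
  push Not at hcon
  set Cp := max C 0 with hCp
  have hCp0 : 0 ≤ Cp := le_max_right _ _
  set ρ₁ := max ρ₀ 1 with hρ₁
  have hlog2 : log 2 ≤ 1 := by
    have := Real.log_two_lt_d9
    linarith
  -- the monotone quantity
  set E : ℝ → ℝ := fun ρ => (D ρ + ρ * g ρ) / ρ - Cp * (2 + log ρ) / ρ with hE
  have hstep : ∀ ρ ≥ ρ₁, E ρ ≤ E (2 * ρ) := by
    intro ρ hρ
    have hρ1 : 1 ≤ ρ := le_trans (le_max_right _ _) hρ
    have hρ0 : ρ₀ ≤ ρ := le_trans (le_max_left _ _) hρ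
    have hpos : 0 < ρ := by linarith
    have h1 := hF2 ρ (2 * ρ) hpos (by linarith)
    have h2 := (hcon (2 * ρ) (by linarith)).le
    have hl : 0 ≤ log ρ := Real.log_nonneg hρ1
    have h2' : D (2 * ρ) ≤ Cp * (log 2 + log ρ) := by
      rw [Real.log_mul (by norm_num) hpos.ne'] at h2
      refine h2.trans ?_
      apply mul_le_mul_of_nonneg_right (le_max_left _ _)
      have := Real.log_nonneg (show (1 : ℝ) ≤ 2 by norm_num)
      linarith
    simp only [hE]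
    rw [Real.log_mul (by norm_num) hpos.ne', ← sub_div, ← sub_div, div_le_div_iff₀ hpos (by linarith)]
    have h3 : Cp * log 2 ≤ Cp := by nlinarith
    nlinarith
  have hiter : ∀ (m : ℕ) (ρ : ℝ), ρ₁ ≤ ρ → E ρ ≤ E (2 ^ m * ρ) := by
    intro m
    induction m with
    | zero => intro ρ _; simp
    | succ m ih =>
      intro ρ hρ
      have hρ1 : 1 ≤ ρ := le_trans (le_max_right _ _) hρ
      have hpow : (1 : ℝ) ≤ 2 ^ m := one_le_pow₀ (by norm_num)
      have h1 := ih ρ hρ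
      have h2 := hstep (2 ^ m * ρ) (by nlinarith)
      have h3 : (2 : ℝ) * (2 ^ m * ρ) = 2 ^ (m + 1) * ρ := by ring
      rw [h3] at h2
      exact h1.trans h2
  have hE0 : ∀ ρ ≥ ρ₁, E ρ ≤ 0 := by
    intro ρ hρ
    have hρ1 : 1 ≤ ρ := le_trans (le_max_right _ _) hρ
    apply le_of_forall_pos_le_add
    intro η hη
    obtain ⟨ρ₂, h2⟩ := hF3 η hη
    obtain ⟨m, hm⟩ := pow_unbounded_of_one_lt ρ₂ (show (1 : ℝ) < 2 by norm_num)
    have hpow : (1 : ℝ) ≤ 2 ^ m := one_le_pow₀ (by norm_num)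
    have hbig : ρ₂ ≤ 2 ^ m * ρ := by nlinarith
    have h3 := h2 _ hbig
    have hpos : 0 < 2 ^ m * ρ := by positivity
    have h4 := hiter m ρ hρ
    have h5 : E (2 ^ m * ρ) ≤ η := by
      simp only [hE]
      have h6 : (D (2 ^ m * ρ) + 2 ^ m * ρ * g (2 ^ m * ρ)) / (2 ^ m * ρ) ≤ η := by
        rw [div_le_iff₀ hpos]; exact h3
      have h7 : 0 ≤ Cp * (2 + log (2 ^ m * ρ)) / (2 ^ m * ρ) := by
        have : 0 ≤ log (2 ^ m * ρ) := Real.log_nonneg (by nlinarith)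
        positivity
      linarith
    linarith
  obtain ⟨j, hj⟩ := exists_nat_gt (Cp + 1)
  obtain ⟨Cj, hCj⟩ := hF4 j
  -- contradiction at a large ρ
  set L := max (log ρ₁) (2 * Cp + Cj + 1) with hL
  have hρe : ρ₁ ≤ exp L := by
    have hp : 0 < ρ₁ := lt_of_lt_of_le one_pos (le_max_right _ _)
    calc ρ₁ = exp (log ρ₁) := (Real.exp_log hp).symm
      _ ≤ exp L := Real.exp_le_exp.mpr (le_max_left _ _)
  have h1 := hE0 _ hρe
  have h2 := hCj (exp L) (exp_pos _)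
  simp only [hE] at h1
  rw [← sub_div] at h1
  have h3 : D (exp L) + exp L * g (exp L) - Cp * (2 + log (exp L)) ≤ 0 := by
    by_contra hc
    push Not at hc
    exact absurd h1 (not_le.mpr (div_pos hc (exp_pos _)))
  rw [Real.log_exp] at h2 h3
  have hL1 : 2 * Cp + Cj + 1 ≤ L := le_max_right _ _
  have hL0 : 0 ≤ L := by
    have : 0 ≤ log ρ₁ := Real.log_nonneg (le_max_right _ _)
    exact this.trans (le_max_left _ _)
  have h4 : (Cp + 1) * L ≤ j * L := mul_le_mul_of_nonneg_right hj.le hL0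
  nlinarith

/-- selection of `ρ` with a slowly varying `D` -/
theorem exists_slow (D : ℝ → ℝ) (hmono : ∀ ρ₁ ρ₂, 0 < ρ₁ → ρ₁ ≤ ρ₂ → D ρ₁ ≤ D ρ₂)
    (hF3 : ∀ η > 0, ∃ ρ₁, ∀ ρ ≥ ρ₁, D ρ ≤ η * ρ)
    (hF5 : ∀ C ρ₀ : ℝ, ∃ ρ ≥ ρ₀, C * log ρ ≤ D ρ) {x : ℝ} (hx0 : 0 < x) (hx : x ≤ 1 / 6)
    (C ρ₀ : ℝ) :
    ∃ ρ ≥ ρ₀, C * log ρ ≤ D ρ ∧ D (ρ * (1 + x)) - D (ρ * (1 - x)) ≤ 6 * x * D ρ := by
  obtain ⟨ρ₃, h3⟩ := hF3 1 one_pos
  set Cp := max C 0 with hCp
  have hCp0 : 0 ≤ Cp := le_max_right _ _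
  obtain ⟨r, hr, hDr⟩ := hF5 (3 * (Cp + 1)) (max (max ρ₀ ρ₃) (exp 1))
  have hre : exp 1 ≤ r := (le_max_right _ _).trans hr
  have hrρ : ρ₀ ≤ r := ((le_max_left _ _).trans (le_max_left _ _)).trans hr
  have hr3 : ρ₃ ≤ r := ((le_max_right _ _).trans (le_max_left _ _)).trans hr
  have hr1 : 1 ≤ r := by
    have := Real.add_one_le_exp (1 : ℝ)
    linarith
  have hr0 : 0 < r := by linarith
  have hlr : 1 ≤ log r := by
    rw [← Real.log_exp 1]; exact Real.log_le_log (exp_pos _) hre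
  set q := (1 + x) / (1 - x) with hq
  have h1x : 0 < 1 - x := by linarith
  have hq1 : 1 < q := by rw [hq, lt_div_iff₀ h1x]; linarith
  have hq2 : q ≤ 7 / 5 := by rw [hq, div_le_iff₀ h1x]; linarith
  have hqsq : q ^ 2 ≤ 1 + 6 * x := by
    rw [hq, div_pow, div_le_iff₀ (by positivity)]
    nlinarith [mul_pos hx0 hx0]
  by_contra hcon
  push Not at hcon
  have hind : ∀ k : ℕ, q ^ k ≤ r → q ^ (2 * k) * D r ≤ D (q ^ k * r) := by
    intro k
    induction k with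
    | zero => intro _; simp
    | succ k ih =>
      intro hk
      have hqk : 0 < q ^ k := by positivity
      have hqk1 : (1 : ℝ) ≤ q ^ k := one_le_pow₀ hq1.le
      have hk' : q ^ k ≤ r := by
        refine le_trans ?_ hk
        rw [pow_succ]; nlinarith
      have h1 := ih hk'
      set ρ := q ^ k * r / (1 - x) with hρ
      have e1 : ρ * (1 - x) = q ^ k * r := by rw [hρ]; field_simp
      have e2 : ρ * (1 + x) = q ^ (k + 1) * r := by
        rw [hρ, pow_succ, hq]; field_simp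
      have hρge : q ^ k * r ≤ ρ := by
        rw [hρ, le_div_iff₀ h1x]
        have : 0 < q ^ k * r := by positivity
        nlinarith
      have hrk : r ≤ q ^ k * r := by nlinarith
      have hρpos : 0 < ρ := by linarith
      have hρle : ρ ≤ r * r := by
        have : ρ ≤ ρ * (1 + x) := by nlinarith
        rw [e2] at this
        refine this.trans ?_
        exact mul_le_mul_of_nonneg_right hk hr0.le
      have hlogρ : log ρ ≤ 2 * log r := by
        have := Real.log_le_log hρpos hρle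
        rw [Real.log_mul hr0.ne' hr0.ne'] at this
        linarith
      have hlogρ0 : 0 ≤ log ρ := Real.log_nonneg (by linarith)
      have hDρ : D r ≤ D ρ := hmono r ρ hr0 (by linarith)
      have hCρ : C * log ρ ≤ D ρ := by
        have a1 : C * log ρ ≤ Cp * log ρ := mul_le_mul_of_nonneg_right (le_max_left _ _) hlogρ0
        have a2 : Cp * log ρ ≤ Cp * (2 * log r) := mul_le_mul_of_nonneg_left hlogρ hCp0
        nlinarith
      have h4 := hcon ρ (by linarith) hCρ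
      rw [e1, e2] at h4
      have hDk : D (q ^ k * r) ≤ D ρ := hmono _ _ (by positivity) hρge
      have hDr0 : 0 < D r := by nlinarith
      have hDk0 : 0 < D (q ^ k * r) := lt_of_lt_of_le hDr0 (hmono _ _ hr0 hrk)
      calc q ^ (2 * (k + 1)) * D r = q ^ 2 * (q ^ (2 * k) * D r) := by ring
        _ ≤ q ^ 2 * D (q ^ k * r) := mul_le_mul_of_nonneg_left h1 (by positivity)
        _ ≤ (1 + 6 * x) * D (q ^ k * r) := mul_le_mul_of_nonneg_right hqsq hDk0.le
        _ ≤ D (q ^ (k + 1) * r) := by nlinarith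
  obtain ⟨k, hk1, hk2⟩ := exists_nat_pow_near hr1 hq1
  have h5 := hind k hk1
  have hqk1 : (1 : ℝ) ≤ q ^ k := one_le_pow₀ hq1.le
  have h6 : D (q ^ k * r) ≤ 1 * (q ^ k * r) := h3 _ (by nlinarith)
  have hDr0 : 3 ≤ D r := by nlinarith
  -- q^(2k) * D r ≤ q^k * r, so q^k * D r ≤ r < q^(k+1)
  have h7 : q ^ k * D r ≤ r := by
    have : q ^ k * (q ^ k * D r) ≤ q ^ k * r := by
      calc q ^ k * (q ^ k * D r) = q ^ (2 * k) * D r := by ring
        _ ≤ _ := h5.trans (by linarith)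
    exact le_of_mul_le_mul_left this (by linarith)
  have h8 : q ^ k * D r < q ^ k * q := by
    rw [← pow_succ]; exact lt_of_le_of_lt h7 hk2
  have h9 : D r < q := lt_of_mul_lt_mul_left h8 (by linarith)
  linarith

/-- **Selection theorem.** -/
theorem exists_selection {X : Type*} [TopologicalSpace X] {K : Set X} (hK : IsCompact K)
    {u G : X → ℝ} (hu : ContinuousOn u K) (hG : ContinuousOn G K)
    (hu0 : ∀ p ∈ K, 0 ≤ u p) (hG0 : ∀ p ∈ K, G p ≤ 0)
    (hsupp : ∀ η > 0, ∃ p ∈ K, 0 < u p ∧ -η < G p)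
    (hflat : ∀ j : ℕ, ∃ C : ℝ, ∀ p ∈ K, u p ≤ C * (-G p) ^ j)
    {N' : ℝ} (hN : 6 ≤ N') (C ρ₀ : ℝ) {η : ℝ} (hη : 0 < η) :
    ∃ ρ ≥ ρ₀, ∃ p ∈ K, 0 < u p ∧ u p < 1 ∧ C * log ρ ≤ log (1 / u p) ∧
      log (1 / u p) + ρ * (-G p) ≤ η * ρ ∧
      (∀ y ∈ K, u y * exp (ρ * (G y - G p)) ≤ u p) ∧
      ∀ y ∈ K, u y * exp (ρ * (G y - G p)) ≤
        (u p) ^ (1 - 6 / N' ^ 2) * exp (-(ρ / N') * |G y - G p|) := by
  have hne : ∃ p ∈ K, 0 < u p := by
    obtain ⟨p, hp, hup, _⟩ := hsupp 1 one_pos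
    exact ⟨p, hp, hup⟩
  choose P hP using fun ρ => exists_isSel hK hu hG hne ρ
  set D : ℝ → ℝ := fun ρ => - log (u (P ρ)) with hD
  set g : ℝ → ℝ := fun ρ => - G (P ρ) with hg
  have hg0 : ∀ ρ, 0 ≤ g ρ := fun ρ => by
    have := hG0 _ (hP ρ).1
    simp only [hg]; linarith
  have hF2 : ∀ ρ₁ ρ₂, 0 < ρ₁ → 0 < ρ₂ → D ρ₁ + ρ₁ * g ρ₁ ≤ D ρ₂ + ρ₁ * g ρ₂ := by
    intro ρ₁ ρ₂ _ _
    have := (hP ρ₁).2.2 _ (hP ρ₂).1 (hP ρ₂).2.1
    simp only [hD, hg]; linarith
  have hmono : ∀ ρ₁ ρ₂, 0 < ρ₁ → ρ₁ ≤ ρ₂ → D ρ₁ ≤ D ρ₂ := by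
    intro ρ₁ ρ₂ h1 h12
    rcases h12.eq_or_lt with rfl | hlt
    · exact le_rfl
    · obtain ⟨a1, a2, a3⟩ := sel_mono hlt (hP ρ₁) (hP ρ₂)
      have : 0 ≤ ρ₁ * (G (P ρ₂) - G (P ρ₁)) := mul_nonneg h1.le (by linarith)
      simp only [hD]; linarith
  have hF3 : ∀ η > 0, ∃ ρ₁, ∀ ρ ≥ ρ₁, D ρ + ρ * g ρ ≤ η * ρ := by
    intro η hη
    obtain ⟨p, hp, hup, hGp⟩ := hsupp (η / 2) (by positivity)
    refine ⟨max 0 (2 * (- log (u p)) / η), fun ρ hρ => ?_⟩
    have hρ0 : 0 ≤ ρ := (le_max_left _ _).trans hρ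
    have hρ1 : 2 * (- log (u p)) / η ≤ ρ := (le_max_right _ _).trans hρ
    rw [div_le_iff₀ hη] at hρ1
    have h1 := (hP ρ).2.2 p hp hup
    simp only [hD, hg]
    nlinarith
  have hF4 : ∀ j : ℕ, ∃ C : ℝ, ∀ ρ > 0, j * log ρ - C ≤ D ρ + ρ * g ρ := by
    intro j
    obtain ⟨C, hC⟩ := hflat (j + 1)
    -- work with j + 1 > 0 and use log ρ ≥ ... by splitting
    obtain ⟨C0, hC0⟩ := hflat j
    rcases Nat.eq_zero_or_pos j with rfl | hj
    · refine ⟨log (max C0 1), fun ρ hρ => ?_⟩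
      have h1 := hC0 _ (hP ρ).1
      have h2 : u (P ρ) ≤ max C0 1 := by
        simp only [pow_zero, mul_one] at h1
        exact h1.trans (le_max_left _ _)
      have h3 := Real.log_le_log (hP ρ).2.1 h2
      have h4 : 0 ≤ ρ * g ρ := mul_nonneg hρ.le (hg0 ρ)
      simp only [hD, Nat.cast_zero, zero_mul]
      linarith
    · have hj' : (0 : ℝ) < j := by exact_mod_cast hj
      refine ⟨log (max C0 1) + j * log j - j, fun ρ hρ => ?_⟩
      have h1 := hC0 _ (hP ρ).1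
      have hgpos : 0 < g ρ := by
        rcases (hg0 ρ).eq_or_lt with h | h
        · exfalso
          have h' : - G (P ρ) = 0 := h.symm
          rw [h', zero_pow hj.ne', mul_zero] at h1
          exact absurd (hP ρ).2.1 (not_lt.mpr h1)
        · exact h
      have h2 : u (P ρ) ≤ max C0 1 * (g ρ) ^ j := by
        refine h1.trans ?_
        exact mul_le_mul_of_nonneg_right (le_max_left _ _) (by positivity)
      have hmx : 0 < max C0 1 := lt_of_lt_of_le one_pos (le_max_right _ _)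
      have h3 := Real.log_le_log (hP ρ).2.1 h2
      rw [Real.log_mul hmx.ne' (by positivity), Real.log_pow] at h3
      have h4 := flat_lower hj' hρ hgpos h3
      simp only [hD]
      linarith
  have hF5 := exists_log_growth D g hF2 hF3 hF4
  have hF3' : ∀ η > 0, ∃ ρ₁, ∀ ρ ≥ ρ₁, D ρ ≤ η * ρ := by
    intro η hη
    obtain ⟨ρ₁, h1⟩ := hF3 η hη
    refine ⟨max ρ₁ 0, fun ρ hρ => ?_⟩
    have h2 := h1 ρ ((le_max_left _ _).trans hρ)
    have h3 : 0 ≤ ρ * g ρ := mul_nonneg ((le_max_right _ _).trans hρ) (hg0 ρ)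
    linarith
  have hN0 : 0 < N' := by linarith
  have hx0 : 0 < 1 / N' := by positivity
  have hx6 : 1 / N' ≤ 1 / 6 := one_div_le_one_div_of_le (by norm_num) hN
  obtain ⟨ρ₁, hρ₁⟩ := hF3 η hη
  set Cp := max C 1 with hCp
  have hCp1 : 1 ≤ Cp := le_max_right _ _
  obtain ⟨ρ, hρ, hDC, hDs⟩ := exists_slow D hmono hF3' hF5 hx0 hx6 Cp
    (max (max ρ₀ ρ₁) (exp 1))
  have hρe : exp 1 ≤ ρ := (le_max_right _ _).trans hρ
  have hρρ : ρ₀ ≤ ρ := ((le_max_left _ _).trans (le_max_left _ _)).trans hρ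
  have hρρ1 : ρ₁ ≤ ρ := ((le_max_right _ _).trans (le_max_left _ _)).trans hρ
  have hρ1 : 1 ≤ ρ := by
    have := Real.add_one_le_exp (1 : ℝ)
    linarith
  have hρ0 : 0 < ρ := by linarith
  have hlρ : 1 ≤ log ρ := by
    rw [← Real.log_exp 1]; exact Real.log_le_log (exp_pos _) hρe
  have hDρ : 1 ≤ D ρ := by nlinarith
  have hup := (hP ρ).2.1
  have hlog1 : log (1 / u (P ρ)) = D ρ := by
    rw [one_div, Real.log_inv]
  refine ⟨ρ, hρρ, P ρ, (hP ρ).1, hup, ?_, ?_, ?_, ?_, ?_⟩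
  · have : log (u (P ρ)) < 0 := by simp only [hD] at hDρ; linarith
    exact (Real.log_neg_iff hup).mp this
  · rw [hlog1]
    refine le_trans ?_ hDC
    exact mul_le_mul_of_nonneg_right (le_max_left _ _) (by linarith)
  · rw [hlog1]; exact hρ₁ ρ hρρ1
  · intro y hy
    rcases (hu0 y hy).eq_or_lt with h0 | h0
    · rw [← h0, zero_mul]; exact hup.le
    · have h1 := (hP ρ).2.2 y hy h0
      rw [← Real.exp_log h0, ← Real.exp_add, ← Real.exp_log hup]
      apply Real.exp_le_exp.mpr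
      linarith
  · intro y hy
    rcases (hu0 y hy).eq_or_lt with h0 | h0
    · rw [← h0, zero_mul]; positivity
    · have h1 := sel_localise hρ0 hx0 (by linarith : 1 / N' < 1) (hP ρ) (hP _) (hP _) hy h0
      rw [Real.rpow_def_of_pos hup, ← Real.exp_log h0, ← Real.exp_add, ← Real.exp_add]
      apply Real.exp_le_exp.mpr
      have h2 : 1 / N' * (log (u (P (ρ * (1 - 1 / N')))) - log (u (P (ρ * (1 + 1 / N'))))) ≤
          6 / N' ^ 2 * D ρ := by
        have h3 : 1 / N' * (D (ρ * (1 + 1 / N')) - D (ρ * (1 - 1 / N'))) ≤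
            1 / N' * (6 * (1 / N') * D ρ) := mul_le_mul_of_nonneg_left hDs hx0.le
        have h4 : 1 / N' * (6 * (1 / N') * D ρ) = 6 / N' ^ 2 * D ρ := by
          field_simp
        rw [h4] at h3
        refine le_trans (le_of_eq ?_) h3
        simp only [hD]; ring
      have h5 : ρ * (1 / N') * |G y - G (P ρ)| = ρ / N' * |G y - G (P ρ)| := by
        field_simp
      rw [h5] at h1
      simp only [hD] at h2
      linarith

end Vale.Agent.P088.R2.H404
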