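import Vale.Agent.P088.R2.H960.Ipl

/-!
# P088, stage 3, closing argument: weighted interpolation (S2)

From `|f| exp (ρ (G - g)) ≤ L δ exp (-(ρ q / N) |G - g|)` and a bound of the derivatives of order
`m` the derivatives of order `≤ J`, `J (N + q) ≤ m`, satisfy the same bound with small losses.
-/

open Set Filter Topology
open scoped ContDiff

noncomputable section

namespace Vale.Agent.P088.R2.H404

/-- scalar part of the weighted interpolation, `T < 1` -/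
theorem winterp_scal {J m : ℕ} {q N ρ t δ : ℝ} (hm : 0 < m) (hN : 1 ≤ N) (hq : 0 ≤ q)
    (hρ : 0 ≤ ρ) (hδ0 : 0 < δ) (hJ : J * (N + q) ≤ m) :
    Real.exp (ρ * t) * (δ * Real.exp (-(ρ * t) - ρ * q / N * |t|)) ^ (1 - (J : ℝ) / m) ≤
      δ ^ (1 - (J : ℝ) / m) * Real.exp (-(ρ * (q - 1) / N * |t|)) := by
  have hm0 : (0 : ℝ) < m := by exact_mod_cast hm
  rw [Real.mul_rpow hδ0.le (Real.exp_pos _).le, ← Real.exp_mul]
  have e : Real.exp (ρ * t) * (δ ^ (1 - (J : ℝ) / m) *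
      Real.exp ((-(ρ * t) - ρ * q / N * |t|) * (1 - (J : ℝ) / m))) =
      δ ^ (1 - (J : ℝ) / m) *
        Real.exp (ρ * t + (-(ρ * t) - ρ * q / N * |t|) * (1 - (J : ℝ) / m)) := by
    rw [Real.exp_add]; ring
  rw [e]
  refine mul_le_mul_of_nonneg_left (Real.exp_le_exp.2 ?_) (Real.rpow_nonneg hδ0.le _)
  have hN0 : 0 < N := by linarith
  have h1 : (J : ℝ) / m * (N + q) ≤ 1 := by
    rw [div_mul_eq_mul_div, div_le_one hm0]; exact hJ
  have h2 : t ≤ |t| := le_abs_self t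
  have hJm : 0 ≤ (J : ℝ) / m := by positivity
  -- exponent = (J/m) (ρ t + ρ q / N |t|) - ρ q/N |t|
  have h3 : ρ * t + (-(ρ * t) - ρ * q / N * |t|) * (1 - (J : ℝ) / m) =
      (J : ℝ) / m * (ρ * t) + (J : ℝ) / m * (ρ * q / N * |t|) - ρ * q / N * |t| := by ring
  rw [h3]
  have h4 : (J : ℝ) / m * (ρ * t) ≤ (J : ℝ) / m * (ρ * |t|) := by gcongr
  have h5 : (J : ℝ) / m * (ρ * |t|) + (J : ℝ) / m * (ρ * q / N * |t|) =
      (J : ℝ) / m * (N + q) * (ρ / N * |t|) := by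
    field_simp
  have h6 : (J : ℝ) / m * (N + q) * (ρ / N * |t|) ≤ 1 * (ρ / N * |t|) :=
    mul_le_mul_of_nonneg_right h1 (by positivity)
  have h7 : -(ρ * (q - 1) / N * |t|) = 1 * (ρ / N * |t|) - ρ * q / N * |t| := by
    field_simp; ring
  rw [h7]
  linarith

/-- the size of `f` on a small ball -/
theorem winterp_A {F ρ Gx Gy g c L δ : ℝ} (hρ : 0 ≤ ρ) (hc : 0 ≤ c) (hcρ : c ≤ ρ) (hL : 0 ≤ L)
    (hδ : 0 ≤ δ) (h : F * Real.exp (ρ * (Gx - g)) ≤ L * δ * Real.exp (-(c * |Gx - g|)))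
    (h1 : ρ * |Gx - Gy| ≤ 1) :
    F ≤ Real.exp 2 * (L * (δ * Real.exp (-(ρ * (Gy - g)) - c * |Gy - g|))) := by
  have a5 : F ≤ L * δ * Real.exp (-(c * |Gx - g|)) * Real.exp (-(ρ * (Gx - g))) := by
    have e : F = F * Real.exp (ρ * (Gx - g)) * Real.exp (-(ρ * (Gx - g))) := by
      rw [mul_assoc, ← Real.exp_add]; simp
    rw [e]
    exact mul_le_mul_of_nonneg_right h (Real.exp_pos _).le
  refine a5.trans ?_
  have e1 : L * δ * Real.exp (-(c * |Gx - g|)) * Real.exp (-(ρ * (Gx - g))) =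
      L * δ * Real.exp (-(c * |Gx - g|) + -(ρ * (Gx - g))) := by
    rw [Real.exp_add]; ring
  have e2 : Real.exp 2 * (L * (δ * Real.exp (-(ρ * (Gy - g)) - c * |Gy - g|))) =
      L * δ * Real.exp (2 + (-(ρ * (Gy - g)) - c * |Gy - g|)) := by
    rw [Real.exp_add]; ring
  rw [e1, e2]
  refine mul_le_mul_of_nonneg_left (Real.exp_le_exp.2 ?_) (by positivity)
  have b1 : |Gy - g| ≤ |Gx - g| + |Gx - Gy| := by
    have : Gy - g = (Gx - g) - (Gx - Gy) := by ring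
    rw [this]; exact abs_sub _ _
  have b3 : c * |Gy - g| ≤ c * |Gx - g| + ρ * |Gx - Gy| := by
    calc c * |Gy - g| ≤ c * (|Gx - g| + |Gx - Gy|) := by gcongr
      _ = c * |Gx - g| + c * |Gx - Gy| := by ring
      _ ≤ _ := by gcongr
  have b4 : ρ * (Gy - g) ≤ ρ * (Gx - g) + ρ * |Gx - Gy| := by
    have e3 := neg_abs_le (Gx - Gy)
    have e4 : Gy - g ≤ (Gx - g) + |Gx - Gy| := by linarith
    calc ρ * (Gy - g) ≤ ρ * ((Gx - g) + |Gx - Gy|) := by gcongr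
      _ = _ := by ring
  linarith

theorem winterp_p1 {T X : ℝ} (hT0 : 0 < T) (hX0 : 0 < X) {m : ℕ} (j : ℕ) (a : ℝ) :
    a * T / (T ^ ((1 : ℝ) / m) / X) ^ j = a * X ^ j * T ^ (1 - (j : ℝ) / m) := by
  have c1 : (T ^ ((1 : ℝ) / m) / X) ^ j = T ^ ((j : ℝ) / m) / X ^ j := by
    rw [div_pow, ← Real.rpow_natCast (T ^ ((1 : ℝ) / m)) j, ← Real.rpow_mul hT0.le]
    congr 2; ring
  have c2 : T ^ (1 - (j : ℝ) / m) = T / T ^ ((j : ℝ) / m) := by
    rw [Real.rpow_sub hT0, Real.rpow_one]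
  have c3 : 0 < T ^ ((j : ℝ) / m) := Real.rpow_pos_of_pos hT0 _
  rw [c1, c2]
  field_simp

theorem winterp_p2 {T X : ℝ} (hT0 : 0 < T) (hX1 : 1 ≤ X) {m j : ℕ} (hm : 0 < m) (hjm : j ≤ m) :
    (T ^ ((1 : ℝ) / m) / X) ^ (m - j) ≤ T ^ (1 - (j : ℝ) / m) := by
  have hm0 : (0 : ℝ) < m := by exact_mod_cast hm
  have hTm0 : 0 < T ^ ((1 : ℝ) / m) := Real.rpow_pos_of_pos hT0 _
  have c1 : T ^ ((1 : ℝ) / m) / X ≤ T ^ ((1 : ℝ) / m) := div_le_self hTm0.le hX1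
  have hX0 : 0 < X := by linarith
  have c2 : (T ^ ((1 : ℝ) / m) / X) ^ (m - j) ≤ (T ^ ((1 : ℝ) / m)) ^ (m - j) :=
    pow_le_pow_left₀ (by positivity) c1 _
  refine c2.trans (le_of_eq ?_)
  rw [← Real.rpow_natCast, ← Real.rpow_mul hT0.le]
  congr 1
  rw [Nat.cast_sub hjm]
  field_simp

theorem winterp_fin {C₀ e2 L H X D τj τJ rr : ℝ} {j J : ℕ} (hC₀ : 0 ≤ C₀) (he : 0 ≤ e2)
    (hL : 1 ≤ L) (hH : 1 ≤ H) (hX : 1 ≤ X) (hj : j ≤ J) (hτ0 : 0 ≤ τj) (hτ : τj ≤ τJ)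
    (hr : rr ≤ τj) (h : D ≤ C₀ * (e2 * L * X ^ j * τj + H * rr)) :
    D ≤ C₀ * (e2 + 1) * (H * L * X ^ J) * τJ := by
  have hXJ : X ^ j ≤ X ^ J := pow_le_pow_right₀ hX hj
  have hX1 : 1 ≤ X ^ J := one_le_pow₀ hX
  have hXj : 0 ≤ X ^ j := by positivity
  have hLX : 1 ≤ L * X ^ J := by nlinarith
  have hHLX : L * X ^ J ≤ H * L * X ^ J := by nlinarith
  have q1 : e2 * L * X ^ j * τj ≤ e2 * (H * L * X ^ J) * τJ := by
    have c1 : L * X ^ j ≤ H * L * X ^ J := by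
      have : L * X ^ j ≤ L * X ^ J := by gcongr
      linarith
    have c2 : e2 * L * X ^ j ≤ e2 * (H * L * X ^ J) := by
      rw [mul_assoc]; gcongr
    exact mul_le_mul c2 hτ hτ0 (by positivity)
  have q2 : H * rr ≤ (H * L * X ^ J) * τJ := by
    have c1 : H ≤ H * L * X ^ J := by
      rw [mul_assoc]; nlinarith
    calc H * rr ≤ H * τJ := by
          refine mul_le_mul_of_nonneg_left (hr.trans hτ) (by linarith)
      _ ≤ _ := mul_le_mul_of_nonneg_right c1 (hτ0.trans hτ)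
  calc D ≤ C₀ * (e2 * L * X ^ j * τj + H * rr) := h
    _ ≤ C₀ * (e2 * (H * L * X ^ J) * τJ + (H * L * X ^ J) * τJ) := by gcongr
    _ = _ := by ring

theorem winterp_deep {C₀ e2 L H X D r₁ R Y : ℝ} {j J k : ℕ} (hC₀ : 0 ≤ C₀) (he : 1 ≤ e2)
    (hL : 1 ≤ L) (hH : 1 ≤ H) (hr₁ : 0 < r₁) (hr1 : r₁ ≤ 1) (hX : 1 ≤ X) (hrX : 1 / r₁ ≤ X)
    (hj : j ≤ J) (hY : 0 ≤ Y) (hYR : Y ≤ R) (h : D ≤ C₀ * (H / r₁ ^ j + H * r₁ ^ k)) :
    D * Y ≤ C₀ * (e2 + 1) * (H * L * X ^ J) * R := by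
  have h3 : H / r₁ ^ j ≤ H * X ^ J := by
    have : 1 / r₁ ^ j ≤ X ^ j := by
      rw [← one_div_pow]
      exact pow_le_pow_left₀ (by positivity) hrX j
    calc H / r₁ ^ j = H * (1 / r₁ ^ j) := by ring
      _ ≤ H * X ^ j := by gcongr
      _ ≤ _ := by gcongr
  have h4 : H * r₁ ^ k ≤ H * X ^ J := by
    have a1 : r₁ ^ k ≤ 1 := pow_le_one₀ hr₁.le hr1
    have a2 : 1 ≤ X ^ J := one_le_pow₀ hX
    have : r₁ ^ k ≤ X ^ J := a1.trans a2
    gcongr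
  have h5 : D ≤ C₀ * (2 * (H * X ^ J)) := by
    refine h.trans ?_
    gcongr
    linarith
  have a : H * X ^ J ≤ H * L * X ^ J := by
    have : H ≤ H * L := by nlinarith
    gcongr
  have a0 : 0 ≤ H * X ^ J := by positivity
  have h6 : D ≤ C₀ * (e2 + 1) * (H * L * X ^ J) := by
    calc D ≤ C₀ * (2 * (H * X ^ J)) := h5
      _ ≤ C₀ * ((e2 + 1) * (H * L * X ^ J)) := by
          gcongr
          linarith
      _ = _ := by ring
  calc D * Y ≤ C₀ * (e2 + 1) * (H * L * X ^ J) * Y := by gcongr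
    _ ≤ _ := by gcongr

variable {E : Type} [NormedAddCommGroup E] [NormedSpace ℝ E]

/-- **S2, weighted interpolation** -/
theorem winterp (m J : ℕ) (hm : 1 ≤ m) : ∃ C : ℝ, 1 ≤ C ∧ ∀ (f G : E → ℝ)
    (y : E) (r₁ ρ δ L q N Λ H g : ℝ), 0 < r₁ → r₁ ≤ 1 → 1 ≤ ρ → 0 < δ → δ ≤ 1 → 1 ≤ L → 0 ≤ q →
    q ≤ N → 1 ≤ N → 1 ≤ Λ → 1 ≤ H → J * (N + q) ≤ m →
    ContDiffOn ℝ ∞ f (Metric.ball y r₁) →
    (∀ x ∈ Metric.ball y r₁, |f x| ≤ H ∧ ‖iteratedFDeriv ℝ m f x‖ ≤ H) →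
    (∀ x ∈ Metric.ball y r₁, |G x - G y| ≤ Λ * dist x y) →
    (∀ x ∈ Metric.ball y r₁, |f x| * Real.exp (ρ * (G x - g)) ≤
      L * δ * Real.exp (-(ρ * q / N * |G x - g|))) →
    ∀ j ≤ J, ‖iteratedFDeriv ℝ j f y‖ * Real.exp (ρ * (G y - g)) ≤
      C * (H * L * (ρ * Λ / r₁) ^ J) *
        (δ ^ (1 - (J : ℝ) / m) * Real.exp (-(ρ * (q - 1) / N * |G y - g|))) := by
  obtain ⟨C₀, hC₀, itp⟩ := Vale.Agent.P088.HY.Ipl.itp (E := E) m
  refine ⟨C₀ * (Real.exp 2 + 1), ?_, ?_⟩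
  · have := Real.exp_pos 2; nlinarith
  intro f G y r₁ ρ δ L q N Λ H g hr₁ hr1 hρ hδ0 hδ1 hL hq hqN hN hΛ hH hJm hf hb hG hw j hj
  have hm0 : (0 : ℝ) < m := by exact_mod_cast hm
  have hN0 : 0 < N := by linarith
  have hjm : j ≤ m := by
    have h1 : (J : ℝ) ≤ m := by
      have : (J : ℝ) * 1 ≤ J * (N + q) := by gcongr; linarith
      linarith
    have : J ≤ m := by exact_mod_cast h1
    omega
  set t := G y - g with ht
  set T := δ * Real.exp (-(ρ * t) - ρ * q / N * |t|) with hT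
  have hT0 : 0 < T := by positivity
  set X := ρ * Λ / r₁ with hX
  have hρΛ : 1 ≤ ρ * Λ := by nlinarith
  have hX1 : 1 ≤ X := by
    rw [hX, le_div_iff₀ hr₁]; nlinarith
  have hXJ : X ^ j ≤ X ^ J := pow_le_pow_right₀ hX1 hj
  have hX0 : 0 < X := by linarith
  have hE1 : 1 ≤ Real.exp 2 := Real.one_le_exp (by norm_num)
  set R := δ ^ (1 - (J : ℝ) / m) * Real.exp (-(ρ * (q - 1) / N * |t|)) with hR
  have hR0 : 0 < R := by positivity
  have hJm1 : (J : ℝ) / m ≤ 1 := by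
    rw [div_le_one hm0]
    have : (J : ℝ) * 1 ≤ J * (N + q) := by gcongr; linarith
    linarith
  have key : Real.exp (ρ * t) * T ^ (1 - (J : ℝ) / m) ≤ R :=
    winterp_scal (by omega) hN hq (by linarith) hδ0 hJm
  rcases le_or_gt 1 T with h1T | hT1
  · -- deep region
    have h2 := itp ℝ f y r₁ H H hr₁ (by linarith) (by linarith) hf
      (fun x hx => ⟨by rw [Real.norm_eq_abs]; exact (hb x hx).1, (hb x hx).2⟩) j hjm
    have h6 : Real.exp (ρ * t) ≤ R := by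
      refine le_trans ?_ key
      have : 1 ≤ T ^ (1 - (J : ℝ) / m) := Real.one_le_rpow h1T (by linarith)
      nlinarith [Real.exp_pos (ρ * t)]
    exact winterp_deep (by linarith) hE1 hL hH hr₁ hr1 hX1 (by rw [hX]; gcongr) hj
      (Real.exp_pos _).le h6 h2
  · -- the interesting region
    set r := T ^ ((1 : ℝ) / m) / X with hr
    have hTm1 : T ^ ((1 : ℝ) / m) ≤ 1 := Real.rpow_le_one hT0.le hT1.le (by positivity)
    have hTm0 : 0 < T ^ ((1 : ℝ) / m) := Real.rpow_pos_of_pos hT0 _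
    have hr0 : 0 < r := by positivity
    have hrr1 : r ≤ r₁ := by
      rw [hr, div_le_iff₀ hX0, hX]
      have : r₁ * (ρ * Λ / r₁) = ρ * Λ := by field_simp
      rw [this]; linarith
    have hrρ : ρ * (Λ * r) ≤ 1 := by
      have e : ρ * (Λ * r) = T ^ ((1 : ℝ) / m) * r₁ := by
        rw [hr, hX]; field_simp
      rw [e]
      nlinarith
    have hsub : Metric.ball y r ⊆ Metric.ball y r₁ := Metric.ball_subset_ball hrr1
    have hA : ∀ x ∈ Metric.ball y r, |f x| ≤ Real.exp 2 * (L * T) := by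
      intro x hx
      have a1 := hw x (hsub hx)
      have a2 := hG x (hsub hx)
      have a3 : dist x y ≤ r := (Metric.mem_ball.1 hx).le
      have a4 : ρ * |G x - G y| ≤ 1 := by
        calc ρ * |G x - G y| ≤ ρ * (Λ * r) := by
              refine mul_le_mul_of_nonneg_left (a2.trans ?_) (by linarith)
              gcongr
          _ ≤ 1 := hrρ
      exact winterp_A (by linarith) (by positivity)
        (by rw [div_le_iff₀ hN0]; nlinarith) (by linarith) hδ0.le a1 a4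
    have h2 := itp ℝ f y r (Real.exp 2 * (L * T)) H hr0 (by positivity) (by linarith)
      (hf.mono hsub) (fun x hx => ⟨by rw [Real.norm_eq_abs]; exact hA x hx, (hb x (hsub hx)).2⟩) j
      hjm
    -- powers
    have p1 : Real.exp 2 * (L * T) / r ^ j = Real.exp 2 * L * X ^ j * T ^ (1 - (j : ℝ) / m) := by
      rw [← mul_assoc]; exact winterp_p1 hT0 hX0 j _
    have p2 : r ^ (m - j) ≤ T ^ (1 - (j : ℝ) / m) := winterp_p2 hT0 hX1 (by omega) hjm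
    have p3 : T ^ (1 - (j : ℝ) / m) ≤ T ^ (1 - (J : ℝ) / m) := by
      refine Real.rpow_le_rpow_of_exponent_ge hT0 hT1.le ?_
      have : (j : ℝ) / m ≤ (J : ℝ) / m := by gcongr
      linarith
    have hTJ0 : 0 < T ^ (1 - (J : ℝ) / m) := Real.rpow_pos_of_pos hT0 _
    have h5 : ‖iteratedFDeriv ℝ j f y‖ ≤
        C₀ * (Real.exp 2 + 1) * (H * L * X ^ J) * T ^ (1 - (J : ℝ) / m) := by
      rw [p1] at h2
      exact winterp_fin (by linarith) (by linarith) hL hH hX1 hj (Real.rpow_nonneg hT0.le _) p3 p2 h2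
    calc ‖iteratedFDeriv ℝ j f y‖ * Real.exp (ρ * t)
        ≤ C₀ * (Real.exp 2 + 1) * (H * L * X ^ J) * T ^ (1 - (J : ℝ) / m) * Real.exp (ρ * t) := by
          gcongr
      _ = C₀ * (Real.exp 2 + 1) * (H * L * X ^ J) *
          (Real.exp (ρ * t) * T ^ (1 - (J : ℝ) / m)) := by ring
      _ ≤ _ := by gcongr

end Vale.Agent.P088.R2.H404
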